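import Vale.Agent.P253.R2.H445.VF.Gauge
import Vale.Agent.P253.R2.H445.Defs

/-!
P253: the two gauges (logarithm and fourth root), and completeness of vector fields.
-/

open scoped Manifold ContDiff Topology Bundle
open Set Metric Complex Filter IsManifold Vale.Agent.P253.Mfd

set_option maxSynthPendingDepth 3
set_option linter.unusedSectionVars false

noncomputable section

namespace Vale.Agent.P253.R2.H445

/-- the logarithmic gauge -/
theorem gauge_log : Gauge (fun ζ => -Real.log ‖ζ‖) {0}ᶜ where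
  isOpen := isOpen_compl_singleton
  bdd q := by
    refine ⟨Real.exp (-q), fun ζ hζ h => ?_⟩
    have h0 : 0 < ‖ζ‖ := norm_pos_iff.2 hζ
    rw [← Real.log_le_iff_le_exp h0]
    linarith
  ray ζ hζ t ht := by
    have h0 : 0 < ‖ζ‖ := norm_pos_iff.2 hζ
    refine ⟨mul_ne_zero (by exact_mod_cast ht.1.ne') hζ, ?_⟩
    have h1 : ‖(t:ℂ) * ζ‖ = t * ‖ζ‖ := by
      rw [norm_mul, norm_real, Real.norm_eq_abs, abs_of_pos ht.1]
    simp only [h1]
    rw [Real.log_mul ht.1.ne' h0.ne']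
    have := Real.log_neg ht.1 ht.2
    linarith
  harm ζ hζ := by
    have hζ0 : ζ ≠ 0 := hζ
    have hVo : IsOpen {w : ℂ | w / ζ ∈ slitPlane} :=
      isOpen_slitPlane.preimage (by fun_prop)
    have hder : ∀ w : ℂ, w / ζ ∈ slitPlane →
        HasDerivAt (fun w => -log (w / ζ) - (Real.log ‖ζ‖ : ℂ)) (-(1 / ζ / (w / ζ))) w := by
      intro w hw
      have h1 : HasDerivAt (fun w : ℂ => w / ζ) (1 / ζ) w := (hasDerivAt_id w).div_const ζ
      exact (h1.clog hw).neg.sub_const _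
    refine ⟨{w : ℂ | w / ζ ∈ slitPlane}, fun w => -log (w / ζ) - (Real.log ‖ζ‖ : ℂ), hVo, ?_, ?_,
      ?_, ?_, ?_⟩
    · rintro w hw rfl
      simp only [mem_ofPred_eq, zero_div] at hw
      exact zero_notMem_slitPlane hw
    · intro t ht
      simp only [mem_ofPred_eq]
      rw [mul_div_assoc, div_self hζ0, mul_one]
      exact ofReal_mem_slitPlane.2 (by linarith [ht.1])
    · exact fun w hw => (hder w hw).differentiableAt.differentiableWithinAt
    · intro w hw
      have hw0 : w ≠ 0 := by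
        rintro rfl
        simp only [mem_ofPred_eq, zero_div] at hw
        exact zero_notMem_slitPlane hw
      simp only [sub_re, neg_re, log_re, ofReal_re, norm_div]
      rw [Real.log_div (norm_ne_zero_iff.2 hw0) (norm_ne_zero_iff.2 hζ0)]
      ring
    · intro t ht
      have ht0 : 0 < t := by linarith [ht.1]
      have htC : (t:ℂ) ≠ 0 := by exact_mod_cast ht0.ne'
      have h1 : (t:ℂ) * ζ / ζ ∈ slitPlane := by
        rw [mul_div_assoc, div_self hζ0, mul_one]
        exact ofReal_mem_slitPlane.2 ht0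
      rw [(hder _ h1).deriv]
      have h2 : -(1 / ζ / ((t:ℂ) * ζ / ζ)) * ζ = ((-(1 / t) : ℝ) : ℂ) := by
        push_cast; field_simp
      rw [h2, ofReal_re]
      have : 0 < 1 / t := by positivity
      linarith

/-- the principal fourth root of `-ζ` -/
def r4 (ζ : ℂ) : ℂ := exp (log (-ζ) / 4)

theorem r4_re (ζ : ℂ) : (r4 ζ).re = Real.exp (Real.log ‖ζ‖ / 4) * Real.cos (arg (-ζ) / 4) := by
  have h1 : (log (-ζ) / 4).re = Real.log ‖ζ‖ / 4 := by
    have : log (-ζ) / 4 = ((1 / 4 : ℝ) : ℂ) * log (-ζ) := by push_cast; ring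
    rw [this, re_ofReal_mul, log_re, norm_neg]
    ring
  have h2 : (log (-ζ) / 4).im = arg (-ζ) / 4 := by
    have : log (-ζ) / 4 = ((1 / 4 : ℝ) : ℂ) * log (-ζ) := by push_cast; ring
    rw [this, im_ofReal_mul, log_im]
    ring
  rw [r4, exp_re, h1, h2]

theorem half_le_cos (ζ : ℂ) : 1 / 2 ≤ Real.cos (arg (-ζ) / 4) := by
  have h1 := Real.pi_pos
  have h2 := neg_pi_lt_arg (-ζ)
  have h3 := arg_le_pi (-ζ)
  rw [← Real.cos_pi_div_three, ← Real.cos_abs (arg (-ζ) / 4)]
  apply Real.cos_le_cos_of_nonneg_of_le_pi (abs_nonneg _) (by linarith)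
  rw [abs_le]
  constructor <;> linarith

theorem r4_pos (ζ : ℂ) : 0 < (r4 ζ).re := by
  rw [r4_re]
  have := half_le_cos ζ
  positivity

theorem r4_mul {t : ℝ} (ht : 0 < t) {ζ : ℂ} (hζ : ζ ≠ 0) :
    r4 ((t:ℂ) * ζ) = ((Real.exp (Real.log t / 4) : ℝ) : ℂ) * r4 ζ := by
  have h1 : -((t:ℂ) * ζ) = (t:ℂ) * -ζ := by ring
  rw [r4, h1, log_ofReal_mul ht (neg_ne_zero.2 hζ), r4]
  rw [add_div, exp_add]
  congr 1
  push_cast
  rfl

theorem gauge_quarter : Gauge (fun ζ => -(r4 ζ).re) {ζ | -ζ ∈ slitPlane} where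
  isOpen := isOpen_slitPlane.preimage continuous_neg
  bdd q := by
    refine ⟨(2 * |q|) ^ 4, fun ζ hζ h => ?_⟩
    have hζ0 : ζ ≠ 0 := by
      rintro rfl
      simp only [mem_ofPred_eq, neg_zero] at hζ
      exact zero_notMem_slitPlane hζ
    have h0 : 0 < ‖ζ‖ := norm_pos_iff.2 hζ0
    have h1 := half_le_cos ζ
    have h2 := Real.exp_pos (Real.log ‖ζ‖ / 4)
    have h3 : Real.exp (Real.log ‖ζ‖ / 4) ≤ 2 * |q| := by
      have h4 : Real.exp (Real.log ‖ζ‖ / 4) * (1 / 2) ≤ (r4 ζ).re := by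
        rw [r4_re]; gcongr
      have h5 : (r4 ζ).re ≤ |q| := by
        have := neg_abs_le q
        linarith
      linarith
    have h6 : ‖ζ‖ = Real.exp (Real.log ‖ζ‖ / 4) ^ 4 := by
      rw [← Real.exp_nat_mul]
      push_cast
      rw [mul_div_cancel₀ _ (by norm_num : (4:ℝ) ≠ 0), Real.exp_log h0]
    rw [h6]
    gcongr
  ray ζ hζ t ht := by
    have hζ0 : ζ ≠ 0 := by
      rintro rfl
      simp only [mem_ofPred_eq, neg_zero] at hζ
      exact zero_notMem_slitPlane hζ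
    refine ⟨?_, ?_⟩
    · have h1 : -((t:ℂ) * ζ) = (t:ℂ) * -ζ := by ring
      simp only [mem_ofPred_eq, h1]
      have hζ' : -ζ ∈ slitPlane := hζ
      rw [mem_slitPlane_iff] at hζ' ⊢
      rw [re_ofReal_mul, im_ofReal_mul]
      rcases hζ' with h | h
      · exact Or.inl (mul_pos ht.1 h)
      · exact Or.inr (mul_ne_zero ht.1.ne' h)
    · simp only [r4_mul ht.1 hζ0, re_ofReal_mul]
      have h1 := r4_pos ζ
      have h2 : Real.exp (Real.log t / 4) < 1 := by
        rw [Real.exp_lt_one_iff]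
        have := Real.log_neg ht.1 ht.2
        linarith
      nlinarith
  harm ζ hζ := by
    have hζ0 : ζ ≠ 0 := by
      rintro rfl
      simp only [mem_ofPred_eq, neg_zero] at hζ
      exact zero_notMem_slitPlane hζ
    have hder : ∀ w : ℂ, -w ∈ slitPlane →
        HasDerivAt (fun w => -r4 w) (-(r4 w * (-1 / -w / 4))) w := by
      intro w hw
      have h1 : HasDerivAt (fun w : ℂ => -w) (-1) w := hasDerivAt_neg w
      exact (((h1.clog hw).div_const 4).cexp).neg
    have hmem : ∀ t ∈ Icc (1/2:ℝ) 1, -((t:ℂ) * ζ) ∈ slitPlane := by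
      intro t ht
      have ht0 : 0 < t := by linarith [ht.1]
      have h1 : -((t:ℂ) * ζ) = (t:ℂ) * -ζ := by ring
      rw [h1]
      simp only [mem_ofPred_eq] at hζ
      rw [mem_slitPlane_iff] at hζ ⊢
      rw [re_ofReal_mul, im_ofReal_mul]
      rcases hζ with h | h
      · exact Or.inl (mul_pos ht0 h)
      · exact Or.inr (mul_ne_zero ht0.ne' h)
    refine ⟨{w | -w ∈ slitPlane}, fun w => -r4 w, isOpen_slitPlane.preimage continuous_neg,
      Subset.rfl, hmem, ?_, ?_, ?_⟩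
    · exact fun w hw => (hder w hw).differentiableAt.differentiableWithinAt
    · intro w _
      simp only [neg_re]
    · intro t ht
      have ht0 : 0 < t := by linarith [ht.1]
      have htC : (t:ℂ) ≠ 0 := by exact_mod_cast ht0.ne'
      rw [(hder _ (hmem t ht)).deriv]
      have h2 : -(r4 ((t:ℂ) * ζ) * (-1 / -((t:ℂ) * ζ) / 4)) * ζ =
          ((-(1 / (4 * t)) : ℝ) : ℂ) * r4 ((t:ℂ) * ζ) := by
        push_cast; field_simp
      rw [h2, re_ofReal_mul]
      have h3 := r4_pos ((t:ℂ) * ζ)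
      have h4 : 0 < 1 / (4 * t) := by positivity
      nlinarith

variable {E : Type*} [NormedAddCommGroup E] [NormedSpace ℂ E] [FiniteDimensional ℂ E]
  {M : Type*} [MetricSpace M] [ChartedSpace E M] [IsManifold 𝓘(ℂ, E) 1 M]
  {X : M → E}

/-- if all complex-time orbits are complete, there is a holomorphic action of `ℂ` -/
theorem exists_cflow_of_univ [IsManifold 𝓘(ℝ, E) ∞ M] (hX : IsHolVectorField E X) (h : DS X = univ) :
    IsHolCFlow E (FS X) ∧ ∀ x, IsOrbitOn E X (fun ζ => FS X ζ x) univ := by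
  have hm : ∀ q : ℂ × M, q ∈ DS X := fun q => h ▸ mem_univ q
  have horb : ∀ x, IsOrbitOn E X (fun ζ => FS X ζ x) univ := fun x =>
    orb_mono (orb_FS hX x) (fun ζ _ => hm (ζ, x))
  refine ⟨⟨FS_zero hX, fun s t x => ?_, fun q => ?_⟩, horb⟩
  · have h1 : IsOrbitOn E X (fun ζ => FS X (ζ + t) x) univ := orb_mono (orb_shift (horb x) t)
      (fun _ _ => mem_univ _)
    exact orbit_eqOn hX isOpen_univ isPreconnected_univ h1 (horb (FS X t x)) (mem_univ 0)
      (by simp only [zero_add, FS_zero hX]) (mem_univ s)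
  · exact H156.contMDiffAt_prod isOpen_univ (mem_univ q) fun p _ => mdiff_FS hX (hm p)

/-- uniqueness of the flow of a vector field -/
theorem cflow_unique_of_orbit (hX : IsHolVectorField E X) {ψ ψ' : ℂ → M → M}
    (h0 : ∀ x, ψ 0 x = x) (h0' : ∀ x, ψ' 0 x = x)
    (h : ∀ x, IsOrbitOn E X (fun ζ => ψ ζ x) univ)
    (h' : ∀ x, IsOrbitOn E X (fun ζ => ψ' ζ x) univ) : ψ = ψ' := by
  funext ζ x
  exact orbit_eqOn hX isOpen_univ isPreconnected_univ (h x) (h' x) (mem_univ 0)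
    (by simp only [h0, h0']) (mem_univ ζ)

/-- Theorem S, first form: a vector field whose forward orbits exist for all positive times -/
theorem complete_of_forward (hKP : H156.KP E M)
    (hL : ∀ u : M → EReal, UpperSemicontinuous u → (∀ x, u x ≤ 0) → H156.NoTouch E u →
      ∃ C, ∀ x, u x = C) (hX : IsHolVectorField E X)
    (hR : ∀ (x : M) (t : ℝ), 0 ≤ t → ((t:ℂ), x) ∈ DS X) : DS X = univ := by
  have hS : ∀ (x : M) (ζ : ℂ), (ζ, x) ∉ DS X → ζ ∈ {ζ : ℂ | -ζ ∈ slitPlane} := by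
    intro x ζ hζ
    simp only [mem_ofPred_eq]
    by_contra hcon
    rw [mem_slitPlane_iff] at hcon
    push Not at hcon
    rw [neg_re, neg_im] at hcon
    refine hζ ?_
    have h1 : ζ = ((ζ.re : ℝ) : ℂ) := by
      apply Complex.ext
      · simp
      · simp only [ofReal_im]
        linarith [hcon.2]
    rw [h1]
    exact hR x _ (by linarith [hcon.1])
  obtain ⟨C, hC⟩ := hL (uQ X (fun ζ => -(r4 ζ).re)) (usc_uQ hX gauge_quarter hS)
    (fun x => iSup₂_le fun ζ _ => by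
      have := r4_pos ζ
      exact_mod_cast (by linarith : -(r4 ζ).re ≤ 0)) (noTouch_uQ hKP hX gauge_quarter hS)
  exact DS_univ_of_const hX gauge_quarter hS hC

theorem ne_zero_of_notMem (hX : IsHolVectorField E X) (x : M) (ζ : ℂ) (h : (ζ, x) ∉ DS X) :
    ζ ∈ ({0}ᶜ : Set ℂ) := by
  rintro rfl
  exact h (zero_mem_DS hX x)

/-- slowly shrinking flow radius -/
theorem complete_of_radius (hKP : H156.KP E M) {ρ : M → ℝ}
    (hL : ∀ u : M → EReal, UpperSemicontinuous u → (∀ x, u x ≠ ⊤) → H156.NoTouch E u →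
      (∀ ε > 0, ∀ R₀ : ℝ, ∃ R > R₀, ∀ x, ρ x = R → u x ≤ ((ε * Real.log R : ℝ) : EReal)) →
      ∃ C, ∀ x, u x = C) (hX : IsHolVectorField E X)
    (hR : ∀ ε > 0, ∀ R₀ : ℝ, ∃ R > R₀, ∀ x, ρ x = R → ∀ ζ : ℂ,
      ‖ζ‖ < Real.exp (-(ε * Real.log R)) → (ζ, x) ∈ DS X) : DS X = univ := by
  have hS := ne_zero_of_notMem hX
  obtain ⟨C, hC⟩ := hL (uQ X (fun ζ => -Real.log ‖ζ‖)) (usc_uQ hX gauge_log hS)
    (uQ_ne_top hX gauge_log hS) (noTouch_uQ hKP hX gauge_log hS) (fun ε hε R₀ => by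
      obtain ⟨R, h1, h2⟩ := hR ε hε R₀
      refine ⟨R, h1, fun x hx => iSup₂_le fun ζ hζ => ?_⟩
      refine EReal.coe_le_coe_iff.2 ?_
      by_contra hcon
      push Not at hcon
      refine hζ (h2 x hx ζ ?_)
      have h0 : 0 < ‖ζ‖ := norm_pos_iff.2 (hS x ζ hζ)
      rw [← Real.log_lt_iff_lt_exp h0]
      linarith)
  exact DS_univ_of_const hX gauge_log hS hC

end Vale.Agent.P253.R2.H445
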