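import Mathlib.Geometry.Manifold.IntegralCurve.Basic
import Vale.Agent.P253.R2.H445.VF.Inst

/-!
P253: real-time integral curves of holomorphic vector fields.
-/

open scoped Manifold ContDiff Topology Bundle
open Set Metric Complex Filter IsManifold Vale.Agent.P253.Mfd

set_option maxSynthPendingDepth 3
set_option linter.unusedSectionVars false

noncomputable section

namespace Vale.Agent.P253.R2.H445

variable {E : Type*} [NormedAddCommGroup E] [NormedSpace ℂ E] [FiniteDimensional ℂ E]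
  {M : Type*} [MetricSpace M] [ChartedSpace E M] [IsManifold 𝓘(ℂ, E) 1 M]
  {X : M → E}

/-- the derivative of a holomorphic map as a real derivative -/
theorem hasMFDerivAt_real {f : M → E} {x : M} {D : E →L[ℂ] E}
    (h : HasMFDerivAt 𝓘(ℂ, E) 𝓘(ℂ, E) f x D) :
    HasMFDerivAt 𝓘(ℝ, E) 𝓘(ℝ, E) f x (D.restrictScalars ℝ : E →L[ℝ] E) :=
  ⟨h.1, h.2.restrictScalars ℝ⟩

/-- a real integral curve in a chart -/
theorem curve_chart {e : OpenPartialHomeomorph M E} (he : e ∈ maximalAtlas 𝓘(ℂ, E) 1 M)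
    {γ : ℝ → M} {s : Set ℝ} {t : ℝ}
    (hγ : HasMFDerivWithinAt 𝓘(ℝ, ℝ) 𝓘(ℝ, E) γ s t
      ((1 : ℝ →L[ℝ] ℝ).smulRight (X (γ t)) : ℝ →L[ℝ] E)) (hs : γ t ∈ e.source) :
    HasDerivWithinAt (fun w => e (γ w)) (vfChart E X e (e (γ t))) s t := by
  let D : E →L[ℂ] E := mfderiv 𝓘(ℂ, E) 𝓘(ℂ, E) e (γ t)
  have h1 : HasMFDerivAt 𝓘(ℂ, E) 𝓘(ℂ, E) e (γ t) D := (mdiff_chart he hs).hasMFDerivAt
  have h2 := hasMFDerivAt_real h1
  have h3 : HasMFDerivWithinAt 𝓘(ℝ, ℝ) 𝓘(ℝ, E) (e ∘ γ) s t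
      ((D.restrictScalars ℝ).comp ((1 : ℝ →L[ℝ] ℝ).smulRight (X (γ t))) : ℝ →L[ℝ] E) :=
    h2.comp_hasMFDerivWithinAt t hγ
  have h4 : HasFDerivWithinAt (e ∘ γ)
      ((D.restrictScalars ℝ).comp ((1 : ℝ →L[ℝ] ℝ).smulRight (X (γ t)))) s t :=
    hasMFDerivWithinAt_iff_hasFDerivWithinAt.1 h3
  have h5 := h4.hasDerivWithinAt
  have h6 : ((D.restrictScalars ℝ).comp ((1 : ℝ →L[ℝ] ℝ).smulRight (X (γ t)))) 1 =
      vfChart E X e (e (γ t)) := by
    rw [vfChart_eq hs]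
    simp [D]
    rfl
  rw [h6] at h5
  exact h5

/-- an orbit along a real line, in a chart -/
theorem orbit_real {e : OpenPartialHomeomorph M E} (he : e ∈ maximalAtlas 𝓘(ℂ, E) 1 M)
    {f : ℂ → M} {c : ℂ} {t : ℝ} (hf : OrbAt X f ((t:ℂ) + c)) (hs : f ((t:ℂ) + c) ∈ e.source) :
    HasDerivAt (fun w : ℝ => e (f ((w:ℂ) + c))) (vfChart E X e (e (f ((t:ℂ) + c)))) t := by
  have h1 := orbit_chart he hf hs
  have h2 : HasDerivAt (fun w : ℝ => (w:ℂ) + c) 1 t := (hasDerivAt_id t).ofReal_comp.add_const c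
  have h3 := HasDerivAt.scomp t (h := fun w : ℝ => (w:ℂ) + c) (g₁ := fun w => e (f w)) h1 h2
  rw [one_smul] at h3
  exact h3

/-- a real integral curve starting at `x` which exists for all positive times -/
theorem mem_DS_of_curve (hX : IsHolVectorField E X) {γ : ℝ → M} {x : M} (h0 : γ 0 = x)
    (hγ : ∀ t ∈ Ici (0:ℝ), HasMFDerivWithinAt 𝓘(ℝ, ℝ) 𝓘(ℝ, E) γ (Ici 0) t
      ((1 : ℝ →L[ℝ] ℝ).smulRight (X (γ t)) : ℝ →L[ℝ] E)) {T : ℝ} (hT : 0 ≤ T) :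
    ((T:ℂ), x) ∈ DS X ∧ FS X T x = γ T := by
  refine interval_propagate (P := fun t : ℝ => ((t:ℂ), x) ∈ DS X ∧ FS X t x = γ t) hT ?_ ?_
  swap
  · simp only [ofReal_zero]
    exact ⟨zero_mem_DS hX x, by rw [FS_zero hX, h0]⟩
  intro t₁ ht₁
  have he : chartAt E (γ t₁) ∈ maximalAtlas 𝓘(ℂ, E) 1 M := chart_mem_maximalAtlas (γ t₁)
  set e := chartAt E (γ t₁) with hedef
  have hy : γ t₁ ∈ e.source := mem_chart_source E (γ t₁)
  obtain ⟨δ, hδ, U, hU, hyU, -, hloc, -⟩ := exists_local_FS hX (γ t₁)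
  have hsm : ContDiffAt ℝ 1 (vfChart E X e) (e (γ t₁)) :=
    (((contDiffOn_of_differentiableOn_complex e.open_target (hX e he)).restrict_scalars
      ℝ).contDiffAt (e.open_target.mem_nhds (e.map_source hy))).of_le (by simp)
  obtain ⟨K, s, hs, hK⟩ := hsm.exists_lipschitzOnWith
  -- a good neighbourhood for the curve
  have hγc : ContinuousWithinAt γ (Ici 0) t₁ := (hγ t₁ ht₁.1).continuousWithinAt
  have hsn : e.source ∩ e ⁻¹' s ∈ 𝓝 (γ t₁) :=
    inter_mem (e.open_source.mem_nhds hy) ((e.continuousAt hy).preimage_mem_nhds hs)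
  -- a good neighbourhood for the flow
  have hF : ContinuousAt (fun q : ℂ × M => FS X q.1 q.2) (0, γ t₁) :=
    (mdiff_FS hX (zero_mem_DS hX _)).continuousAt
  have hev : ∀ᶠ q : ℂ × M in 𝓝 (0, γ t₁), FS X q.1 q.2 ∈ e.source ∩ e ⁻¹' s := by
    apply hF.eventually
    simp only [FS_zero hX]
    exact hsn
  rw [nhds_prod_eq] at hev
  obtain ⟨P, hP, N, hN, hPN⟩ := Filter.eventually_prod_iff.1 hev
  obtain ⟨ε₂, hε₂, hb₂⟩ := Metric.eventually_nhds_iff_ball.1 hP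
  have hev1 : ∀ᶠ t in 𝓝[Ici 0] t₁, γ t ∈ e.source ∩ e ⁻¹' s ∧ γ t ∈ U ∧ N (γ t) :=
    (hγc.eventually hsn).and ((hγc.eventually (hU.mem_nhds hyU)).and (hγc.eventually hN))
  rw [eventually_nhdsWithin_iff] at hev1
  obtain ⟨ε₁, hε₁, hb₁⟩ := Metric.eventually_nhds_iff.1 hev1
  refine ⟨min ε₁ (min δ ε₂ / 2), by positivity, fun a ha b hb hat hbt hab hPa => ?_⟩
  have hball : ∀ t ∈ Icc a b, |t - t₁| < min ε₁ (min δ ε₂ / 2) := by
    intro t ht
    rw [abs_lt] at hat hbt ⊢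
    exact ⟨by linarith [hat.1, ht.1], by linarith [hbt.2, ht.2]⟩
  have hγt : ∀ t ∈ Icc a b, γ t ∈ e.source ∩ e ⁻¹' s ∧ γ t ∈ U ∧ N (γ t) := fun t ht =>
    hb₁ (by rw [Real.dist_eq]; exact (hball t ht).trans_le (min_le_left _ _))
      (le_trans ha.1 ht.1)
  have haI : a ∈ Icc a b := ⟨le_rfl, hab⟩
  have hbI : b ∈ Icc a b := ⟨hab, le_rfl⟩
  have hdist : ∀ t ∈ Icc a b, |t - a| < min δ ε₂ := by
    intro t ht
    have h1 := (hball t ht).trans_le (min_le_right _ _)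
    have h2 := (hball a haI).trans_le (min_le_right _ _)
    rw [abs_lt] at h1 h2 ⊢
    exact ⟨by linarith [h1.1, h2.2], by linarith [h1.2, h2.1]⟩
  have hmemδ : ∀ t ∈ Icc a b, ((t - a : ℝ) : ℂ) ∈ ball (0:ℂ) δ ∧
      ((t - a : ℝ) : ℂ) ∈ ball (0:ℂ) ε₂ := by
    intro t ht
    rw [mem_ball_zero_iff, mem_ball_zero_iff, norm_real, Real.norm_eq_abs]
    exact ⟨(hdist t ht).trans_le (min_le_left _ _), (hdist t ht).trans_le (min_le_right _ _)⟩
  have hcast : ∀ t : ℝ, ((t - a : ℝ) : ℂ) = (t:ℂ) + -(a:ℂ) := fun t => by push_cast; ring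
  -- the two curves agree in the chart
  have hgmem : ∀ t ∈ Icc a b, FS X ((t:ℂ) + -(a:ℂ)) (γ a) ∈ e.source ∩ e ⁻¹' s := by
    intro t ht
    rw [← hcast]
    exact hPN (hb₂ _ (hmemδ t ht).2) (hγt a haI).2.2
  have hgder : ∀ t ∈ Icc a b, HasDerivAt (fun w : ℝ => e (FS X ((w:ℂ) + -(a:ℂ)) (γ a)))
      (vfChart E X e (e (FS X ((t:ℂ) + -(a:ℂ)) (γ a)))) t := by
    intro t ht
    refine orbit_real he (f := fun ζ => FS X ζ (γ a)) (orb_FS hX (γ a) _ ?_) (hgmem t ht).1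
    rw [mem_ofPred_eq, ← hcast]
    exact (hloc _ (hγt a haI).2.1 _ (hmemδ t ht).1).1
  have heq := ODE_solution_unique_of_mem_Icc_right (v := fun _ => vfChart E X e)
    (s := fun _ => s) (K := K) (f := fun t => e (γ t))
    (g := fun t : ℝ => e (FS X ((t:ℂ) + -(a:ℂ)) (γ a))) (a := a) (b := b)
    (fun t _ => hK)
    (fun t ht => (e.continuousAt (hγt t ht).1.1).comp_continuousWithinAt
      ((hγ t (le_trans ha.1 ht.1)).continuousWithinAt.mono
        (fun w hw => le_trans ha.1 hw.1)))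
    (fun t ht => (curve_chart he (hγ t (le_trans ha.1 ht.1)) (hγt t ⟨ht.1, ht.2.le⟩).1.1).mono
      (fun w hw => le_trans (le_trans ha.1 ht.1) hw))
    (fun t ht => (hγt t ⟨ht.1, ht.2.le⟩).1.2)
    (fun t ht => (hgder t ht).continuousAt.continuousWithinAt)
    (fun t ht => (hgder t ⟨ht.1, ht.2.le⟩).hasDerivWithinAt)
    (fun t ht => (hgmem t ⟨ht.1, ht.2.le⟩).2)
    (by simp only [add_neg_cancel, FS_zero hX])
  have hfin : FS X ((b:ℂ) + -(a:ℂ)) (γ a) = γ b :=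
    (e.injOn (hgmem b hbI).1 (hγt b hbI).1.1 (heq hbI).symm)
  -- go on along the ray
  rcases ha.1.eq_or_lt with ha0 | ha0
  · rw [← ha0] at hfin hmemδ
    simp only [ofReal_zero, neg_zero, add_zero, h0] at hfin
    have h1 := (hmemδ b (by rw [ha0]; exact hbI)).1
    rw [sub_zero] at h1
    have h2 := hloc (γ a) (hγt a haI).2.1 (b:ℂ) h1
    rw [← ha0, h0] at h2
    exact ⟨h2.1, hfin⟩
  · have h1 := DS_go hX hδ (y := γ a) (w := (a:ℂ)) (ζ := (b:ℂ)) (x := x)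
      (fun ζ hζ => (hloc _ (hγt a haI).2.1 ζ hζ).1) hPa.1 hPa.2 (t := b / a)
      (div_nonneg (ha0.le.trans hab) ha0.le) (by
        have : (a:ℂ) ≠ 0 := by exact_mod_cast ha0.ne'
        push_cast
        field_simp) (by
        have := (hmemδ b hbI).1
        rw [mem_ball_zero_iff] at this
        simpa using this)
    refine ⟨h1.1, h1.2.trans ?_⟩
    rw [sub_eq_add_neg]
    exact hfin

end Vale.Agent.P253.R2.H445
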