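import Vale.Agent.P253.R2.H445.VF.Unif

/-!
P253: complete holomorphic vector fields with a periodic source in the closure of every orbit.
-/

open scoped Manifold ContDiff Topology Bundle
open Set Metric Complex Filter Bundle IsManifold Manifold Vale.Agent.P253.Mfd Vale.Agent.P253.CStar

set_option maxSynthPendingDepth 3
set_option linter.unusedSectionVars false

noncomputable section

namespace Vale.Agent.P253.R2.H445

variable {E : Type*} [NormedAddCommGroup E] [NormedSpace ℂ E] [FiniteDimensional ℂ E]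
  {M : Type*} [MetricSpace M] [ChartedSpace E M] [IsManifold 𝓘(ℂ, E) 1 M]
  {ι : Type*} [Fintype ι] {X : M → E} {p : M} {ψ : ℂ → M → M} {e : OpenPartialHomeomorph M E}
  {φ : E ≃L[ℂ] (ι → ℂ)} {m : ι → ℝ}

/-- the chart of the basin is equivariant for all complex times -/
theorem basin_equivariant (h : HolC E ψ) (he : e ∈ maximalAtlas 𝓘(ℂ, E) 1 M)
    (htgt : e.target = univ)
    (heq : ∀ (θ : ℝ) (z : E), ψ (θ * I) (e.symm z) = e.symm (LE φ m (θ * I) z)) (ζ : ℂ) (z : E) :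
    ψ ζ (e.symm z) = e.symm (LE φ m ζ z) := by
  have hf : ∀ ζ ∈ (univ : Set ℂ), MDifferentiableAt 𝓘(ℂ, ℂ) 𝓘(ℂ, E) (fun ζ => ψ ζ (e.symm z)) ζ :=
    fun ζ _ => h.orbit_mdiff (e.symm z) ζ
  have hg : ∀ ζ ∈ (univ : Set ℂ),
      MDifferentiableAt 𝓘(ℂ, ℂ) 𝓘(ℂ, E) (fun ζ => e.symm (LE φ m ζ z)) ζ := by
    intro ζ _
    have h1 : MDifferentiableAt 𝓘(ℂ, ℂ) 𝓘(ℂ, E) (fun ζ => LE φ m ζ z) ζ :=
      (differentiable_LE (φ := φ) (m := m) z ζ).mdifferentiableAt
    exact (mdiff_chart_symm he (htgt ▸ mem_univ _)).comp ζ h1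
  refine H156.eqOn_of_frequently (E := E) isOpen_univ isPreconnected_univ hf hg (mem_univ 0) ?_
    (mem_univ ζ)
  have h3 : Tendsto (fun θ : ℝ => (θ:ℂ) * I) (𝓝[>] 0) (𝓝[≠] 0) := by
    rw [tendsto_nhdsWithin_iff]
    constructor
    · have hc : Continuous (fun θ : ℝ => (θ:ℂ) * I) := by fun_prop
      have := hc.tendsto 0
      simp only [ofReal_zero, zero_mul] at this
      exact this.mono_left nhdsWithin_le_nhds
    · filter_upwards [self_mem_nhdsWithin] with θ hθ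
      have : (θ:ℂ) ≠ 0 := by exact_mod_cast (ne_of_gt hθ)
      simp [this]
  refine h3.frequently (Eventually.frequently (Eventually.of_forall fun θ => ?_))
  exact heq θ z

variable [IsManifold 𝓘(ℝ, E) ∞ M]

/-- global linearization when the source is in the closure of all complex orbits -/
theorem linearize_of_closure (hX : IsHolVectorField E X) (hDS : DS X = univ)
    (h : HolC E (FS X)) (hp : ∀ ζ, FS X ζ p = p) (hm : ∀ j, 0 < m j) (D : E ≃L[ℂ] E)
    (hw : ∀ (ζ : ℂ) (v : E),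
      (mfderiv 𝓘(ℂ, E) 𝓘(ℂ, E) (FS X ζ) p : E → E) v = LE (D.trans φ) m ζ v)
    (hcl : ∀ x, p ∈ closure (range fun ζ => FS X ζ x)) :
    ∃ F : M ≃ₘ^1⟮𝓘(ℂ, E), 𝓘(ℂ, E)⟯ E, F p = 0 ∧
      ∀ x : M, (mfderiv 𝓘(ℂ, E) 𝓘(ℂ, E) F x : E → E) (X x) = AE φ m (F x) := by
  obtain ⟨e, he, htgt, hps, hep, heq⟩ := exists_basin_chart h hp (D.trans φ) hm hw
  have heq' := basin_equivariant h he htgt heq
  have hsrc : e.source = univ := by
    refine eq_univ_of_forall fun x => ?_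
    obtain ⟨_, ⟨hy1, ⟨ζ, rfl⟩⟩⟩ := mem_closure_iff_nhds.1 (hcl x) _ (e.open_source.mem_nhds hps)
    have h1 : x = FS X (-ζ) (e.symm (e (FS X ζ x))) := by
      rw [e.left_inv hy1, ← h.add, neg_add_cancel, h.zero]
    rw [h1, heq']
    exact e.map_target (htgt ▸ mem_univ _)
  let F : M ≃ₘ^1⟮𝓘(ℂ, E), 𝓘(ℂ, E)⟯ E := chartDiffeo e he hsrc htgt
  have hFa : ∀ x, F x = e x := fun x => rfl
  let DD : E ≃ₘ^1⟮𝓘(ℂ, E), 𝓘(ℂ, E)⟯ E :=
    { toFun := D
      invFun := D.symm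
      left_inv := D.left_inv
      right_inv := D.right_inv
      contMDiff_toFun := D.contDiff.contMDiff
      contMDiff_invFun := D.symm.contDiff.contMDiff }
  let G : M ≃ₘ^1⟮𝓘(ℂ, E), 𝓘(ℂ, E)⟯ E := F.trans DD
  have hGa : ∀ x, G x = D (e x) := fun x => rfl
  refine ⟨G, by rw [hGa, hep, map_zero], fun x => ?_⟩
  refine push_of_equivariant (G.contMDiff.mdifferentiable (by simp)) hX hDS (fun ζ x => ?_) x
  have h2 : e (FS X ζ x) = LE (D.trans φ) m ζ (e x) := by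
    have h3 := heq' ζ (e x)
    rw [e.left_inv (hsrc ▸ mem_univ x)] at h3
    rw [h3, e.right_inv (htgt ▸ mem_univ _)]
  rw [hGa, hGa, h2, LE_trans_apply, ContinuousLinearEquiv.apply_symm_apply]

end Vale.Agent.P253.R2.H445
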