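import Vale.Agent.P253.R2.H445.VF.Esc
import Vale.Agent.P253.R2.H156.Glob

/-!
P253: flow box along a holomorphic disc touching the boundary of the domain of the complex-time
flow.
-/

open scoped Manifold ContDiff Topology Bundle
open Set Metric Complex Filter IsManifold Vale.Agent.P253.Mfd

set_option maxSynthPendingDepth 3
set_option linter.unusedSectionVars false

noncomputable section

namespace Vale.Agent.P253.R2.H445

variable {E : Type*} [NormedAddCommGroup E] [NormedSpace ℂ E] [FiniteDimensional ℂ E]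
  {M : Type*} [MetricSpace M] [ChartedSpace E M] [IsManifold 𝓘(ℂ, E) 1 M]
  {X : M → E}

/-- at a zero of the vector field the orbit is defined for all times -/
theorem DS_of_vf_zero (hX : IsHolVectorField E X) {e : OpenPartialHomeomorph M E}
    (he : e ∈ maximalAtlas 𝓘(ℂ, E) 1 M) {x : M} (hx : x ∈ e.source)
    (h0 : vfChart E X e (e x) = 0) (ζ : ℂ) : (ζ, x) ∈ DS X := by
  have h1 : IsOrbitOn E X (fun _ => x) univ := by
    intro w _
    have h2 : HasDerivAt (fun _ : ℂ => e x) (vfChart E X e (e x)) w := by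
      rw [h0]; exact hasDerivAt_const w (e x)
    have h3 := orbit_of_chart (X := X) (k := fun _ : ℂ => e x) he h2 (e.map_source hx)
    simp only [e.left_inv hx] at h3
    exact h3
  exact (DS_conv hX isOpen_univ convex_univ (mem_univ _) h1 rfl (mem_univ ζ)).1

/-- the flow in a chart, at time `0` -/
theorem hasFDerivAt_FS (hX : IsHolVectorField E X) {e : OpenPartialHomeomorph M E}
    (he : e ∈ maximalAtlas 𝓘(ℂ, E) 1 M) {y : E} (hy : y ∈ e.target) :
    HasFDerivAt (fun u : ℂ × E => e (FS X u.1 (e.symm u.2)))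
      ((ContinuousLinearMap.smulRight (1 : ℂ →L[ℂ] ℂ) (vfChart E X e y)).coprod
        (ContinuousLinearMap.id ℂ E)) (0, y) := by
  have h0 : FS X 0 (e.symm y) = e.symm y := FS_zero hX _
  have hv : HasDerivAt (fun ζ => e (FS X ζ (e.symm y))) (vfChart E X e y) 0 := by
    have h1 := orbit_chart he (orb_FS hX (e.symm y) 0 (zero_mem_DS hX _))
      (by simp only [h0]; exact e.map_target hy)
    simp only [h0, e.right_inv hy] at h1
    exact h1
  have h1 : MDifferentiableAt 𝓘(ℂ, E) 𝓘(ℂ, E) e (FS X 0 (e.symm y)) := by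
    rw [h0]; exact mdiff_chart he (e.map_target hy)
  have h2 : MDifferentiableAt (𝓘(ℂ, ℂ).prod 𝓘(ℂ, E)) 𝓘(ℂ, E)
      (fun q : ℂ × M => FS X q.1 q.2) (0, e.symm y) := mdiff_FS hX (zero_mem_DS hX _)
  have h3 : MDifferentiableAt 𝓘(ℂ, ℂ × E) (𝓘(ℂ, ℂ).prod 𝓘(ℂ, E))
      (fun u : ℂ × E => (u.1, e.symm u.2)) (0, y) := by
    refine MDifferentiableAt.prodMk differentiableAt_fst.mdifferentiableAt ?_
    exact MDifferentiableAt.comp ((0 : ℂ), y) (g := e.symm) (f := Prod.snd)
      (mdiff_chart_symm he hy) differentiableAt_snd.mdifferentiableAt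
  have h4 : MDifferentiableAt 𝓘(ℂ, ℂ × E) 𝓘(ℂ, E)
      (fun u : ℂ × E => e (FS X u.1 (e.symm u.2))) (0, y) :=
    MDifferentiableAt.comp ((0 : ℂ), y) (g := e) (f := fun u : ℂ × E => FS X u.1 (e.symm u.2)) h1
      (MDifferentiableAt.comp ((0 : ℂ), y) (g := fun q : ℂ × M => FS X q.1 q.2)
        (f := fun u : ℂ × E => (u.1, e.symm u.2)) h2 h3)
  have h5 := h4.differentiableAt.hasFDerivAt
  set L := fderiv ℂ (fun u : ℂ × E => e (FS X u.1 (e.symm u.2))) (0, y) with hL
  have e1 : L.comp (ContinuousLinearMap.inl ℂ ℂ E) =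
      ContinuousLinearMap.smulRight (1 : ℂ →L[ℂ] ℂ) (vfChart E X e y) := by
    have h6 : HasFDerivAt (fun ζ : ℂ => e (FS X ζ (e.symm y)))
        (L.comp (ContinuousLinearMap.inl ℂ ℂ E)) 0 :=
      HasFDerivAt.comp (g := fun u : ℂ × E => e (FS X u.1 (e.symm u.2)))
        (f := fun ζ : ℂ => (ζ, y)) (0 : ℂ) h5 (hasFDerivAt_prodMk_left (0 : ℂ) y)
    exact h6.unique hv.hasFDerivAt
  have e2 : L.comp (ContinuousLinearMap.inr ℂ ℂ E) = ContinuousLinearMap.id ℂ E := by
    have h6 : HasFDerivAt (fun w : E => e (FS X 0 (e.symm w)))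
        (L.comp (ContinuousLinearMap.inr ℂ ℂ E)) y :=
      HasFDerivAt.comp (g := fun u : ℂ × E => e (FS X u.1 (e.symm u.2)))
        (f := fun w : E => ((0 : ℂ), w)) y h5 (hasFDerivAt_prodMk_right (0 : ℂ) y)
    refine h6.unique ((hasFDerivAt_id y).congr_of_eventuallyEq ?_)
    filter_upwards [e.open_target.mem_nhds hy] with w hw
    rw [FS_zero hX, e.right_inv hw, id]
  have e3 : L = (ContinuousLinearMap.smulRight (1 : ℂ →L[ℂ] ℂ) (vfChart E X e y)).coprod
      (ContinuousLinearMap.id ℂ E) := by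
    rw [← e1, ← e2]
    ext u <;> simp
  rwa [e3] at h5

/-- A family of discs which leaves the domain of the flow at one point only. -/
theorem exists_config (hX : IsHolVectorField E X) {x₁ : M} {η₀ : ℂ} (hout : (η₀, x₁) ∉ DS X)
    (hin : ∀ s ∈ Ico (0:ℝ) 1, ((s:ℂ) * η₀, x₁) ∈ DS X) {a : ℂ → M} {ν0 ν1 : ℂ → ℂ} {r ε : ℝ}
    (hr : 0 < r) (hε : 0 < ε)
    (ha : ∀ z ∈ closedBall (0:ℂ) r, MDifferentiableAt 𝓘(ℂ, ℂ) 𝓘(ℂ, E) a z)
    (hν0 : ∀ z ∈ closedBall (0:ℂ) r, DifferentiableAt ℂ ν0 z)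
    (hν1 : ∀ z ∈ closedBall (0:ℂ) r, DifferentiableAt ℂ ν1 z)
    (ha0 : a 0 = x₁) (hν : ν0 0 = η₀)
    (hfam : ∀ s ∈ Icc (0:ℝ) 1, ∀ z ∈ closedBall (0:ℂ) r, (s, z) ≠ (0, 0) →
      ∃ (O : Set ℂ) (f : ℂ → M), IsOpen O ∧ f 0 = a z ∧ IsOrbitOn E X f O ∧
        ∀ β : ℂ, ‖β‖ < ε → ∀ t ∈ Icc (0:ℝ) 1, -β + (t:ℂ) * (ν0 z + s * ν1 z - -β) ∈ O) :
    ∃ (G : Set E) (Φ : E → M) (c0 c1 : ℂ → E) (U : Set ℂ) (r' : ℝ), IsOpen G ∧
      MDifferentiableOn 𝓘(ℂ, E) 𝓘(ℂ, E) Φ G ∧
      (∀ x ∈ G, Function.Injective (mfderiv 𝓘(ℂ, E) 𝓘(ℂ, E) Φ x)) ∧ 0 < r' ∧ IsOpen U ∧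
      closedBall 0 r' ⊆ U ∧ DifferentiableOn ℂ c0 U ∧ DifferentiableOn ℂ c1 U ∧
      (∀ s ∈ Icc (0:ℝ) 1, ∀ z ∈ closedBall (0:ℂ) r', (s, z) ≠ (0, 0) → c0 z + s • c1 z ∈ G) ∧
      c0 0 ∉ G ∧ Tendsto Φ (𝓝[G] (c0 0)) (cocompact M) := by
  have he : chartAt E x₁ ∈ maximalAtlas 𝓘(ℂ, E) 1 M := chart_mem_maximalAtlas x₁
  obtain ⟨δ, hδ, U₀, hU₀, hx₁U, hU₀s, hloc, -⟩ := exists_local_FS hX x₁
  set e := chartAt E x₁ with hedef
  have hx₁ : x₁ ∈ e.source := mem_chart_source E x₁
  set z₁ := e x₁ with hz₁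
  set ξ := vfChart E X e z₁ with hξdef
  have hξ : ξ ≠ 0 := fun h1 => hout (DS_of_vf_zero hX he hx₁ h1 η₀)
  obtain ⟨l, hl⟩ := SeparatingDual.exists_eq_one (R := ℂ) hξ
  set p : E → E := fun v => z₁ + (v - l v • ξ) with hp
  set q : E → ℂ × M := fun v => (l v, e.symm (p v)) with hq
  have hcv : ContinuousOn (fun y => l (vfChart E X e y)) e.target :=
    l.continuous.comp_continuousOn (hX e he).continuousOn
  set W : Set E := e.target ∩ (fun y => l (vfChart E X e y)) ⁻¹' {0}ᶜ with hW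
  have hWo : IsOpen W := hcv.isOpen_inter_preimage e.open_target isOpen_compl_singleton
  have hz₁W : z₁ ∈ W := by
    refine ⟨e.map_source hx₁, ?_⟩
    simp only [mem_preimage, mem_compl_iff, mem_singleton_iff]
    rw [← hξdef, hl]; exact one_ne_zero
  have hpc : Continuous p := by fun_prop
  have hpd : Differentiable ℂ p := by
    intro v; fun_prop
  have hpW : IsOpen (p ⁻¹' W) := hWo.preimage hpc
  have hqd : ∀ v, p v ∈ W → MDifferentiableAt 𝓘(ℂ, E) (𝓘(ℂ, ℂ).prod 𝓘(ℂ, E)) q v := by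
    intro v hv
    refine MDifferentiableAt.prodMk l.differentiableAt.mdifferentiableAt ?_
    exact MDifferentiableAt.comp v (g := e.symm) (f := p) (mdiff_chart_symm he hv.1)
      (hpd v).mdifferentiableAt
  have hqc : ContinuousOn q (p ⁻¹' W) := fun v hv => (hqd v hv).continuousAt.continuousWithinAt
  set G : Set E := p ⁻¹' W ∩ q ⁻¹' DS X with hG
  have hGo : IsOpen G := hqc.isOpen_inter_preimage hpW (isOpen_DS hX)
  set Φ : E → M := fun v => FS X (l v) (e.symm (p v)) with hΦ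
  have hΦd : ∀ v ∈ G, MDifferentiableAt 𝓘(ℂ, E) 𝓘(ℂ, E) Φ v := fun v hv =>
    MDifferentiableAt.comp v (g := fun q : ℂ × M => FS X q.1 q.2) (f := q) (mdiff_FS hX hv.2)
      (hqd v hv.1)
  -- derivative of the flow near time zero
  have hKp : ∀ v, p v ∈ W → HasFDerivAt
      (fun u : E => e (FS X (-l v + l u) (e.symm (p u))))
      (((ContinuousLinearMap.smulRight (1 : ℂ →L[ℂ] ℂ) (vfChart E X e (p v))).coprod
        (ContinuousLinearMap.id ℂ E)).comp
        (l.prod (ContinuousLinearMap.id ℂ E - ContinuousLinearMap.smulRight l ξ))) v := by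
    intro v hv
    have h1 : HasFDerivAt (fun u : E => (-l v + l u, p u))
        (l.prod (ContinuousLinearMap.id ℂ E - ContinuousLinearMap.smulRight l ξ)) v := by
      refine HasFDerivAt.prodMk (l.hasFDerivAt.const_add _) ?_
      refine HasFDerivAt.const_add _ ?_
      exact (hasFDerivAt_id v).sub (l.hasFDerivAt.smul_const ξ)
    have h2 := hasFDerivAt_FS hX he hv.1
    have h3 : ((-l v + l v, p v) : ℂ × E) = (0, p v) := by rw [neg_add_cancel]
    rw [← h3] at h2
    exact HasFDerivAt.comp (g := fun u : ℂ × E => e (FS X u.1 (e.symm u.2)))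
      (f := fun u : E => (-l v + l u, p u)) v h2 h1
  have hKv : ∀ (v : E) (w : E), (((ContinuousLinearMap.smulRight (1 : ℂ →L[ℂ] ℂ)
      (vfChart E X e (p v))).coprod (ContinuousLinearMap.id ℂ E)).comp
        (l.prod (ContinuousLinearMap.id ℂ E - ContinuousLinearMap.smulRight l ξ))) w =
      l w • vfChart E X e (p v) + (w - l w • ξ) := by
    intro v w
    simp
  -- injectivity of the differential
  have hinj : ∀ v ∈ G, Function.Injective (mfderiv 𝓘(ℂ, E) 𝓘(ℂ, E) Φ v) := by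
    intro v hv
    obtain ⟨hback, hbackeq⟩ := DS_back hX hv.2 (s := 1) ⟨zero_le_one, le_rfl⟩
    have e1 : -(((1:ℝ):ℂ) * l v) = -l v := by push_cast; ring
    have e2 : ((1 - 1 : ℝ) : ℂ) * l v = 0 := by simp
    rw [e1] at hback hbackeq
    rw [e2, FS_zero hX] at hbackeq
    change (-l v, Φ v) ∈ DS X at hback
    change FS X (-l v) (Φ v) = e.symm (p v) at hbackeq
    have hev : (fun u : E => e (FS X (-l v) (Φ u))) =ᶠ[𝓝 v]
        (fun u : E => e (FS X (-l v + l u) (e.symm (p u)))) := by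
      obtain ⟨O, hO, hKO, N, hN, hxN, hON⟩ := DS_tube hX (isCompact_seg (l v)) (x := e.symm (p v))
        (fun w hw => by
          obtain ⟨s, hs, rfl⟩ := mem_seg.1 hw
          exact DS_star hX hv.2 hs)
      obtain ⟨δ', hδ', hth⟩ := (isCompact_seg (l v)).exists_thickening_subset_open hO hKO
      have hcv' : Convex ℝ (thickening δ' (segment ℝ 0 (l v))) :=
        (convex_segment 0 (l v)).thickening δ'
      have hself := self_subset_thickening hδ' (segment ℝ 0 (l v))
      have c1 : ContinuousAt (fun u : E => e.symm (p u)) v :=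
        (e.continuousAt_symm hv.1.1).comp hpc.continuousAt
      have h1 : ∀ᶠ u in 𝓝 v, e.symm (p u) ∈ N := c1.eventually (hN.mem_nhds hxN)
      have h2 : ∀ᶠ u in 𝓝 v, l u ∈ thickening δ' (segment ℝ 0 (l v)) :=
        l.continuous.continuousAt.eventually
          (isOpen_thickening.mem_nhds (hself (right_mem_segment ℝ 0 (l v))))
      have h3 : ∀ᶠ u in 𝓝 v, l u + -l v ∈ thickening δ' (segment ℝ 0 (l v)) := by
        have c2 : ContinuousAt (fun u : E => l u + -l v) v := by fun_prop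
        refine c2.eventually (isOpen_thickening.mem_nhds ?_)
        simp only [add_neg_cancel]
        exact hself (left_mem_segment ℝ 0 (l v))
      filter_upwards [h1, h2, h3] with u hu1 hu2 hu3
      have h4 := (DS_shift hX isOpen_thickening hcv' (orb_mono (orb_FS hX (e.symm (p u)))
        (fun w hw => hON _ hu1 w (hth hw))) hu2 hu3).2
      change FS X (-l v) (Φ u) = FS X (l u + -l v) (e.symm (p u)) at h4
      simp only [h4, add_comm (l u) (-l v)]
    have hd1 := (hKp v hv.1).congr_of_eventuallyEq hev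
    have hd2 : MDifferentiableAt 𝓘(ℂ, E) 𝓘(ℂ, E) (fun x => e (FS X (-l v) x)) (Φ v) := by
      refine MDifferentiableAt.comp (Φ v) (g := e) (f := FS X (-l v)) ?_
        (mdiff_FS_slice hX hback)
      rw [hbackeq]
      exact mdiff_chart he (e.map_target hv.1.1)
    have hd3 := (hd2.hasMFDerivAt.comp v (hΦd v hv).hasMFDerivAt)
    have hd4 : HasMFDerivAt 𝓘(ℂ, E) 𝓘(ℂ, E) (fun u : E => e (FS X (-l v) (Φ u))) v
        (((ContinuousLinearMap.smulRight (1 : ℂ →L[ℂ] ℂ)
      (vfChart E X e (p v))).coprod (ContinuousLinearMap.id ℂ E)).comp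
        (l.prod (ContinuousLinearMap.id ℂ E - ContinuousLinearMap.smulRight l ξ))) :=
      hd1.hasMFDerivAt
    have hd5 := hasMFDerivAt_unique hd3 hd4
    rw [injective_iff_map_eq_zero]
    intro (w : E) hw
    have h1 := congrArg (fun A : E →L[ℂ] E => A w) hd5
    have h2 : l w • vfChart E X e (p v) + (w - l w • ξ) = 0 := by
      refine (hKv v w).symm.trans (Eq.trans h1.symm ?_)
      change (mfderiv 𝓘(ℂ, E) 𝓘(ℂ, E) (fun x => e (FS X (-l v) x)) (Φ v))
        (mfderiv 𝓘(ℂ, E) 𝓘(ℂ, E) Φ v w) = 0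
      rw [hw, map_zero]
    have h3 := congrArg l h2
    simp only [map_add, map_sub, map_smul, hl, smul_eq_mul, mul_one, sub_self, add_zero,
      map_zero] at h3
    have h4 : l w = 0 := by
      rcases mul_eq_zero.1 h3 with h | h
      · exact h
      · exact absurd h hv.1.2
    rw [h4, zero_smul, zero_smul, sub_zero, zero_add] at h2
    exact h2
  -- the local inverse of the flow box
  have hp0 : p 0 = z₁ := by simp [hp]
  have h0G : (0 : E) ∈ G := by
    refine ⟨?_, ?_⟩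
    · rw [mem_preimage, hp0]; exact hz₁W
    · rw [mem_preimage]
      have : q 0 = (0, x₁) := by simp only [hq, hp0, map_zero, hz₁, e.left_inv hx₁]
      rw [this]; exact zero_mem_DS hX _
  have hΦ0 : Φ 0 = x₁ := by
    simp only [hΦ, hp0, map_zero, hz₁, e.left_inv hx₁]
    exact FS_zero hX _
  have hΦc : ContinuousOn Φ G := fun v hv => (hΦd v hv).continuousAt.continuousWithinAt
  set O : Set E := G ∩ Φ ⁻¹' e.source with hO
  have hOo : IsOpen O := hΦc.isOpen_inter_preimage hGo e.open_source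
  have h0O : (0 : E) ∈ O := ⟨h0G, by rw [mem_preimage, hΦ0]; exact hx₁⟩
  have hψd : DifferentiableOn ℂ (fun u => e (Φ u)) O := fun u hu =>
    (MDifferentiableAt.comp u (g := e) (f := Φ) (mdiff_chart he hu.2)
      (hΦd u hu.1)).differentiableAt.differentiableWithinAt
  have hψ0 : HasFDerivAt (fun u => e (Φ u)) (ContinuousLinearMap.id ℂ E) 0 := by
    have h1 := hKp 0 (by rw [hp0]; exact hz₁W)
    have h2 : (((ContinuousLinearMap.smulRight (1 : ℂ →L[ℂ] ℂ)
        (vfChart E X e (p 0))).coprod (ContinuousLinearMap.id ℂ E)).comp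
        (l.prod (ContinuousLinearMap.id ℂ E - ContinuousLinearMap.smulRight l ξ))) =
        ContinuousLinearMap.id ℂ E := by
      ext w
      rw [hKv, hp0, ← hξdef]
      simp
    rw [h2] at h1
    refine h1.congr_of_eventuallyEq (Eventually.of_forall fun u => ?_)
    simp only [hΦ, map_zero, neg_zero, zero_add]
  obtain ⟨Ψ, hΨ0, hΨO, hΨe, hΨs⟩ := exists_inverse_chart hOo hψd h0O hψ0
  have hΨ00 : Ψ 0 = z₁ := by rw [hΨe, hΦ0]
  have hz₁T : z₁ ∈ Ψ.target := by rw [← hΨ00]; exact Ψ.map_source hΨ0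
  set b : ℂ → E := fun z => Ψ.symm (e (a z)) with hb
  have hb0 : b 0 = 0 := by
    simp only [hb]
    rw [ha0, ← hz₁, ← hΨ00, Ψ.left_inv hΨ0]
  -- a good neighbourhood of zero
  have hball : closedBall (0:ℂ) r ∈ 𝓝 (0:ℂ) := closedBall_mem_nhds 0 hr
  have h0b : (0:ℂ) ∈ closedBall (0:ℂ) r := mem_closedBall_self hr.le
  have hac : ContinuousAt a 0 := (ha 0 h0b).continuousAt
  have hev1 : ∀ᶠ z in 𝓝 (0:ℂ), a z ∈ e.source ∩ U₀ :=
    hac.eventually ((e.open_source.inter hU₀).mem_nhds (by rw [ha0]; exact ⟨hx₁, hx₁U⟩))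
  have hca : ContinuousAt (fun z => e (a z)) 0 := by
    have h1 : ContinuousAt e (a 0) := by rw [ha0]; exact e.continuousAt hx₁
    exact h1.comp hac
  have hev2 : ∀ᶠ z in 𝓝 (0:ℂ), e (a z) ∈ Ψ.target := by
    refine hca.eventually (Ψ.open_target.mem_nhds ?_)
    simp only [ha0]; exact hz₁T
  have hbc0 : ContinuousAt b 0 := by
    have h1 : ContinuousAt Ψ.symm (e (a 0)) := by
      rw [ha0]; exact Ψ.continuousAt_symm hz₁T
    exact ContinuousAt.comp (g := Ψ.symm) (f := fun z => e (a z)) h1 hca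
  have hev3 : ∀ᶠ z in 𝓝 (0:ℂ), ‖l (b z)‖ < min ε δ := by
    have h1 : ContinuousAt (fun z => ‖l (b z)‖) 0 := (l.continuous.continuousAt.comp hbc0).norm
    have h2 : Tendsto (fun z => ‖l (b z)‖) (𝓝 0) (𝓝 0) := by
      have h3 := h1.tendsto
      rwa [hb0, map_zero, norm_zero] at h3
    exact h2.eventually (gt_mem_nhds (lt_min hε hδ))
  obtain ⟨r₁, hr₁, hgood⟩ := Metric.eventually_nhds_iff_ball.1
    (((hev1.and hev2).and hev3).and (show ∀ᶠ z in 𝓝 (0:ℂ), z ∈ closedBall (0:ℂ) r from hball))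
  have hbd : ∀ z ∈ ball (0:ℂ) r₁, DifferentiableAt ℂ b z := by
    intro z hz
    obtain ⟨⟨⟨h1, h2⟩, -⟩, h4⟩ := hgood z hz
    have h5 : DifferentiableAt ℂ (fun z => e (a z)) z :=
      (MDifferentiableAt.comp z (g := e) (f := a) (mdiff_chart he h1.1) (ha z h4)).differentiableAt
    exact DifferentiableAt.comp z (g := Ψ.symm) (f := fun z => e (a z))
      ((hΨs _ h2).differentiableAt (by simp)) h5
  have hbO : ∀ z ∈ ball (0:ℂ) r₁, b z ∈ O ∧ Φ (b z) = a z := by
    intro z hz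
    obtain ⟨⟨⟨h1, h2⟩, -⟩, h4⟩ := hgood z hz
    have h5 : b z ∈ O := hΨO (Ψ.map_target h2)
    refine ⟨h5, ?_⟩
    have h6 : e (Φ (b z)) = e (a z) := by
      rw [← hΨe]
      exact Ψ.right_inv h2
    exact e.injOn h5.2 h1.1 h6
  refine ⟨G, Φ, fun z => ν0 z • ξ + b z, fun z => ν1 z • ξ, ball 0 r₁,
    r₁ / 2, hGo, fun v hv => (hΦd v hv).mdifferentiableWithinAt, hinj, by positivity, isOpen_ball,
    closedBall_subset_ball (by linarith), ?_, ?_, ?_, ?_, ?_⟩
  · intro z hz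
    exact (((hν0 z (hgood z hz).2).smul_const ξ).add (hbd z hz)).differentiableWithinAt
  · intro z hz
    exact ((hν1 z (hgood z hz).2).smul_const ξ).differentiableWithinAt
  · rintro s hs z hz hsz
    have hz' : z ∈ ball (0:ℂ) r₁ := closedBall_subset_ball (by linarith) hz
    obtain ⟨hbz, hΦb⟩ := hbO z hz'
    obtain ⟨⟨⟨h1, -⟩, h3⟩, h4⟩ := hgood z hz'
    set v : E := ν0 z • ξ + b z + s • (ν1 z • ξ) with hv
    set μ : ℂ := ν0 z + s * ν1 z with hμ
    set β : ℂ := l (b z) with hβ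
    have hveq : v = μ • ξ + b z := by
      have h5 : s • (ν1 z • ξ) = ((s : ℂ) * ν1 z) • ξ := by
        rw [mul_smul]; rfl
      rw [hv, h5, hμ, add_smul]
      abel
    have hlv : l v = μ + β := by
      rw [hveq, map_add, map_smul, hl, smul_eq_mul, mul_one]
    have hpv : p v = p (b z) := by
      simp only [hp]
      rw [hlv, hveq, add_smul μ β, hβ]
      abel
    -- the base point
    have hqb : (β, e.symm (p (b z))) ∈ DS X := hbz.1.2
    obtain ⟨hk1, hk2⟩ := DS_back hX hqb (s := 1) ⟨zero_le_one, le_rfl⟩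
    have e1 : -(((1:ℝ):ℂ) * β) = -β := by push_cast; ring
    have e2 : ((1 - 1 : ℝ) : ℂ) * β = 0 := by simp
    have e3 : FS X β (e.symm (p (b z))) = a z := hΦb
    rw [e1, e3] at hk1 hk2
    rw [e2, FS_zero hX] at hk2
    obtain ⟨O', f, hO', hf0, hf, hfO⟩ := hfam s hs z h4 hsz
    have hsmall : ∀ w ∈ ball (0:ℂ) (min ε δ), w ∈ O' := by
      intro w hw
      have := hfO (-w) (by
        rw [norm_neg]
        exact (mem_ball_zero_iff.1 hw).trans_le (min_le_left _ _)) 0 ⟨le_rfl, zero_le_one⟩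
      simpa using this
    have hfβ : f (-β) = e.symm (p (b z)) := by
      rw [← hk2]
      refine orbit_eqOn hX isOpen_ball (convex_ball (0:ℂ) (min ε δ)).isPreconnected
        (orb_mono hf hsmall) (orb_mono (orb_FS hX (a z)) (fun w hw => ?_))
        (mem_ball_self (lt_min hε hδ)) ?_ ?_
      · exact (hloc _ h1.2 w (ball_subset_ball (min_le_right _ _) hw)).1
      · simp only [hf0, FS_zero hX]
      · rw [mem_ball_zero_iff, norm_neg]
        exact h3
    have hfin := (DS_from hX hO' hf (c := -β) (μ := μ)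
      (hfO β (h3.trans_le (min_le_left _ _)))).1
    rw [hfβ, sub_neg_eq_add] at hfin
    refine ⟨?_, ?_⟩
    · rw [mem_preimage, hpv]; exact hbz.1.1
    · rw [mem_preimage]
      have h5 : q v = (μ + β, e.symm (p (b z))) := by simp only [hq, hlv, hpv]
      rw [h5]
      exact hfin
  all_goals
    have hc00 : ν0 0 • ξ + b 0 = η₀ • ξ := by rw [hν, hb0, add_zero]
    have hl0 : l (η₀ • ξ) = η₀ := by rw [map_smul, hl, smul_eq_mul, mul_one]
    have hp0' : p (η₀ • ξ) = z₁ := by simp only [hp, hl0, sub_self, add_zero]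
    have hq0 : q (η₀ • ξ) = (η₀, x₁) := by
      simp only [hq, hl0, hp0', hz₁, e.left_inv hx₁]
    simp only [hc00]
  · intro hG0
    have h1 := hG0.2
    rw [mem_preimage, hq0] at h1
    exact hout h1
  · have h1 : Tendsto q (𝓝[G] (η₀ • ξ)) (𝓝[DS X] (η₀, x₁)) := by
      refine tendsto_nhdsWithin_of_tendsto_nhds_of_eventually_within _ ?_ ?_
      · have h2 : ContinuousAt q (η₀ • ξ) := (hqd _ (by rw [hp0']; exact hz₁W)).continuousAt
        have h3 := h2.tendsto
        rw [hq0] at h3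
        exact h3.mono_left nhdsWithin_le_nhds
      · filter_upwards [self_mem_nhdsWithin] with v hv using hv.2
    exact (esc_tendsto hX hout hin).comp h1

end Vale.Agent.P253.R2.H445
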