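import Mathlib.Geometry.Manifold.MFDeriv.Atlas
import Vale.Agent.P253.Mfd.Defs

/-!
P253: holomorphic vector fields on complex manifolds and their complex-time orbits.
-/

open scoped Manifold ContDiff Topology Bundle
open Complex

noncomputable section

namespace Vale.Agent.P253.R2

variable (E : Type*) [NormedAddCommGroup E] [NormedSpace ℂ E]
  {M : Type*} [TopologicalSpace M] [ChartedSpace E M]

/-- the vector field `X` in the chart `e` -/
def vfChart (X : (x : M) → TangentSpace 𝓘(ℂ, E) x) (e : OpenPartialHomeomorph M E) (z : E) : E :=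
  mfderiv 𝓘(ℂ, E) 𝓘(ℂ, E) e (e.symm z) (X (e.symm z))

/-- `X` is a holomorphic vector field on the complex manifold `M`: it is holomorphic in
holomorphic charts -/
def IsHolVectorField (X : (x : M) → TangentSpace 𝓘(ℂ, E) x) : Prop :=
  ∀ e ∈ IsManifold.maximalAtlas 𝓘(ℂ, E) 1 M, DifferentiableOn ℂ (vfChart E X e) e.target

/-- `γ` is a complex-time orbit of `X` on the set `s` of complex times: `γ'(ζ) = X (γ ζ)` -/
def IsOrbitOn (X : (x : M) → TangentSpace 𝓘(ℂ, E) x) (γ : ℂ → M) (s : Set ℂ) : Prop :=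
  ∀ ζ ∈ s, HasMFDerivAt 𝓘(ℂ, ℂ) 𝓘(ℂ, E) γ ζ ((1 : ℂ →L[ℂ] ℂ).smulRight (X (γ ζ)))

end Vale.Agent.P253.R2
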