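import Mathlib.Topology.VectorBundle.Riemannian
import Vale.Agent.P253.R2.H445.VF.Defs

/-!
P253: conditions on holomorphic vector fields: forward completeness, slowly shrinking flow radius,
moderate growth, periodic sources.
-/

open scoped Manifold ContDiff Topology Bundle
open Set Metric Complex Bundle IsManifold

noncomputable section

namespace Vale.Agent.P253.R2

variable (E : Type*) [NormedAddCommGroup E] [NormedSpace ℂ E]
  {M : Type*} [MetricSpace M] [ChartedSpace E M]

/-- the real integral curves of the vector field `c X` exist for all positive times -/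
def IsForwardComplete (X : (x : M) → TangentSpace 𝓘(ℂ, E) x) (c : ℂ) : Prop :=
  ∀ x : M, ∃ γ : ℝ → M, γ 0 = x ∧ ∀ t ∈ Ici (0:ℝ),
    HasMFDerivWithinAt 𝓘(ℝ, ℝ) 𝓘(ℝ, E) γ (Ici 0) t
      ((1 : ℝ →L[ℝ] ℝ).smulRight (show E from c • X (γ t)) : ℝ →L[ℝ] E)

/-- the Riemannian length of the vector `X x` -/
def vecLength [RiemannianBundle (fun x : M => TangentSpace 𝓘(ℝ, E) x)]
    (X : (x : M) → TangentSpace 𝓘(ℂ, E) x) (x : M) : ℝ :=
  ‖(show TangentSpace 𝓘(ℝ, E) x from X x)‖

/-- `X` is tame: either the real integral curves of `c X` exist for all positive times, for one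
complex number `c ≠ 0`; or for arbitrarily large `R` the complex-time orbits starting at distance
`R` from a base point exist on the disc of radius `R ^ (-ε)`; or `|X|` is `O(r ^ (1 + ε))` for all
`ε > 0` -/
def IsTame [RiemannianBundle (fun x : M => TangentSpace 𝓘(ℝ, E) x)]
    (X : (x : M) → TangentSpace 𝓘(ℂ, E) x) : Prop :=
  (∃ c : ℂ, c ≠ 0 ∧ IsForwardComplete E X c) ∨
  (∃ p : M, ∀ ε : ℝ, 0 < ε → ∀ R₀ : ℝ, ∃ R > R₀, ∀ x : M, dist x p = R →
    ∃ γ : ℂ → M, γ 0 = x ∧ IsOrbitOn E X γ (ball 0 (R ^ (-ε)))) ∨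
  (∃ p : M, ∀ ε : ℝ, 0 < ε → ∃ C : ℝ, ∀ x : M, vecLength E X x ≤ C * (1 + dist x p) ^ (1 + ε))

/-- `p` is a periodic source of `X` with linear part `L`: `L` is diagonalizable with eigenvalues
`c m_j`, for a complex number `c ≠ 0` and positive integers `m_j`, and either `X = L` in a
holomorphic chart centred at `p`, or `L = c id`, `X p = 0` and `X` has the first derivative `L` at
`p` -/
def IsPeriodicSource (X : (x : M) → TangentSpace 𝓘(ℂ, E) x) (p : M) (c : ℂ) (L : E →L[ℂ] E) :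
    Prop :=
  c ≠ 0 ∧ ∃ e ∈ maximalAtlas 𝓘(ℂ, E) 1 M, p ∈ e.source ∧
    ((e p = 0 ∧ (∀ z ∈ e.target, vfChart E X e z = L z) ∧
        ∃ (b : Module.Basis (Fin (Module.finrank ℂ E)) ℂ E) (m : Fin (Module.finrank ℂ E) → ℕ),
          (∀ j, 0 < m j) ∧ ∀ j, L (b j) = (c * m j) • b j) ∨
      (L = c • ContinuousLinearMap.id ℂ E ∧ X p = 0 ∧
        HasFDerivAt (vfChart E X e) L (e p)))

end Vale.Agent.P253.R2
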