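import Mathlib.Analysis.Normed.Algebra.Exponential
import Vale.Agent.P253.R2.H445.VF.Defs2

/-!
P253: zeros of holomorphic vector fields with contracting linear part.
-/

open scoped Manifold ContDiff Topology
open Set Filter IsManifold

noncomputable section

namespace Vale.Agent.P253.R2

variable (E : Type*) [NormedAddCommGroup E] [NormedSpace ℂ E]
  {M : Type*} [TopologicalSpace M] [ChartedSpace E M]

/-- `p` is a contracting zero of `X`: `X p = 0` and, for the derivative `A` of `X` at `p` (in a
chart) and some complex number `c`, `exp (t c A)` tends to `0` as `t → +∞`; in other words the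
eigenvalues of `A` lie in an open half-plane with `0` on its boundary -/
def IsContractingZero (X : (x : M) → TangentSpace 𝓘(ℂ, E) x) (p : M) : Prop :=
  X p = 0 ∧ ∃ e ∈ maximalAtlas 𝓘(ℂ, E) 1 M, p ∈ e.source ∧ ∃ (A : E →L[ℂ] E) (c : ℂ),
    HasFDerivAt (vfChart E X e) A (e p) ∧
      ∀ v, Tendsto (fun t : ℝ => NormedSpace.exp (((t : ℂ) * c) • A) v) atTop (𝓝 0)

end Vale.Agent.P253.R2
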