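import Vale.Agent.P253.Mfd.Defs

/-!
P253: continuous one-parameter semigroups of holomorphic self-maps.
-/

open scoped Manifold ContDiff Topology
open Set

noncomputable section

namespace Vale.Agent.P253.R2

variable (E : Type*) [NormedAddCommGroup E] [NormedSpace ℂ E]
  {M : Type*} [TopologicalSpace M] [ChartedSpace E M]

/-- `φ_t`, `t ≥ 0`, is a continuous one-parameter semigroup of holomorphic self-maps of the complex
manifold `M` (not assumed injective or surjective, nor differentiable in `t`) -/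
structure IsHolSemigroup (φ : ℝ → M → M) : Prop where
  zero : ∀ x, φ 0 x = x
  add : ∀ s t, 0 ≤ s → 0 ≤ t → ∀ x, φ (s + t) x = φ s (φ t x)
  cont : ContinuousOn (fun q : ℝ × M => φ q.1 q.2) (Ici 0 ×ˢ univ)
  holo : ∀ t, 0 ≤ t → MDifferentiable 𝓘(ℂ, E) 𝓘(ℂ, E) (φ t)

end Vale.Agent.P253.R2
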