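import Vale.Agent.P253.R2.H445.VF.Orb

/-!
P253: the star-shaped domain of the complex-time flow of a holomorphic vector field; it is open and
the flow is jointly holomorphic.
-/

open scoped Manifold ContDiff Topology Bundle
open Set Metric Complex Filter IsManifold Vale.Agent.P253.Mfd

set_option maxSynthPendingDepth 3
set_option linter.unusedSectionVars false

noncomputable section

namespace Vale.Agent.P253.R2.H445

variable {E : Type*} [NormedAddCommGroup E] [NormedSpace ℂ E] [FiniteDimensional ℂ E]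
  {M : Type*} [MetricSpace M] [ChartedSpace E M] [IsManifold 𝓘(ℂ, E) 1 M]
  {X : M → E} {e : OpenPartialHomeomorph M E}

/-- the star-shaped domain of the complex-time flow of `X` -/
def DS (X : M → E) : Set (ℂ × M) :=
  {q | ∃ (U : Set ℂ) (f : ℂ → M), IsOpen U ∧ Convex ℝ U ∧ (0:ℂ) ∈ U ∧ q.1 ∈ U ∧ f 0 = q.2 ∧
    IsOrbitOn E X f U}

open Classical in
/-- the complex-time flow of `X` -/
def FS (X : M → E) (ζ : ℂ) (x : M) : M :=
  if h : (ζ, x) ∈ DS X then h.choose_spec.choose ζ else x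

theorem DS_conv (hX : IsHolVectorField E X) {U : Set ℂ} {f : ℂ → M} {x : M} (hU : IsOpen U)
    (hc : Convex ℝ U) (h0 : (0:ℂ) ∈ U) (hf : IsOrbitOn E X f U) (hx : f 0 = x) {ζ : ℂ}
    (hζ : ζ ∈ U) : (ζ, x) ∈ DS X ∧ FS X ζ x = f ζ := by
  have h : (ζ, x) ∈ DS X := ⟨U, f, hU, hc, h0, hζ, hx, hf⟩
  refine ⟨h, ?_⟩
  rw [FS, dif_pos h]
  obtain ⟨h1, h2, h3, h4, h5, h6⟩ := h.choose_spec.choose_spec
  have h7 := orbit_eqOn hX (h1.inter hU) (h2.inter hc).isPreconnected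
    (orb_mono h6 inter_subset_left) (orb_mono hf inter_subset_right) ⟨h3, h0⟩ (h5.trans hx.symm)
  exact h7 ⟨h4, hζ⟩

theorem exists_orbit (hX : IsHolVectorField E X) {ζ : ℂ} {x : M} (h : (ζ, x) ∈ DS X) :
    ∃ (U : Set ℂ) (f : ℂ → M), IsOpen U ∧ Convex ℝ U ∧ (0:ℂ) ∈ U ∧ ζ ∈ U ∧ f 0 = x ∧
      IsOrbitOn E X f U ∧ ∀ w ∈ U, (w, x) ∈ DS X ∧ FS X w x = f w := by
  obtain ⟨U, f, h1, h2, h3, h4, h5, h6⟩ := h
  exact ⟨U, f, h1, h2, h3, h4, h5, h6, fun w hw => DS_conv hX h1 h2 h3 h6 h5 hw⟩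

/-- gluing of orbits -/
theorem exists_glue {f g : ℂ → M} {A B : Set ℂ} (hA : IsOpen A) (hB : IsOpen B)
    (hf : IsOrbitOn E X f A) (hg : IsOrbitOn E X g B) (h : EqOn f g (A ∩ B)) :
    ∃ k : ℂ → M, IsOrbitOn E X k (A ∪ B) ∧ EqOn k f A ∧ EqOn k g B := by
  classical
  set k : ℂ → M := fun ζ => if ζ ∈ A then f ζ else g ζ with hk
  have h1 : EqOn k f A := fun ζ hζ => by simp only [hk, if_pos hζ]
  have h2 : EqOn k g B := by
    intro ζ hζ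
    by_cases hA : ζ ∈ A
    · rw [h1 hA, h ⟨hA, hζ⟩]
    · simp only [hk, if_neg hA]
  refine ⟨k, ?_, h1, h2⟩
  rintro ζ (hζ | hζ)
  · exact orb_congr hA hf h1 ζ hζ
  · exact orb_congr hB hg h2 ζ hζ

theorem mem_seg {ζ w : ℂ} : w ∈ segment ℝ 0 ζ ↔ ∃ s ∈ Icc (0:ℝ) 1, w = (s:ℂ) * ζ := by
  rw [segment_eq_image]
  constructor
  · rintro ⟨s, hs, rfl⟩
    exact ⟨s, hs, by simp⟩
  · rintro ⟨s, hs, rfl⟩
    exact ⟨s, hs, by simp⟩

theorem isCompact_seg (ζ : ℂ) : IsCompact (segment ℝ 0 ζ) := by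
  rw [segment_eq_image]
  exact isCompact_Icc.image (by fun_prop)

theorem DS_of_open (hX : IsHolVectorField E X) {W : Set ℂ} {f : ℂ → M} {x : M} {ζ : ℂ}
    (hW : IsOpen W) (hs : ∀ s ∈ Icc (0:ℝ) 1, (s:ℂ) * ζ ∈ W) (hf : IsOrbitOn E X f W)
    (hx : f 0 = x) : (ζ, x) ∈ DS X ∧ FS X ζ x = f ζ := by
  have h1 : segment ℝ 0 ζ ⊆ W := by
    intro w hw
    obtain ⟨s, hs', rfl⟩ := mem_seg.1 hw
    exact hs s hs'
  obtain ⟨δ, hδ, h2⟩ := (isCompact_seg ζ).exists_thickening_subset_open hW h1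
  have h3 := self_subset_thickening hδ (segment ℝ 0 ζ)
  exact DS_conv hX isOpen_thickening ((convex_segment 0 ζ).thickening δ)
    (h3 (left_mem_segment ℝ 0 ζ)) (orb_mono hf h2) hx (h3 (right_mem_segment ℝ 0 ζ))

/-- star-shapedness -/
theorem DS_star (hX : IsHolVectorField E X) {ζ : ℂ} {x : M} (h : (ζ, x) ∈ DS X) {s : ℝ}
    (hs : s ∈ Icc (0:ℝ) 1) : ((s:ℂ) * ζ, x) ∈ DS X := by
  obtain ⟨U, f, h1, h2, h3, h4, h5, h6, h7⟩ := exists_orbit hX h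
  refine (h7 _ ?_).1
  have := h2 h3 h4 (sub_nonneg.2 hs.2) hs.1 (by ring)
  simpa using this

theorem isOpen_fibre (hX : IsHolVectorField E X) (x : M) : IsOpen {ζ : ℂ | (ζ, x) ∈ DS X} := by
  rw [isOpen_iff_mem_nhds]
  intro ζ hζ
  obtain ⟨U, f, h1, h2, h3, h4, h5, h6, h7⟩ := exists_orbit hX hζ
  filter_upwards [h1.mem_nhds h4] with w hw using (h7 w hw).1

/-- the orbit of `x` -/
theorem orb_FS (hX : IsHolVectorField E X) (x : M) :
    IsOrbitOn E X (fun ζ => FS X ζ x) {ζ : ℂ | (ζ, x) ∈ DS X} := by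
  intro ζ hζ
  obtain ⟨U, f, h1, h2, h3, h4, h5, h6, h7⟩ := exists_orbit hX hζ
  exact orb_congr h1 h6 (fun w hw => (h7 w hw).2) ζ h4

/-- going on along the ray -/
theorem DS_ray (hX : IsHolVectorField E X) {w ζ : ℂ} {x y : M} (h : (w, x) ∈ DS X)
    (hy : FS X w x = y) {V : Set ℂ} (hV : IsOpen V) (hVc : Convex ℝ V) (h0V : (0:ℂ) ∈ V)
    {k : ℂ → M} (hk : IsOrbitOn E X k V) (hk0 : k 0 = y) {t : ℝ} (ht : 0 ≤ t)
    (hζ : ζ = (t:ℂ) * w) (hη : ζ - w ∈ V) : (ζ, x) ∈ DS X ∧ FS X ζ x = k (ζ - w) := by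
  obtain ⟨U, f, h1, h2, h3, h4, h5, h6, h7⟩ := exists_orbit hX h
  set B : Set ℂ := {ζ | ζ + -w ∈ V} with hB
  have hBo : IsOpen B := hV.preimage (by fun_prop)
  have hBc : Convex ℝ B := hVc.translate_preimage_left (-w)
  have hg := orb_shift hk (-w)
  have hwB : w ∈ B := by
    simp only [hB, mem_ofPred_eq, add_neg_cancel]; exact h0V
  have hζB : ζ ∈ B := by
    simp only [hB, mem_ofPred_eq, ← sub_eq_add_neg]; exact hη
  have heq := orbit_eqOn hX (h1.inter hBo) (h2.inter hBc).isPreconnected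
    (orb_mono h6 inter_subset_left) (orb_mono hg inter_subset_right) ⟨h4, hwB⟩ (by
      simp only [add_neg_cancel]
      rw [← (h7 w h4).2, hy, hk0])
  obtain ⟨K, hK, hK1, hK2⟩ := exists_glue h1 hBo h6 hg heq
  have h8 := DS_of_open hX (h1.union hBo) (ζ := ζ) (x := x) (fun s hs => ?_) hK
    ((hK1 h3).trans h5)
  · refine ⟨h8.1, h8.2.trans ?_⟩
    rw [hK2 hζB, sub_eq_add_neg]
  · rcases le_or_gt (s * t) 1 with hst | hst
    · left
      have h9 := h2 h3 h4 (sub_nonneg.2 hst) (mul_nonneg hs.1 ht) (by ring)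
      rw [hζ]
      convert h9 using 1
      simp only [smul_zero, zero_add, real_smul, ofReal_mul]
      ring
    · right
      have ht1 : 1 < t := by nlinarith [hs.1, hs.2]
      have hst' : s * t ≤ t := by nlinarith [hs.1, hs.2]
      -- `s t w` lies between `w` and `t w`
      set c : ℝ := (s * t - 1) / (t - 1) with hc
      have ht0 : 0 < t - 1 := by linarith
      have hc0 : 0 ≤ c := div_nonneg (by linarith) ht0.le
      have hc1 : c ≤ 1 := by rw [hc, div_le_one ht0]; linarith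
      have h9 := hBc hwB hζB (sub_nonneg.2 hc1) hc0 (by ring)
      convert h9 using 1
      have h10 : (c : ℂ) * (t - 1) = s * t - 1 := by
        rw [hc]
        have : ((t:ℂ) - 1) ≠ 0 := by
          have : ((t - 1 : ℝ) : ℂ) ≠ 0 := by exact_mod_cast ht0.ne'
          simpa using this
        push_cast
        field_simp
      rw [hζ]
      simp only [real_smul]
      push_cast
      linear_combination (-w) * h10

/-- shifting along an orbit -/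
theorem DS_shift (hX : IsHolVectorField E X) {U : Set ℂ} {f : ℂ → M} (hU : IsOpen U)
    (hc : Convex ℝ U) (hf : IsOrbitOn E X f U) {ζ η : ℂ} (h1 : ζ ∈ U) (h2 : ζ + η ∈ U) :
    (η, f ζ) ∈ DS X ∧ FS X η (f ζ) = f (ζ + η) := by
  have hg := orb_shift hf ζ
  have hBo : IsOpen {w : ℂ | w + ζ ∈ U} := hU.preimage (by fun_prop)
  have hBc : Convex ℝ {w : ℂ | w + ζ ∈ U} := hc.translate_preimage_left ζ
  have h3 := DS_conv hX hBo hBc (x := f ζ) (ζ := η) (by simpa using h1) hg (by simp)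
    (by simpa [add_comm] using h2)
  refine ⟨h3.1, h3.2.trans ?_⟩
  rw [add_comm]

/-- good points: the partial flow is holomorphic near the point -/
def QS (X : M → E) : Set (ℂ × M) :=
  {q | ∀ᶠ p in 𝓝 q, p ∈ DS X ∧
    MDifferentiableAt (𝓘(ℂ, ℂ).prod 𝓘(ℂ, E)) 𝓘(ℂ, E) (fun q : ℂ × M => FS X q.1 q.2) p}

theorem isOpen_QS : IsOpen (QS X) := isOpen_setOfPred_eventually_nhds

theorem exists_local_FS (hX : IsHolVectorField E X) (x₀ : M) :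
    ∃ δ > 0, ∃ U : Set M, IsOpen U ∧ x₀ ∈ U ∧ U ⊆ (chartAt E x₀).source ∧
      (∀ x ∈ U, ∀ ζ ∈ ball (0:ℂ) δ, (ζ, x) ∈ DS X ∧ (ζ, x) ∈ QS X) ∧
      (∀ x ∈ U, FS X 0 x = x) := by
  obtain ⟨δ, hδ, U, hU, hx₀, hUs, H, hH0, hHo, hHd⟩ := exists_local hX x₀
  have hF : ∀ x ∈ U, ∀ ζ ∈ ball (0:ℂ) δ, (ζ, x) ∈ DS X ∧ FS X ζ x = H ζ x := fun x hx ζ hζ =>
    DS_conv hX isOpen_ball (convex_ball 0 δ) (mem_ball_self hδ) (hHo x hx) (hH0 x hx) hζ
  have hopen : IsOpen ((ball (0:ℂ) δ) ×ˢ U) := isOpen_ball.prod hU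
  refine ⟨δ, hδ, U, hU, hx₀, hUs, fun x hx ζ hζ => ⟨(hF x hx ζ hζ).1, ?_⟩, fun x hx => ?_⟩
  · filter_upwards [hopen.mem_nhds ⟨hζ, hx⟩] with p hp
    refine ⟨(hF p.2 hp.2 p.1 hp.1).1, ?_⟩
    refine (hHd p.1 hp.1 p.2 hp.2).congr_of_eventuallyEq ?_
    filter_upwards [hopen.mem_nhds hp] with q hq
    exact (hF q.2 hq.2 q.1 hq.1).2
  · rw [(hF x hx 0 (mem_ball_self hδ)).2, hH0 x hx]

theorem zero_mem_DS (hX : IsHolVectorField E X) (x : M) : ((0 : ℂ), x) ∈ DS X := by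
  obtain ⟨δ, hδ, U, hU, hx, -, h1, -⟩ := exists_local_FS hX x
  exact (h1 x hx 0 (mem_ball_self hδ)).1

theorem FS_zero (hX : IsHolVectorField E X) (x : M) : FS X 0 x = x := by
  obtain ⟨δ, hδ, U, hU, hx, -, -, h1⟩ := exists_local_FS hX x
  exact h1 x hx

/-- the local flow from a point close to a base point -/
theorem DS_go (hX : IsHolVectorField E X) {δ : ℝ} (hδ : 0 < δ) {y : M}
    (h : ∀ ζ ∈ ball (0:ℂ) δ, (ζ, y) ∈ DS X) {w ζ : ℂ} {x : M} (hw : (w, x) ∈ DS X)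
    (hy : FS X w x = y) {t : ℝ} (ht : 0 ≤ t) (hζ : ζ = (t:ℂ) * w) (hη : ‖ζ - w‖ < δ) :
    (ζ, x) ∈ DS X ∧ FS X ζ x = FS X (ζ - w) y :=
  DS_ray hX hw hy isOpen_ball (convex_ball 0 δ) (mem_ball_self hδ)
    (orb_mono (orb_FS hX y) (fun ζ hζ => h ζ hζ)) (FS_zero hX y) ht hζ
    (by simpa using hη)

/-- every point of the domain is good -/
theorem DS_subset_QS (hX : IsHolVectorField E X) : DS X ⊆ QS X := by
  rintro ⟨ζ, x⟩ hζx
  obtain ⟨U, f, hUo, hUc, h0U, hζU, hfx, hf, hF⟩ := exists_orbit hX hζx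
  have hsU : ∀ s ∈ Icc (0:ℝ) 1, (s : ℂ) * ζ ∈ U := by
    intro s hs
    have := hUc h0U hζU (sub_nonneg.2 hs.2) hs.1 (by ring)
    simpa using this
  set Z : Set ℝ := {s | ((s : ℂ) * ζ, x) ∈ QS X} with hZ
  have hZo : IsOpen Z := by
    have hc : Continuous (fun s : ℝ => ((s : ℂ) * ζ, x)) := by fun_prop
    exact isOpen_QS.preimage hc
  have hZ0 : (0:ℝ) ∈ Z := by
    obtain ⟨δ, hδ, U, hU, hx, -, h1, -⟩ := exists_local_FS hX x
    simp only [hZ, mem_ofPred_eq, ofReal_zero, zero_mul]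
    exact (h1 x hx 0 (mem_ball_self hδ)).2
  have hsub : Icc (0:ℝ) 1 ⊆ Z := by
    refine isPreconnected_Icc.subset_of_closure_inter_subset hZo ⟨0, ⟨le_rfl, zero_le_one⟩, hZ0⟩ ?_
    rintro s₁ ⟨hcl, hs₁⟩
    rcases hs₁.1.eq_or_lt with h0 | hpos
    · rwa [← h0]
    obtain ⟨δ, hδ, N, hN, hyN, -, hloc, -⟩ := exists_local_FS hX (f ((s₁ : ℂ) * ζ))
    -- a good time close to `s₁`
    have hfc : ContinuousAt (fun s : ℝ => f ((s : ℂ) * ζ)) s₁ := by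
      have h1 : ContinuousAt f ((s₁ : ℂ) * ζ) := (hf _ (hsU s₁ hs₁)).continuousAt
      have h2 : ContinuousAt (fun s : ℝ => (s : ℂ) * ζ) s₁ := by fun_prop
      exact ContinuousAt.comp (g := f) (f := fun s : ℝ => (s : ℂ) * ζ) h1 h2
    have hev1 : ∀ᶠ s : ℝ in 𝓝 s₁, f ((s : ℂ) * ζ) ∈ N := hfc.eventually (hN.mem_nhds hyN)
    have hev2 : ∀ᶠ s : ℝ in 𝓝 s₁, ‖(s₁ : ℂ) * ζ - (s : ℂ) * ζ‖ < δ := by
      have h1 : Continuous (fun s : ℝ => ‖(s₁ : ℂ) * ζ - (s : ℂ) * ζ‖) := by fun_prop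
      have h2 := h1.tendsto s₁
      simp only [sub_self, norm_zero] at h2
      exact h2.eventually (gt_mem_nhds hδ)
    have hev3 : ∀ᶠ s : ℝ in 𝓝 s₁, (s : ℂ) * ζ ∈ U := by
      have h2 : ContinuousAt (fun s : ℝ => (s : ℂ) * ζ) s₁ := by fun_prop
      exact h2.eventually (hUo.mem_nhds (hsU s₁ hs₁))
    have hev4 : ∀ᶠ s : ℝ in 𝓝 s₁, 0 < s := lt_mem_nhds hpos
    obtain ⟨s, ⟨⟨⟨h1, h2⟩, h3⟩, h4⟩, hsZ⟩ :=
      mem_closure_iff_nhds.1 hcl _ (((hev1.and hev2).and hev3).and hev4)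
    set c : ℂ := (s : ℂ) / s₁ with hc
    have hs₁C : (s₁ : ℂ) ≠ 0 := by exact_mod_cast hpos.ne'
    have hsC : (s : ℂ) ≠ 0 := by exact_mod_cast h4.ne'
    have hcs : c * ((s₁ : ℂ) * ζ) = (s : ℂ) * ζ := by rw [hc]; field_simp
    have hFs : FS X ((s : ℂ) * ζ) x = f ((s : ℂ) * ζ) := (hF _ h3).2
    set R : Set (ℂ × M) := (ball (0:ℂ) δ) ×ˢ N with hR
    have hRo : IsOpen R := isOpen_ball.prod hN
    set σ : ℂ × M → ℂ × M := fun q => (c * q.1, q.2) with hσ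
    set Ψ : ℂ × M → ℂ × M := fun q => (q.1 - c * q.1, FS X (c * q.1) q.2) with hΨ
    have hσd : ∀ q : ℂ × M,
        MDifferentiableAt (𝓘(ℂ, ℂ).prod 𝓘(ℂ, E)) (𝓘(ℂ, ℂ).prod 𝓘(ℂ, E)) σ q := by
      intro q
      have h4 : MDifferentiableAt 𝓘(ℂ, ℂ) 𝓘(ℂ, ℂ) (fun ζ : ℂ => c * ζ) q.1 :=
        (differentiableAt_id.const_mul c).mdifferentiableAt
      exact (MDifferentiableAt.comp q (f := Prod.fst) (g := fun ζ : ℂ => c * ζ) h4
        mdifferentiableAt_fst).prodMk mdifferentiableAt_snd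
    have hΨd : ∀ q : ℂ × M, σ q ∈ QS X →
        MDifferentiableAt (𝓘(ℂ, ℂ).prod 𝓘(ℂ, E)) (𝓘(ℂ, ℂ).prod 𝓘(ℂ, E)) Ψ q := by
      intro q hq
      have h4 : MDifferentiableAt 𝓘(ℂ, ℂ) 𝓘(ℂ, ℂ) (fun ζ : ℂ => ζ - c * ζ) q.1 :=
        (differentiableAt_id.sub (differentiableAt_id.const_mul c)).mdifferentiableAt
      refine (MDifferentiableAt.comp q (f := Prod.fst) (g := fun ζ : ℂ => ζ - c * ζ) h4
        mdifferentiableAt_fst).prodMk ?_
      exact MDifferentiableAt.comp q (f := σ) (g := fun q : ℂ × M => FS X q.1 q.2)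
        hq.self_of_nhds.2 (hσd q)
    have hσc : Continuous σ := by
      simp only [hσ]; fun_prop
    have hQo : IsOpen (σ ⁻¹' QS X) := isOpen_QS.preimage hσc
    have hΨc : ContinuousOn Ψ (σ ⁻¹' QS X) := fun q hq =>
      (hΨd q hq).continuousAt.continuousWithinAt
    have hGo : IsOpen ((σ ⁻¹' QS X) ∩ Ψ ⁻¹' R) := hΨc.isOpen_inter_preimage hQo hRo
    have hmem : ((s₁ : ℂ) * ζ, x) ∈ (σ ⁻¹' QS X) ∩ Ψ ⁻¹' R := by
      refine ⟨?_, ?_, ?_⟩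
      · simp only [mem_preimage, hσ, hcs]
        exact hsZ
      · simp only [hΨ, hcs]
        simpa using h2
      · simp only [hΨ, hcs]
        rw [hFs]
        exact h1
    have hDG : ∀ q ∈ (σ ⁻¹' QS X) ∩ Ψ ⁻¹' R,
        q ∈ DS X ∧ FS X q.1 q.2 = FS X (Ψ q).1 (Ψ q).2 := by
      rintro ⟨ζ', x'⟩ ⟨hq1, hq2⟩
      have h4' : (c * ζ', x') ∈ DS X := (Filter.Eventually.self_of_nhds hq1).1
      refine DS_go hX hδ (fun η hη => (hloc _ hq2.2 η hη).1) h4' rfl (t := s₁ / s)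
        (by positivity) ?_ ?_
      · rw [hc]
        push_cast
        field_simp
      · simpa using hq2.1
    change ∀ᶠ p in 𝓝 ((s₁ : ℂ) * ζ, x), _
    filter_upwards [hGo.mem_nhds hmem] with p hp
    refine ⟨(hDG p hp).1, ?_⟩
    have h4 : MDifferentiableAt (𝓘(ℂ, ℂ).prod 𝓘(ℂ, E)) 𝓘(ℂ, E)
        (fun q : ℂ × M => FS X q.1 q.2) (Ψ p) :=
      (Filter.Eventually.self_of_nhds (hloc _ hp.2.2 _ hp.2.1).2).2
    refine (MDifferentiableAt.comp p (g := fun q : ℂ × M => FS X q.1 q.2) (f := Ψ) h4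
      (hΨd p hp.1)).congr_of_eventuallyEq ?_
    filter_upwards [hGo.mem_nhds hp] with q hq
    exact (hDG q hq).2
  have h1 := hsub (show (1:ℝ) ∈ Icc (0:ℝ) 1 from ⟨zero_le_one, le_rfl⟩)
  simpa only [hZ, mem_ofPred_eq, ofReal_one, one_mul] using h1

theorem isOpen_DS (hX : IsHolVectorField E X) : IsOpen (DS X) := by
  rw [isOpen_iff_mem_nhds]
  intro q hq
  filter_upwards [DS_subset_QS hX hq] with p hp using hp.1

theorem mdiff_FS (hX : IsHolVectorField E X) {q : ℂ × M} (hq : q ∈ DS X) :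
    MDifferentiableAt (𝓘(ℂ, ℂ).prod 𝓘(ℂ, E)) 𝓘(ℂ, E) (fun q : ℂ × M => FS X q.1 q.2) q :=
  (Filter.Eventually.self_of_nhds (DS_subset_QS hX hq)).2

theorem mdiff_FS_slice (hX : IsHolVectorField E X) {ζ : ℂ} {x : M} (h : (ζ, x) ∈ DS X) :
    MDifferentiableAt 𝓘(ℂ, E) 𝓘(ℂ, E) (FS X ζ) x := by
  have h2 : MDifferentiableAt 𝓘(ℂ, E) (𝓘(ℂ, ℂ).prod 𝓘(ℂ, E)) (fun x : M => (ζ, x)) x :=
    mdifferentiableAt_const.prodMk mdifferentiableAt_id
  exact MDifferentiableAt.comp x (g := fun q : ℂ × M => FS X q.1 q.2)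
    (f := fun x : M => (ζ, x)) (mdiff_FS hX h) h2

/-- compact star-shaped sets of times: the tube lemma -/
theorem DS_tube (hX : IsHolVectorField E X) {K : Set ℂ} (hK : IsCompact K) {x : M}
    (h : ∀ ζ ∈ K, (ζ, x) ∈ DS X) : ∃ O : Set ℂ, IsOpen O ∧ K ⊆ O ∧
      ∃ N : Set M, IsOpen N ∧ x ∈ N ∧ ∀ x' ∈ N, ∀ ζ ∈ O, (ζ, x') ∈ DS X := by
  obtain ⟨O, N, hO, hN, hKO, hxN, hON⟩ := generalized_tube_lemma hK (isCompact_singleton (x := x))
    (isOpen_DS hX) (by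
      rintro ⟨ζ, x'⟩ ⟨h1, h2⟩
      have h3 : x' = x := h2
      rw [h3]
      exact h ζ h1)
  exact ⟨O, hO, hKO, N, hN, hxN rfl, fun x' hx' ζ hζ => hON ⟨hζ, hx'⟩⟩

/-- going back along an orbit -/
theorem DS_back (hX : IsHolVectorField E X) {ζ : ℂ} {x : M} (h : (ζ, x) ∈ DS X) {s : ℝ}
    (hs : s ∈ Icc (0:ℝ) 1) : (-((s:ℂ) * ζ), FS X ζ x) ∈ DS X ∧
      FS X (-((s:ℂ) * ζ)) (FS X ζ x) = FS X (((1 - s : ℝ) : ℂ) * ζ) x := by
  obtain ⟨U, f, h1, h2, h3, h4, h5, h6, h7⟩ := exists_orbit hX h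
  have h8 : ((1 - s : ℝ) : ℂ) * ζ ∈ U := by
    have := h2 h3 h4 hs.1 (sub_nonneg.2 hs.2) (by ring)
    simpa using this
  have h9 : ζ + -((s:ℂ) * ζ) = ((1 - s : ℝ) : ℂ) * ζ := by push_cast; ring
  have h10 := DS_shift hX h1 h2 h6 h4 (η := -((s:ℂ) * ζ)) (by rw [h9]; exact h8)
  rw [(h7 ζ h4).2, (h7 _ h8).2, ← h9]
  exact h10

end Vale.Agent.P253.R2.H445
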