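import Vale.Agent.P253.R2.H445.VF.Dom

/-!
P253: at the boundary of its domain the complex-time flow escapes to infinity.
-/

open scoped Manifold ContDiff Topology Bundle
open Set Metric Complex Filter IsManifold Vale.Agent.P253.Mfd

set_option maxSynthPendingDepth 3
set_option linter.unusedSectionVars false

noncomputable section

namespace Vale.Agent.P253.R2.H445

variable {E : Type*} [NormedAddCommGroup E] [NormedSpace ℂ E] [FiniteDimensional ℂ E]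
  {M : Type*} [MetricSpace M] [ChartedSpace E M] [IsManifold 𝓘(ℂ, E) 1 M]
  {X : M → E}

/-- at the end of a ray the flow diverges -/
theorem esc_tendsto (hX : IsHolVectorField E X) {ζ₀ : ℂ} {x₀ : M} (hout : (ζ₀, x₀) ∉ DS X)
    (hin : ∀ s ∈ Ico (0:ℝ) 1, ((s:ℂ) * ζ₀, x₀) ∈ DS X) :
    Tendsto (fun q : ℂ × M => FS X q.1 q.2) (𝓝[DS X] (ζ₀, x₀)) (cocompact M) := by
  by_contra hcon
  rw [hasBasis_cocompact.tendsto_right_iff] at hcon
  push Not at hcon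
  obtain ⟨K, hK, hfr⟩ := hcon
  have hfr' : ∃ᶠ q in 𝓝[DS X] (ζ₀, x₀), FS X q.1 q.2 ∈ K := by
    refine hfr.mono fun q hq => ?_
    simpa using hq
  obtain ⟨y, -, hy⟩ := hK.exists_mapClusterPt_of_frequently hfr'
  obtain ⟨W, hW1, hW2⟩ := mapClusterPt_iff_ultrafilter.1 hy
  obtain ⟨δ, hδ, U, hU, hyU, -, hloc, -⟩ := exists_local_FS hX y
  set η : ℝ := min (1 / 2) (δ / (2 * (‖ζ₀‖ + 1))) with hη
  have hη0 : 0 < η := by positivity
  have hη1 : η ≤ 1 / 2 := min_le_left _ _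
  have hηδ : ‖(η:ℂ) * ζ₀‖ < δ := by
    have h1 : η ≤ δ / (2 * (‖ζ₀‖ + 1)) := min_le_right _ _
    rw [norm_mul, norm_real, Real.norm_eq_abs, abs_of_pos hη0]
    have h2 : 0 < ‖ζ₀‖ + 1 := by positivity
    calc η * ‖ζ₀‖ ≤ δ / (2 * (‖ζ₀‖ + 1)) * (‖ζ₀‖ + 1) := by gcongr; linarith
      _ = δ / 2 := by field_simp
      _ < δ := by linarith
  have hηI : η ∈ Icc (0:ℝ) 1 := ⟨hη0.le, by linarith⟩
  -- the point slightly before the end
  have hD1 : (((1 - η : ℝ) : ℂ) * ζ₀, x₀) ∈ DS X := hin _ ⟨by linarith, by linarith⟩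
  have hym : (-((η:ℂ) * ζ₀), y) ∈ DS X := (hloc y hyU _ (by simpa using hηδ)).1
  -- identification of the two limits
  have hWf : Tendsto (fun q : ℂ × M => q) W (𝓝 (ζ₀, x₀)) := hW1.trans nhdsWithin_le_nhds
  have hW1' : Tendsto (fun q : ℂ × M => q.1) W (𝓝 ζ₀) := (continuous_fst.tendsto _).comp hWf
  have hg1 : Tendsto (fun q : ℂ × M => FS X (((1 - η : ℝ) : ℂ) * q.1) q.2) W
      (𝓝 (FS X (((1 - η : ℝ) : ℂ) * ζ₀) x₀)) := by
    have h1 : ContinuousAt (fun q : ℂ × M => FS X q.1 q.2) (((1 - η : ℝ) : ℂ) * ζ₀, x₀) :=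
      (mdiff_FS hX hD1).continuousAt
    have h2 : ContinuousAt (fun q : ℂ × M => (((1 - η : ℝ) : ℂ) * q.1, q.2)) (ζ₀, x₀) := by
      fun_prop
    exact (ContinuousAt.comp (g := fun q : ℂ × M => FS X q.1 q.2)
      (f := fun q : ℂ × M => (((1 - η : ℝ) : ℂ) * q.1, q.2)) h1 h2).tendsto.comp hWf
  have hg2 : Tendsto (fun q : ℂ × M => FS X (-((η:ℂ) * q.1)) (FS X q.1 q.2)) W
      (𝓝 (FS X (-((η:ℂ) * ζ₀)) y)) := by
    have h1 : ContinuousAt (fun q : ℂ × M => FS X q.1 q.2) (-((η:ℂ) * ζ₀), y) :=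
      (mdiff_FS hX hym).continuousAt
    have h2 : Tendsto (fun q : ℂ × M => (-((η:ℂ) * q.1), FS X q.1 q.2)) W
        (𝓝 (-((η:ℂ) * ζ₀), y)) := by
      have h3 : Continuous (fun w : ℂ => -((η:ℂ) * w)) := by fun_prop
      exact ((h3.tendsto ζ₀).comp hW1').prodMk_nhds hW2
    exact h1.tendsto.comp h2
  have hev : ∀ᶠ q : ℂ × M in W, FS X (-((η:ℂ) * q.1)) (FS X q.1 q.2) =
      FS X (((1 - η : ℝ) : ℂ) * q.1) q.2 := by
    have h1 : ∀ᶠ q : ℂ × M in W, q ∈ DS X := hW1 self_mem_nhdsWithin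
    filter_upwards [h1] with q hq
    exact (DS_back hX hq hηI).2
  have heq : FS X (((1 - η : ℝ) : ℂ) * ζ₀) x₀ = FS X (-((η:ℂ) * ζ₀)) y :=
    tendsto_nhds_unique hg1 (hg2.congr' hev)
  -- flow further
  refine hout ?_
  set V : Set ℂ := ball ((η:ℂ) * ζ₀) δ with hV
  have h0V : (0:ℂ) ∈ V := by
    rw [hV, mem_ball, dist_comm, dist_zero_right]; exact hηδ
  have hk : IsOrbitOn E X (fun ζ => FS X (ζ + -((η:ℂ) * ζ₀)) y) V := by
    refine orb_mono (orb_shift (orb_FS hX y) (-((η:ℂ) * ζ₀))) ?_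
    intro ζ hζ
    refine (hloc y hyU _ ?_).1
    rw [mem_ball_zero_iff, ← sub_eq_add_neg, ← dist_eq_norm]
    exact hζ
  have h1η : ((1 - η : ℝ) : ℂ) ≠ 0 := by
    have : (1 - η : ℝ) ≠ 0 := by linarith
    exact_mod_cast this
  refine (DS_ray hX hD1 heq isOpen_ball (convex_ball _ _) h0V hk (by simp only [zero_add])
    (t := (1 - η)⁻¹) (ζ := ζ₀) (by rw [inv_nonneg]; linarith) ?_ ?_).1
  · rw [ofReal_inv, inv_mul_cancel_left₀ h1η]
  · have : ζ₀ - ((1 - η : ℝ) : ℂ) * ζ₀ = (η:ℂ) * ζ₀ := by push_cast; ring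
    rw [this]
    exact mem_ball_self hδ

/-- from the end of a piece of an orbit -/
theorem DS_from (hX : IsHolVectorField E X) {O : Set ℂ} {f : ℂ → M} (hO : IsOpen O)
    (hf : IsOrbitOn E X f O) {c μ : ℂ} (h : ∀ t ∈ Icc (0:ℝ) 1, c + (t:ℂ) * (μ - c) ∈ O) :
    (μ - c, f c) ∈ DS X ∧ FS X (μ - c) (f c) = f μ := by
  have hg := orb_shift hf c
  have hBo : IsOpen {w : ℂ | w + c ∈ O} := hO.preimage (by fun_prop)
  have h3 := DS_of_open hX hBo (x := f c) (ζ := μ - c) (fun s hs => ?_) hg (by simp)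
  · refine ⟨h3.1, h3.2.trans ?_⟩
    simp
  · have := h s hs
    rwa [add_comm] at this

end Vale.Agent.P253.R2.H445
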