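import Vale.Agent.P253.R2.H445.VF.Lin

/-!
P253: vector fields given in a global chart; the Euler vector field of a manifold biholomorphic to
`ℂⁿ`.
-/

open scoped Manifold ContDiff Topology Bundle
open Set Metric Complex Filter Bundle IsManifold Manifold Vale.Agent.P253.Mfd Vale.Agent.P253.CStar

set_option maxSynthPendingDepth 3
set_option linter.unusedSectionVars false

noncomputable section

namespace Vale.Agent.P253.R2.H445

variable {E : Type*} [NormedAddCommGroup E] [NormedSpace ℂ E] [FiniteDimensional ℂ E]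
  {M : Type*} [MetricSpace M] [ChartedSpace E M] [IsManifold 𝓘(ℂ, E) 1 M]
  {X : M → E} {p : M} {e e₀ : OpenPartialHomeomorph M E}

/-- the derivatives of a chart and of its inverse are inverse to each other -/
theorem symm_comp_chart (he : e ∈ maximalAtlas 𝓘(ℂ, E) 1 M) {y : M} (hy : y ∈ e.source) (v : E) :
    (mfderiv 𝓘(ℂ, E) 𝓘(ℂ, E) e.symm (e y) : E →L[ℂ] E)
      ((mfderiv 𝓘(ℂ, E) 𝓘(ℂ, E) e y : E →L[ℂ] E) v) = v := by
  let D : E →L[ℂ] E := mfderiv 𝓘(ℂ, E) 𝓘(ℂ, E) e.symm (e y)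
  let D' : E →L[ℂ] E := mfderiv 𝓘(ℂ, E) 𝓘(ℂ, E) e y
  have h1 : HasMFDerivAt 𝓘(ℂ, E) 𝓘(ℂ, E) e.symm (e y) D :=
    (mdiff_chart_symm he (e.map_source hy)).hasMFDerivAt
  have h5 : HasMFDerivAt 𝓘(ℂ, E) 𝓘(ℂ, E) e y D' := (mdiff_chart he hy).hasMFDerivAt
  have h7 : HasMFDerivAt 𝓘(ℂ, E) 𝓘(ℂ, E) (e.symm ∘ e) y (D.comp D') := h1.comp y h5
  have h8 : (e.symm ∘ e) =ᶠ[𝓝 y] id := by
    filter_upwards [e.open_source.mem_nhds hy] with y hy
    exact e.left_inv hy
  have h9 : HasMFDerivAt 𝓘(ℂ, E) 𝓘(ℂ, E) (e.symm ∘ e) y (ContinuousLinearMap.id ℂ E) :=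
    (hasMFDerivAt_id _).congr_of_eventuallyEq h8
  have h10 : D.comp D' = ContinuousLinearMap.id ℂ E := hasMFDerivAt_unique h7 h9
  exact congrArg (fun A : E →L[ℂ] E => A v) h10

theorem chart_comp_symm (he : e ∈ maximalAtlas 𝓘(ℂ, E) 1 M) {z : E} (hz : z ∈ e.target) (v : E) :
    (mfderiv 𝓘(ℂ, E) 𝓘(ℂ, E) e (e.symm z) : E →L[ℂ] E)
      ((mfderiv 𝓘(ℂ, E) 𝓘(ℂ, E) e.symm z : E →L[ℂ] E) v) = v := by
  let D : E →L[ℂ] E := mfderiv 𝓘(ℂ, E) 𝓘(ℂ, E) e (e.symm z)
  let D' : E →L[ℂ] E := mfderiv 𝓘(ℂ, E) 𝓘(ℂ, E) e.symm z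
  have h1 : HasMFDerivAt 𝓘(ℂ, E) 𝓘(ℂ, E) e (e.symm z) D :=
    (mdiff_chart he (e.map_target hz)).hasMFDerivAt
  have h5 : HasMFDerivAt 𝓘(ℂ, E) 𝓘(ℂ, E) e.symm z D' := (mdiff_chart_symm he hz).hasMFDerivAt
  have h7 : HasMFDerivAt 𝓘(ℂ, E) 𝓘(ℂ, E) (e ∘ e.symm) z (D.comp D') := h1.comp z h5
  have h8 : (e ∘ e.symm) =ᶠ[𝓝 z] id := by
    filter_upwards [e.open_target.mem_nhds hz] with y hy
    exact e.right_inv hy
  have h9 : HasMFDerivAt 𝓘(ℂ, E) 𝓘(ℂ, E) (e ∘ e.symm) z (ContinuousLinearMap.id ℂ E) :=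
    (hasMFDerivAt_id _).congr_of_eventuallyEq h8
  have h10 : D.comp D' = ContinuousLinearMap.id ℂ E := hasMFDerivAt_unique h7 h9
  exact congrArg (fun A : E →L[ℂ] E => A v) h10

/-- a vector field which is holomorphic in one global chart is holomorphic -/
theorem holVF_of_global (he₀ : e₀ ∈ maximalAtlas 𝓘(ℂ, E) 1 M) (hs : e₀.source = univ)
    (h : DifferentiableOn ℂ (vfChart E X e₀) e₀.target) : IsHolVectorField E X := by
  have hCE : CompleteSpace E := FiniteDimensional.complete ℂ E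
  intro e he z hz
  have hs' : ∀ y : M, y ∈ e₀.source := fun y => hs ▸ mem_univ y
  set T : E → E := fun w => e (e₀.symm w) with hT
  set Ω : Set E := e₀.target ∩ e₀.symm ⁻¹' e.source with hΩ
  have hΩo : IsOpen Ω := e₀.continuousOn_symm.isOpen_inter_preimage e₀.open_target e.open_source
  have hTd : DifferentiableOn ℂ T Ω := by
    intro w hw
    have h1 := (mdiff_chart he hw.2).comp w (mdiff_chart_symm he₀ hw.1)
    exact h1.differentiableAt.differentiableWithinAt
  have hTc : ContDiffOn ℂ ∞ T Ω := contDiffOn_of_differentiableOn_complex hΩo hTd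
  have hTf : DifferentiableOn ℂ (fderiv ℂ T) Ω :=
    (hTc.fderiv_of_isOpen hΩo (m := ∞) (by simp)).differentiableOn (by simp)
  set g : E → E := fun z => e₀ (e.symm z) with hg
  have hgd : DifferentiableOn ℂ g e.target := by
    intro w hw
    have h1 := (mdiff_chart he₀ (hs' (e.symm w))).comp w (mdiff_chart_symm he hw)
    exact h1.differentiableAt.differentiableWithinAt
  have hgm : MapsTo g e.target Ω := by
    intro w hw
    refine ⟨e₀.map_source (hs' _), ?_⟩
    change e₀.symm (e₀ (e.symm w)) ∈ e.source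
    rw [e₀.left_inv (hs' _)]
    exact e.map_target hw
  have key : ∀ w ∈ e.target, vfChart E X e w = fderiv ℂ T (g w) (vfChart E X e₀ (g w)) := by
    intro w hw
    set y := e.symm w with hy
    have hys : y ∈ e.source := e.map_target hw
    have hgw : g w = e₀ y := rfl
    have hyt : e₀ y ∈ e₀.target := e₀.map_source (hs' y)
    let A : E →L[ℂ] E := mfderiv 𝓘(ℂ, E) 𝓘(ℂ, E) e y
    let B : E →L[ℂ] E := mfderiv 𝓘(ℂ, E) 𝓘(ℂ, E) e₀.symm (e₀ y)
    have h1 : HasMFDerivAt 𝓘(ℂ, E) 𝓘(ℂ, E) e (e₀.symm (e₀ y)) A := by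
      rw [e₀.left_inv (hs' y)]
      exact (mdiff_chart he hys).hasMFDerivAt
    have h2 : HasMFDerivAt 𝓘(ℂ, E) 𝓘(ℂ, E) e₀.symm (e₀ y) B :=
      (mdiff_chart_symm he₀ hyt).hasMFDerivAt
    have h3 : HasMFDerivAt 𝓘(ℂ, E) 𝓘(ℂ, E) T (e₀ y) (A.comp B) := h1.comp (e₀ y) h2
    have h3' : HasFDerivAt T (A.comp B) (e₀ y) := h3.hasFDerivAt
    have h4 : fderiv ℂ T (e₀ y) = A.comp B := h3'.fderiv
    rw [hgw, h4, vfChart_eq (hs' y)]
    change A (X y) = A (B _)
    congr 1
    exact (symm_comp_chart he₀ (hs' y) (X y)).symm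
  have h1 : DifferentiableOn ℂ (fun w => fderiv ℂ T (g w) (vfChart E X e₀ (g w))) e.target := by
    have h2 : DifferentiableOn ℂ (fun w => fderiv ℂ T (g w)) e.target := hTf.comp hgd hgm
    have h3 : DifferentiableOn ℂ (fun w => vfChart E X e₀ (g w)) e.target :=
      h.comp hgd (fun w hw => (hgm hw).1)
    exact h2.clm_apply h3
  exact (h1.congr key) z hz

/-- a vector field which generates an action of `ℂ` is complete -/
theorem DS_of_cflow' (hX : IsHolVectorField E X) {ψ : ℂ → M → M} (h0 : ∀ x, ψ 0 x = x)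
    (h : ∀ x, IsOrbitOn E X (fun ζ => ψ ζ x) univ) : DS X = univ ∧ FS X = ψ := by
  have h1 : ∀ ζ x, (ζ, x) ∈ DS X ∧ FS X ζ x = ψ ζ x := fun ζ x =>
    DS_conv hX isOpen_univ convex_univ (mem_univ _) (h x) (h0 x) (mem_univ ζ)
  exact ⟨eq_univ_of_forall fun q => (h1 q.1 q.2).1, funext fun ζ => funext fun x => (h1 ζ x).2⟩

variable (F : M ≃ₘ^1⟮𝓘(ℂ, E), 𝓘(ℂ, E)⟯ E)

/-- a biholomorphism onto the model space as a chart -/
def diffeoChart : OpenPartialHomeomorph M E := F.toHomeomorph.toOpenPartialHomeomorph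

theorem diffeoChart_apply (x : M) : diffeoChart F x = F x := rfl

theorem diffeoChart_symm_apply (z : E) : (diffeoChart F).symm z = F.symm z := rfl

theorem diffeoChart_source : (diffeoChart F).source = univ := rfl

theorem diffeoChart_target : (diffeoChart F).target = univ := rfl

theorem diffeoChart_mem : diffeoChart F ∈ maximalAtlas 𝓘(ℂ, E) 1 M :=
  OpenPartialHomeomorph.mem_maximalAtlas_of_contMDiffOn _ F.contMDiff.contMDiffOn
    F.symm.contMDiff.contMDiffOn

/-- the pull back of the Euler vector field -/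
def eulerX : M → E := fun x =>
  (mfderiv 𝓘(ℂ, E) 𝓘(ℂ, E) (diffeoChart F).symm (F x) : E →L[ℂ] E) (F x)

theorem vfChart_euler (z : E) : vfChart E (eulerX F) (diffeoChart F) z = z := by
  have h1 := chart_comp_symm (diffeoChart_mem F) (z := z) (mem_univ z) z
  unfold vfChart eulerX
  have h2 : F ((diffeoChart F).symm z) = z := F.apply_symm_apply z
  rw [h2]
  exact h1

theorem holVF_euler : IsHolVectorField E (eulerX F) :=
  holVF_of_global (diffeoChart_mem F) rfl (by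
    have h1 : vfChart E (eulerX F) (diffeoChart F) = id := funext fun z => vfChart_euler F z
    rw [h1]
    exact differentiableOn_id)

theorem orbit_euler (x : M) :
    IsOrbitOn E (eulerX F) (fun ζ => (diffeoChart F).symm (exp ζ • F x)) univ := by
  intro ζ _
  refine orbit_of_chart (diffeoChart_mem F) (k := fun ζ => exp ζ • F x) ?_ (mem_univ _)
  rw [vfChart_euler]
  exact (hasDerivAt_exp ζ).smul_const (F x)

theorem DS_euler : DS (eulerX F) = univ ∧ ∀ ζ x, FS (eulerX F) ζ x = F.symm (exp ζ • F x) := by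
  have h1 := DS_of_cflow' (X := eulerX F) (holVF_euler F)
    (ψ := fun ζ x => (diffeoChart F).symm (exp ζ • F x)) (fun x => by
      simp only [exp_zero, one_smul]
      exact F.symm_apply_apply x) (orbit_euler F)
  exact ⟨h1.1, fun ζ x => by rw [h1.2]; rfl⟩

theorem source_euler : IsPeriodicSource E (eulerX F) (F.symm 0) 1 (ContinuousLinearMap.id ℂ E) := by
  refine ⟨one_ne_zero, diffeoChart F, diffeoChart_mem F, mem_univ _, Or.inl ⟨?_, fun z _ => ?_,
    Module.finBasis ℂ E, fun _ => 1, fun _ => one_pos, fun j => ?_⟩⟩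
  · exact F.apply_symm_apply 0
  · rw [vfChart_euler]; rfl
  · simp

theorem closure_euler (x : M) :
    F.symm 0 ∈ closure (range fun ζ => F.symm (exp ζ • F x)) := by
  have h1 : Tendsto (fun t : ℝ => F.symm (exp ((-t : ℝ) : ℂ) • F x)) atTop (𝓝 (F.symm 0)) := by
    have h2 : Tendsto (fun t : ℝ => exp ((-t : ℝ) : ℂ) • F x) atTop (𝓝 0) := by
      have h3 : Tendsto (fun t : ℝ => exp ((-t : ℝ) : ℂ)) atTop (𝓝 0) := by
        have h4 : Tendsto (fun t : ℝ => Real.exp (-t)) atTop (𝓝 0) :=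
          Real.tendsto_exp_neg_atTop_nhds_zero
        have h5 := (continuous_ofReal.tendsto 0).comp h4
        simpa [Function.comp_def] using h5
      simpa using h3.smul_const (F x)
    exact (F.symm.contMDiff.continuous.tendsto 0).comp h2
  exact mem_closure_of_tendsto h1 (Eventually.of_forall fun t => ⟨_, rfl⟩)

end Vale.Agent.P253.R2.H445
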