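import Vale.Agent.P253.R2.H445.VF.SgUnif

/-!
P253: final statements.
-/

open scoped Manifold ContDiff Topology Bundle
open Set Metric Complex Filter Bundle IsManifold Manifold Vale.Agent.P253.Mfd

set_option maxSynthPendingDepth 3
set_option linter.unusedSectionVars false

noncomputable section

namespace Vale.Agent.P253.R2.H445

variable {E : Type*} [NormedAddCommGroup E] [NormedSpace ℂ E] [FiniteDimensional ℂ E]
  {M : Type*} [MetricSpace M] [ChartedSpace E M]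
  [IsManifold 𝓘(ℂ, E) 1 M] [IsManifold 𝓘(ℝ, E) ∞ M]
  [RiemannianBundle (fun x : M => TangentSpace 𝓘(ℝ, E) x)]
  [IsContMDiffRiemannianBundle 𝓘(ℝ, E) ∞ E (fun x : M => TangentSpace 𝓘(ℝ, E) x)]
  [IsRiemannianManifold 𝓘(ℝ, E) M]

theorem tame_existsUnique (hK : IsKahler E M) [CompleteSpace M] [ConnectedSpace M]
    (hnn : ∀ x : M, NonnegBisectionalAt E x) {X : (x : M) → TangentSpace 𝓘(ℂ, E) x}
    (hX : IsHolVectorField E X) (h : IsTame E X) :
    ∃! ψ : ℂ → M → M, IsHolCFlow E ψ ∧ ∀ x, IsOrbitOn E X (fun ζ => ψ ζ x) univ :=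
  existsUnique_of_univ hX (DS_of_tame hK hnn hX h)

theorem tame_unif (hK : IsKahler E M) [CompleteSpace M] [NoncompactSpace M] [ConnectedSpace M]
    (hnn : ∀ x : M, NonnegBisectionalAt E x) {X : (x : M) → TangentSpace 𝓘(ℂ, E) x}
    (hX : IsHolVectorField E X) (h : IsTame E X) {p : M} {c : ℂ} {L : E →L[ℂ] E}
    (hs : IsPeriodicSource E X p c L)
    (hcase : PosBisectionalAt E p ∨
      ∀ γ : ℂ → M, IsOrbitOn E X γ univ → p ∈ closure (range γ)) :
    ∃ F : M ≃ₘ^1⟮𝓘(ℂ, E), 𝓘(ℂ, E)⟯ E, F p = 0 ∧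
      ∀ x : M, (mfderiv 𝓘(ℂ, E) 𝓘(ℂ, E) F x : E → E) (X x) = L (F x) := by
  have hDS := DS_of_tame hK hnn hX h
  refine unif_main hK hnn (X := X) hX hDS hs (hcase.imp id fun hcl x => ?_)
  exact hcl _ ((exists_cflow_of_univ hX hDS).2 x)

/-- for positive bisectional curvature: one tame vector field with a periodic source is enough -/
theorem iff_vectorField (hK : IsKahler E M) [CompleteSpace M] [NoncompactSpace M]
    [ConnectedSpace M] (hnn : ∀ x : M, NonnegBisectionalAt E x)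
    (hpos : ∀ x : M, PosBisectionalAt E x) :
    Nonempty (M ≃ₘ^1⟮𝓘(ℂ, E), 𝓘(ℂ, E)⟯ E) ↔
      ∃ (X : (x : M) → TangentSpace 𝓘(ℂ, E) x) (p : M) (c : ℂ) (L : E →L[ℂ] E),
        IsHolVectorField E X ∧ IsTame E X ∧ IsPeriodicSource E X p c L := by
  constructor
  · rintro ⟨F⟩
    refine ⟨eulerX F, F.symm 0, 1, ContinuousLinearMap.id ℂ E, holVF_euler F, ?_, source_euler F⟩
    refine Or.inr (Or.inl ⟨F.symm 0, fun ε _ R₀ => ⟨R₀ + 1, lt_add_one R₀, fun x _ => ?_⟩⟩)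
    refine ⟨fun ζ => (diffeoChart F).symm (exp ζ • F x), ?_,
      orb_mono (orbit_euler F x) (subset_univ _)⟩
    simp only [exp_zero, one_smul]
    exact F.symm_apply_apply x
  · rintro ⟨X, p, c, L, hX, h, hs⟩
    obtain ⟨F, -⟩ := tame_unif hK hnn hX h hs (Or.inl (hpos p))
    exact ⟨F⟩

/-- for nonnegative bisectional curvature: a contracting semigroup of holomorphic self-maps is
enough -/
theorem iff_semigroup (hK : IsKahler E M) [CompleteSpace M] [NoncompactSpace M]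
    [ConnectedSpace M] (hnn : ∀ x : M, NonnegBisectionalAt E x) :
    Nonempty (M ≃ₘ^1⟮𝓘(ℂ, E), 𝓘(ℂ, E)⟯ E) ↔
      ∃ (φ : ℝ → M → M) (p : M), IsHolSemigroup E φ ∧
        (∀ t : ℝ, 0 ≤ t → φ t p = p ∧ ∀ v : E,
          (mfderiv 𝓘(ℂ, E) 𝓘(ℂ, E) (φ t) p : E → E) v = exp (-(t:ℂ)) • v) ∧
        ∀ x, Tendsto (fun t => φ t x) atTop (𝓝 p) := by
  constructor
  · rintro ⟨F⟩
    exact semigroup_of_diffeo F
  · rintro ⟨φ, p, h, hp, hlim⟩
    obtain ⟨F, -⟩ := semigroup_unif hK hnn h (p := p) (c := -1) (by norm_num)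
      (fun t ht => ⟨(hp t ht).1, fun v => by rw [neg_one_mul]; exact (hp t ht).2 v⟩)
      (Or.inr fun x => mem_closure_of_tendsto (hlim x)
        (by filter_upwards [Ici_mem_atTop (0:ℝ)] with t ht using ⟨t, ht, rfl⟩))
    exact ⟨F⟩

end Vale.Agent.P253.R2.H445
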