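import Vale.Agent.P253.R2.H445.VF.Box

/-!
P253: gauges; the psh function attached to a holomorphic vector field and a gauge.
-/

open scoped Manifold ContDiff Topology Bundle
open Set Metric Complex Filter IsManifold Vale.Agent.P253.Mfd

set_option maxSynthPendingDepth 3
set_option linter.unusedSectionVars false

noncomputable section

namespace Vale.Agent.P253.R2.H445

/-- a gauge: a function decreasing along the rays from `0`, harmonic on `S` -/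
structure Gauge (Q : ℂ → ℝ) (S : Set ℂ) : Prop where
  isOpen : IsOpen S
  bdd : ∀ q : ℝ, ∃ R : ℝ, ∀ ζ ∈ S, q ≤ Q ζ → ‖ζ‖ ≤ R
  ray : ∀ ζ ∈ S, ∀ t ∈ Ioo (0:ℝ) 1, (t:ℂ) * ζ ∈ S ∧ Q ζ < Q ((t:ℂ) * ζ)
  harm : ∀ ζ ∈ S, ∃ (V : Set ℂ) (H : ℂ → ℂ), IsOpen V ∧ V ⊆ S ∧
    (∀ t ∈ Icc (1/2:ℝ) 1, (t:ℂ) * ζ ∈ V) ∧ DifferentiableOn ℂ H V ∧ (∀ w ∈ V, Q w = (H w).re) ∧
    ∀ t ∈ Icc (1/2:ℝ) 1, (deriv H ((t:ℂ) * ζ) * ζ).re < 0

variable {Q : ℂ → ℝ} {S : Set ℂ}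

theorem Gauge.mem_V {ζ : ℂ} {V : Set ℂ} (hV : ∀ t ∈ Icc (1/2:ℝ) 1, (t:ℂ) * ζ ∈ V) : ζ ∈ V := by
  simpa using hV 1 ⟨by norm_num, le_rfl⟩

theorem Gauge.cont (hQ : Gauge Q S) : ContinuousOn Q S := by
  intro ζ hζ
  obtain ⟨V, H, hV, -, hVζ, hH, hQH, -⟩ := hQ.harm ζ hζ
  have hζV : ζ ∈ V := Gauge.mem_V hVζ
  have h1 : ContinuousAt H ζ := (hH.differentiableAt (hV.mem_nhds hζV)).continuousAt
  have h2 : ContinuousAt (fun w => (H w).re) ζ := continuous_re.continuousAt.comp h1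
  refine (h2.congr ?_).continuousWithinAt
  filter_upwards [hV.mem_nhds hζV] with w hw using (hQH w hw).symm

/-- local inverse -/
theorem Gauge.exists_lift (hQ : Gauge Q S) {ζ₀ : ℂ} (hζ₀ : ζ₀ ∈ S) :
    ∃ Z : ℂ → ℂ, Z 0 = ζ₀ ∧ ∀ᶠ w in 𝓝 (0:ℂ), DifferentiableAt ℂ Z w ∧ Z w ∈ S ∧
      Q (Z w) = Q ζ₀ + w.re := by
  obtain ⟨V, H, hV, hVS, hVζ, hH, hQH, hd⟩ := hQ.harm ζ₀ hζ₀
  have hζV : ζ₀ ∈ V := Gauge.mem_V hVζ
  set D := deriv H ζ₀ with hD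
  have hD0 : D ≠ 0 := by
    intro h0
    have h1 := hd 1 ⟨by norm_num, le_rfl⟩
    rw [ofReal_one, one_mul, ← hD, h0, zero_mul, zero_re] at h1
    exact lt_irrefl _ h1
  set g : ℂ → ℂ := fun v => ζ₀ + D⁻¹ * v with hg
  have hgc : Continuous g := by fun_prop
  have hU : IsOpen (g ⁻¹' V) := hV.preimage hgc
  have h0U : (0:ℂ) ∈ g ⁻¹' V := by simp only [mem_preimage, hg, mul_zero, add_zero]; exact hζV
  have hψ : DifferentiableOn ℂ (fun v => H (g v) - H ζ₀) (g ⁻¹' V) := by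
    intro v hv
    have h1 : DifferentiableAt ℂ H (g v) := hH.differentiableAt (hV.mem_nhds hv)
    have h2 : DifferentiableAt ℂ g v := by fun_prop
    exact ((h1.comp v h2).sub_const _).differentiableWithinAt
  have hψ' : HasFDerivAt (fun v => H (g v) - H ζ₀) (ContinuousLinearMap.id ℂ ℂ) 0 := by
    have h1 : HasDerivAt H D (g 0) := by
      simp only [hg, mul_zero, add_zero]
      exact (hH.differentiableAt (hV.mem_nhds hζV)).hasDerivAt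
    have h2 : HasDerivAt g D⁻¹ 0 := by
      have := ((hasDerivAt_id (0:ℂ)).const_mul D⁻¹).const_add ζ₀
      simpa [hg] using this
    have h3 := (h1.comp (0:ℂ) h2).sub_const (H ζ₀)
    rw [mul_inv_cancel₀ hD0] at h3
    have h4 := h3.hasFDerivAt
    have h5 : (ContinuousLinearMap.toSpanSingleton ℂ (1:ℂ)) = ContinuousLinearMap.id ℂ ℂ := by
      ext; simp
    rw [h5] at h4
    exact h4
  obtain ⟨Ψ, h1, h2, h3, h4⟩ := exists_inverse_chart hU hψ h0U hψ'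
  have hΨ0 : Ψ 0 = 0 := by rw [h3]; simp [hg]
  have h0t : (0:ℂ) ∈ Ψ.target := by
    have := Ψ.map_source h1
    rwa [hΨ0] at this
  refine ⟨fun w => g (Ψ.symm w), ?_, ?_⟩
  · have : Ψ.symm 0 = 0 := by
      have := Ψ.left_inv h1
      rwa [hΨ0] at this
    simp [this, hg]
  · filter_upwards [Ψ.open_target.mem_nhds h0t] with w hw
    have h5 : g (Ψ.symm w) ∈ V := h2 (Ψ.map_target hw)
    refine ⟨?_, hVS h5, ?_⟩
    · have h6 : DifferentiableAt ℂ Ψ.symm w := (h4 w hw).differentiableAt (by simp)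
      exact (h6.const_mul D⁻¹).const_add ζ₀
    · have h6 : H (g (Ψ.symm w)) - H ζ₀ = w := by
        rw [← h3, Ψ.right_inv hw]
      have h7 := congrArg Complex.re h6
      rw [sub_re] at h7
      rw [hQH _ h5, hQH _ hζV]
      linarith

/-- monotonicity along segments close to the radial segment -/
theorem Gauge.segments (hQ : Gauge Q S) {ζ₀ : ℂ} (hζ₀ : ζ₀ ∈ S) :
    ∀ᶠ q : ℂ × ℂ in 𝓝 (ζ₀ / 2, ζ₀), ∀ t ∈ Icc (0:ℝ) 1, q.1 + (t:ℂ) * (q.2 - q.1) ∈ S ∧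
      Q q.2 ≤ Q (q.1 + (t:ℂ) * (q.2 - q.1)) ∧
      (t < 1 → Q q.2 < Q (q.1 + (t:ℂ) * (q.2 - q.1))) := by
  obtain ⟨V, H, hV, hVS, hVζ, hH, hQH, hd⟩ := hQ.harm ζ₀ hζ₀
  have hHd : ContinuousOn (deriv H) V :=
    ((hH.analyticOnNhd hV).deriv).continuousOn
  have key : ∀ᶠ q : ℂ × ℂ in 𝓝 (ζ₀ / 2, ζ₀), ∀ t ∈ Icc (0:ℝ) 1,
      q.1 + (t:ℂ) * (q.2 - q.1) ∈ V ∧
      (deriv H (q.1 + (t:ℂ) * (q.2 - q.1)) * (q.2 - q.1)).re < 0 := by
    apply isCompact_Icc.eventually_forall_of_forall_eventually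
    intro t ht
    have hc : Continuous (fun z : (ℂ × ℂ) × ℝ => z.1.1 + (z.2:ℂ) * (z.1.2 - z.1.1)) := by fun_prop
    have e1 : ζ₀ / 2 + (t:ℂ) * (ζ₀ - ζ₀ / 2) = (((1 + t) / 2 : ℝ) : ℂ) * ζ₀ := by push_cast; ring
    have ht' : (1 + t) / 2 ∈ Icc (1/2:ℝ) 1 := ⟨by linarith [ht.1], by linarith [ht.2]⟩
    have hmem : ζ₀ / 2 + (t:ℂ) * (ζ₀ - ζ₀ / 2) ∈ V := by rw [e1]; exact hVζ _ ht'
    refine (hc.continuousAt.eventually (hV.mem_nhds hmem)).and ?_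
    have h1 : ContinuousAt (fun z : (ℂ × ℂ) × ℝ =>
        (deriv H (z.1.1 + (z.2:ℂ) * (z.1.2 - z.1.1)) * (z.1.2 - z.1.1)).re)
        ((ζ₀ / 2, ζ₀), t) := by
      refine continuous_re.continuousAt.comp (ContinuousAt.mul ?_ (by fun_prop))
      exact ContinuousAt.comp (g := deriv H)
        (f := fun z : (ℂ × ℂ) × ℝ => z.1.1 + (z.2:ℂ) * (z.1.2 - z.1.1))
        (hHd.continuousAt (hV.mem_nhds hmem)) hc.continuousAt
    refine h1.eventually (gt_mem_nhds ?_)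
    change (deriv H (ζ₀ / 2 + (t:ℂ) * (ζ₀ - ζ₀ / 2)) * (ζ₀ - ζ₀ / 2)).re < 0
    rw [e1]
    have h2 := hd _ ht'
    have h3 : deriv H ((((1 + t) / 2 : ℝ) : ℂ) * ζ₀) * (ζ₀ - ζ₀ / 2) =
        ((1 / 2 : ℝ) : ℂ) * (deriv H ((((1 + t) / 2 : ℝ) : ℂ) * ζ₀) * ζ₀) := by
      push_cast; ring
    rw [h3, re_ofReal_mul]
    linarith
  filter_upwards [key] with q hq
  have hanti : StrictAntiOn (fun t : ℝ => (H (q.1 + (t:ℂ) * (q.2 - q.1))).re) (Icc 0 1) := by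
    have hder : ∀ t ∈ Icc (0:ℝ) 1, HasDerivAt
        (fun t : ℝ => (H (q.1 + (t:ℂ) * (q.2 - q.1))).re)
        ((deriv H (q.1 + (t:ℂ) * (q.2 - q.1)) * (q.2 - q.1)).re) t := by
      intro t ht
      have h1 : HasDerivAt H (deriv H (q.1 + (t:ℂ) * (q.2 - q.1))) (q.1 + (t:ℂ) * (q.2 - q.1)) :=
        (hH.differentiableAt (hV.mem_nhds (hq t ht).1)).hasDerivAt
      have h2 : HasDerivAt (fun w : ℂ => q.1 + w * (q.2 - q.1)) (q.2 - q.1) (t:ℂ) := by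
        have := ((hasDerivAt_id (t:ℂ)).mul_const (q.2 - q.1)).const_add q.1
        simpa using this
      have h3 := h1.comp (t:ℂ) h2
      exact h3.real_of_complex
    refine strictAntiOn_of_deriv_neg (convex_Icc 0 1)
      (fun t ht => (hder t ht).continuousAt.continuousWithinAt) (fun t ht => ?_)
    rw [interior_Icc] at ht
    have ht' : t ∈ Icc (0:ℝ) 1 := ⟨ht.1.le, ht.2.le⟩
    rw [(hder t ht').deriv]
    exact (hq t ht').2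
  have e1 : q.1 + ((1:ℝ):ℂ) * (q.2 - q.1) = q.2 := by push_cast; ring
  have hq2 : q.2 ∈ V := by
    have := (hq 1 ⟨zero_le_one, le_rfl⟩).1
    rwa [e1] at this
  intro t ht
  have h1 : t < 1 → Q q.2 < Q (q.1 + (t:ℂ) * (q.2 - q.1)) := by
    intro ht1
    have h2 := hanti ht ⟨zero_le_one, le_rfl⟩ ht1
    simp only [e1] at h2
    rw [hQH _ hq2, hQH _ (hq t ht).1]
    exact h2
  refine ⟨hVS (hq t ht).1, ?_, h1⟩
  rcases ht.2.eq_or_lt with h | h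
  · rw [h, e1]
  · exact (h1 h).le

variable {E : Type*} [NormedAddCommGroup E] [NormedSpace ℂ E] [FiniteDimensional ℂ E]
  {M : Type*} [MetricSpace M] [ChartedSpace E M] [IsManifold 𝓘(ℂ, E) 1 M]
  {X : M → E}

/-- the supremum of the gauge over the times which are not reached by the orbit -/
def uQ (X : M → E) (Q : ℂ → ℝ) (x : M) : EReal :=
  ⨆ (ζ : ℂ) (_ : (ζ, x) ∉ DS X), ((Q ζ : ℝ) : EReal)

theorem le_uQ {ζ : ℂ} {x : M} (h : (ζ, x) ∉ DS X) : ((Q ζ : ℝ) : EReal) ≤ uQ X Q x :=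
  le_iSup₂ (f := fun (ζ : ℂ) (_ : (ζ, x) ∉ DS X) => ((Q ζ : ℝ) : EReal)) ζ h

theorem mem_of_uQ_lt {ζ : ℂ} {x : M} (h : uQ X Q x < ((Q ζ : ℝ) : EReal)) : (ζ, x) ∈ DS X := by
  by_contra hcon
  exact absurd (le_uQ hcon) (not_le.2 h)

theorem uQ_attained (hX : IsHolVectorField E X) (hQ : Gauge Q S)
    (hS : ∀ (x : M) (ζ : ℂ), (ζ, x) ∉ DS X → ζ ∈ S) {x : M} {ζ₁ : ℂ} (h : (ζ₁, x) ∉ DS X) :
    ∃ ζ₀, (ζ₀, x) ∉ DS X ∧ uQ X Q x = ((Q ζ₀ : ℝ) : EReal) := by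
  set C : Set ℂ := {ζ | (ζ, x) ∉ DS X} with hC
  have hCc : IsClosed C := (isOpen_fibre hX x).isClosed_compl
  have hCS : C ⊆ S := fun ζ hζ => hS x ζ hζ
  have hA : IsClosed (C ∩ Q ⁻¹' Ici (Q ζ₁)) :=
    (hQ.cont.mono hCS).preimage_isClosed_of_isClosed hCc isClosed_Ici
  obtain ⟨R, hR⟩ := hQ.bdd (Q ζ₁)
  have hAc : IsCompact (C ∩ Q ⁻¹' Ici (Q ζ₁)) := by
    refine (isCompact_closedBall (0:ℂ) R).of_isClosed_subset hA ?_
    rintro ζ ⟨h1, h2⟩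
    rw [mem_closedBall_zero_iff]
    exact hR ζ (hCS h1) h2
  obtain ⟨ζ₀, hζ₀, hmax⟩ := hAc.exists_isMaxOn ⟨ζ₁, h, le_refl (Q ζ₁)⟩
    ((hQ.cont.mono hCS).mono inter_subset_left)
  refine ⟨ζ₀, hζ₀.1, le_antisymm ?_ (le_uQ hζ₀.1)⟩
  refine iSup₂_le fun ζ hζ => ?_
  refine EReal.coe_le_coe_iff.2 ?_
  rcases le_or_gt (Q ζ₁) (Q ζ) with h1 | h1
  · exact hmax ⟨hζ, h1⟩
  · exact h1.le.trans hζ₀.2

theorem uQ_ne_top (hX : IsHolVectorField E X) (hQ : Gauge Q S)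
    (hS : ∀ (x : M) (ζ : ℂ), (ζ, x) ∉ DS X → ζ ∈ S) (x : M) : uQ X Q x ≠ ⊤ := by
  by_cases h : ∃ ζ, (ζ, x) ∉ DS X
  · obtain ⟨ζ, hζ⟩ := h
    obtain ⟨ζ₀, -, h2⟩ := uQ_attained hX hQ hS hζ
    rw [h2]
    exact EReal.coe_ne_top _
  · push Not at h
    have : uQ X Q x ≤ ⊥ := iSup₂_le fun ζ hζ => absurd (h ζ) hζ
    intro h1
    rw [h1] at this
    simp at this

theorem usc_uQ (hX : IsHolVectorField E X) (hQ : Gauge Q S)
    (hS : ∀ (x : M) (ζ : ℂ), (ζ, x) ∉ DS X → ζ ∈ S) : UpperSemicontinuous (uQ X Q) := by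
  intro x y hy
  obtain ⟨q, hq1, hq2⟩ := EReal.lt_iff_exists_real_btwn.1 hy
  obtain ⟨R, hR⟩ := hQ.bdd q
  have hop : IsOpen (S ∩ Q ⁻¹' Iio q) := hQ.cont.isOpen_inter_preimage hQ.isOpen isOpen_Iio
  set K : Set ℂ := closedBall 0 R ∩ (S ∩ Q ⁻¹' Iio q)ᶜ with hK
  have hKc : IsCompact K := (isCompact_closedBall (0:ℂ) R).inter_right hop.isClosed_compl
  have hKD : ∀ ζ ∈ K, (ζ, x) ∈ DS X := by
    rintro ζ ⟨-, h1⟩
    by_contra hcon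
    refine h1 ⟨hS x ζ hcon, ?_⟩
    have h2 := (le_uQ (Q := Q) hcon).trans_lt hq1
    exact EReal.coe_lt_coe_iff.1 h2
  obtain ⟨O, hO, hKO, N, hN, hxN, hON⟩ := DS_tube hX hKc hKD
  filter_upwards [hN.mem_nhds hxN] with x' hx'
  refine lt_of_le_of_lt (iSup₂_le fun ζ hζ => ?_) hq2
  refine EReal.coe_le_coe_iff.2 ?_
  by_contra hcon
  push Not at hcon
  have hζS := hS x' ζ hζ
  refine hζ (hON x' hx' ζ (hKO ⟨?_, ?_⟩))
  · rw [mem_closedBall_zero_iff]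
    exact hR ζ hζS hcon.le
  · rintro ⟨-, h1⟩
    exact absurd h1 (not_lt.2 hcon.le)

/-- half way to the end of a ray -/
theorem half_way (hX : IsHolVectorField E X) {ζ₀ : ℂ} {x : M} (hout : (ζ₀, x) ∉ DS X)
    (hin : ∀ s ∈ Ico (0:ℝ) 1, ((s:ℂ) * ζ₀, x) ∈ DS X) :
    (ζ₀ / 2, FS X (ζ₀ / 2) x) ∉ DS X ∧
      ∀ s ∈ Ico (0:ℝ) 1, ((s:ℂ) * (ζ₀ / 2), FS X (ζ₀ / 2) x) ∈ DS X := by
  have e1 : ((1 / 2 : ℝ) : ℂ) * ζ₀ = ζ₀ / 2 := by push_cast; ring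
  have hhalf : (ζ₀ / 2, x) ∈ DS X := by
    rw [← e1]; exact hin _ ⟨by norm_num, by norm_num⟩
  constructor
  · intro hcon
    obtain ⟨U, f, h1, h2, h3, h4, h5, h6, -⟩ := exists_orbit hX hcon
    refine hout (DS_ray hX hhalf rfl h1 h2 h3 h6 h5 (t := 2) (ζ := ζ₀) zero_le_two ?_ ?_).1
    · push_cast; ring
    · have : ζ₀ - ζ₀ / 2 = ζ₀ / 2 := by ring
      rw [this]; exact h4
  · intro s hs
    have hs' : (1 + s) / 2 ∈ Ico (0:ℝ) 1 := ⟨by linarith [hs.1], by linarith [hs.2]⟩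
    obtain ⟨U, f, h1, h2, h3, h4, h5, h6, h7⟩ := exists_orbit hX (hin _ hs')
    have h8 : ζ₀ / 2 ∈ U := by
      have hs1 : 0 < 1 + s := by linarith [hs.1]
      have h9 := h2 h3 h4 (a := s / (1 + s)) (b := 1 / (1 + s)) (div_nonneg hs.1 hs1.le)
        (by positivity) (by field_simp; ring)
      convert h9 using 1
      simp only [smul_zero, zero_add, real_smul]
      have : ((1:ℂ) + s) ≠ 0 := by
        have : ((1 + s : ℝ) : ℂ) ≠ 0 := by exact_mod_cast hs1.ne'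
        simpa using this
      push_cast
      field_simp
    have h9 : ζ₀ / 2 + (s:ℂ) * (ζ₀ / 2) ∈ U := by
      convert h4 using 1
      push_cast; ring
    have h10 := (DS_shift hX h1 h2 h6 h8 h9).1
    rwa [← (h7 _ h8).2] at h10

/-- the rays before the touching time -/
theorem ray_in (hX : IsHolVectorField E X) (hQ : Gauge Q S) {ζ₀ : ℂ} {x : M} (hζ₀ : ζ₀ ∈ S)
    (h : uQ X Q x = ((Q ζ₀ : ℝ) : EReal)) : ∀ s ∈ Ico (0:ℝ) 1, ((s:ℂ) * ζ₀, x) ∈ DS X := by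
  intro s hs
  rcases hs.1.eq_or_lt with h0 | h0
  · rw [← h0, ofReal_zero, zero_mul]
    exact zero_mem_DS hX x
  · refine mem_of_uQ_lt (Q := Q) ?_
    rw [h]
    exact EReal.coe_lt_coe_iff.2 (hQ.ray ζ₀ hζ₀ s ⟨h0, hs.2⟩).2

/-- a constant function forces completeness -/
theorem DS_univ_of_const (hX : IsHolVectorField E X) (hQ : Gauge Q S)
    (hS : ∀ (x : M) (ζ : ℂ), (ζ, x) ∉ DS X → ζ ∈ S) {C : EReal} (h : ∀ x, uQ X Q x = C) :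
    DS X = univ := by
  by_contra hcon
  obtain ⟨⟨ζ₁, x⟩, hq⟩ := (ne_univ_iff_exists_notMem _).1 hcon
  obtain ⟨ζ₀, h1, h2⟩ := uQ_attained hX hQ hS hq
  have hζ₀ := hS x ζ₀ h1
  obtain ⟨h3, -⟩ := half_way hX h1 (ray_in hX hQ hζ₀ h2)
  have h4 := le_uQ (Q := Q) h3
  rw [h _, ← h x, h2] at h4
  have h5 := (hQ.ray ζ₀ hζ₀ (1/2) ⟨by norm_num, by norm_num⟩).2
  have e1 : ((1 / 2 : ℝ) : ℂ) * ζ₀ = ζ₀ / 2 := by push_cast; ring
  rw [e1] at h5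
  exact absurd (EReal.coe_le_coe_iff.1 h4) (not_le.2 h5)

/-- the main lemma: `uQ` is plurisubharmonic in the viscosity sense -/
theorem noTouch_uQ (hKP : H156.KP E M) (hX : IsHolVectorField E X) (hQ : Gauge Q S)
    (hS : ∀ (x : M) (ζ : ℂ), (ζ, x) ∉ DS X → ζ ∈ S) : H156.NoTouch E (uQ X Q) := by
  intro a h T c r hc hr ha hh hT h0 hle
  obtain ⟨ζ₁, hζ₁⟩ : ∃ ζ, (ζ, a 0) ∉ DS X := by
    by_contra hcon
    push Not at hcon
    have : uQ X Q (a 0) ≤ ⊥ := iSup₂_le fun ζ hζ => absurd (hcon ζ) hζ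
    rw [hT] at this
    simp at this
  obtain ⟨ζ₀, hout, hζ₀T⟩ := uQ_attained hX hQ hS hζ₁
  have hζ₀ := hS _ ζ₀ hout
  have hQT : Q ζ₀ = T := by
    rw [hT] at hζ₀T
    exact_mod_cast hζ₀T.symm
  have hin := ray_in hX hQ hζ₀ hζ₀T
  obtain ⟨hout₁, hin₁⟩ := half_way hX hout hin
  set c₀ : ℂ := ζ₀ / 2 with hc₀
  have hhalf : (c₀, a 0) ∈ DS X := by
    have e1 : ((1 / 2 : ℝ) : ℂ) * ζ₀ = ζ₀ / 2 := by push_cast; ring
    rw [hc₀, ← e1]; exact hin _ ⟨by norm_num, by norm_num⟩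
  obtain ⟨Z, hZ0, hZ⟩ := hQ.exists_lift hζ₀
  obtain ⟨ρ, hρ, hseg⟩ := Metric.eventually_nhds_iff_ball.1 (hQ.segments hζ₀)
  have hseg' : ∀ c' μ : ℂ, ‖c' - c₀‖ < ρ → ‖μ - ζ₀‖ < ρ → ∀ t ∈ Icc (0:ℝ) 1,
      c' + (t:ℂ) * (μ - c') ∈ S ∧ Q μ ≤ Q (c' + (t:ℂ) * (μ - c')) ∧
      (t < 1 → Q μ < Q (c' + (t:ℂ) * (μ - c'))) := by
    intro c' μ h1 h2
    refine hseg (c', μ) ?_
    rw [mem_ball, Prod.dist_eq, dist_eq_norm, dist_eq_norm]
    exact max_lt h1 h2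
  -- a good neighbourhood of zero
  have hball : closedBall (0:ℂ) r ∈ 𝓝 (0:ℂ) := closedBall_mem_nhds 0 hr
  have h0b : (0:ℂ) ∈ closedBall (0:ℂ) r := mem_closedBall_self hr.le
  have hhc : ContinuousAt h 0 := (hh 0 h0b).continuousAt
  have hh0 : Tendsto h (𝓝 0) (𝓝 0) := by
    have := hhc.tendsto
    rwa [h0] at this
  have hac : ContinuousAt a 0 := (ha 0 h0b).continuousAt
  have hev1 : ∀ᶠ z in 𝓝 (0:ℂ), DifferentiableAt ℂ Z (h z) ∧ Z (h z) ∈ S ∧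
      Q (Z (h z)) = Q ζ₀ + (h z).re := hh0.eventually hZ
  have hZc : ContinuousAt Z 0 := hZ.self_of_nhds.1.continuousAt
  have hev2 : ∀ᶠ z in 𝓝 (0:ℂ), ‖Z (h z) - ζ₀‖ < min 1 (ρ / 2) := by
    have h1 : Tendsto (fun z => ‖Z (h z) - ζ₀‖) (𝓝 0) (𝓝 0) := by
      have h2 : Tendsto (fun w => ‖Z w - ζ₀‖) (𝓝 0) (𝓝 0) := by
        have h3 : ContinuousAt (fun w => ‖Z w - ζ₀‖) 0 := (hZc.sub continuousAt_const).norm
        have h4 := h3.tendsto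
        rwa [hZ0, sub_self, norm_zero] at h4
      exact h2.comp hh0
    exact h1.eventually (gt_mem_nhds (by positivity))
  have hev3 : ∀ᶠ z in 𝓝 (0:ℂ), (c₀, a z) ∈ DS X := by
    have h1 : ContinuousAt (fun z => (c₀, a z)) 0 := continuousAt_const.prodMk hac
    exact h1.eventually ((isOpen_DS hX).mem_nhds hhalf)
  obtain ⟨r₁, hr₁, hgood⟩ := Metric.eventually_nhds_iff_ball.1
    (((hev1.and hev2).and hev3).and (show ∀ᶠ z in 𝓝 (0:ℂ), z ∈ closedBall (0:ℂ) r from hball))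
  set ε₁ : ℝ := min 1 (ρ / (4 * (‖c₀ - ζ₀‖ + 1))) with hε₁
  have hε₁0 : 0 < ε₁ := by positivity
  have hε₁1 : ε₁ ≤ 1 := min_le_left _ _
  have hε₁ρ : ε₁ * (‖c₀ - ζ₀‖ + 1) < ρ / 2 := by
    have h1 : ε₁ ≤ ρ / (4 * (‖c₀ - ζ₀‖ + 1)) := min_le_right _ _
    have h2 : 0 < ‖c₀ - ζ₀‖ + 1 := by positivity
    calc ε₁ * (‖c₀ - ζ₀‖ + 1) ≤ ρ / (4 * (‖c₀ - ζ₀‖ + 1)) * (‖c₀ - ζ₀‖ + 1) := by gcongr
      _ = ρ / 4 := by field_simp
      _ < ρ / 2 := by linarith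
  have hcb : ∀ z ∈ closedBall (0:ℂ) (r₁ / 2), z ∈ ball (0:ℂ) r₁ := fun z hz =>
    closedBall_subset_ball (by linarith) hz
  refine Exists.elim (exists_config hX hout₁ hin₁ (a := fun z => FS X c₀ (a z))
      (ν0 := fun z => Z (h z) - c₀) (ν1 := fun z => (ε₁ : ℂ) * (c₀ - Z (h z)))
      (r := r₁ / 2) (ε := ρ) (by positivity) hρ ?_ ?_ ?_ rfl ?_ ?_)
    (fun G ⟨Φ, d0, d1, U, r', hG, hΦ, hinj, hr', hU, hUr, hd0, hd1, hin', hout', hesc⟩ =>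
      hKP G Φ d0 d1 U r' hG hΦ hinj hr' hU hUr hd0 hd1 hin' hout' hesc)
  · intro z hz
    obtain ⟨⟨-, h3⟩, h4⟩ := hgood z (hcb z hz)
    exact MDifferentiableAt.comp z (g := FS X c₀) (f := a) (mdiff_FS_slice hX h3) (ha z h4)
  · intro z hz
    obtain ⟨⟨⟨h1, -⟩, h3⟩, h4⟩ := hgood z (hcb z hz)
    exact (DifferentiableAt.comp z h1.1 (hh z h4)).sub_const _
  · intro z hz
    obtain ⟨⟨⟨h1, -⟩, h3⟩, h4⟩ := hgood z (hcb z hz)
    exact ((DifferentiableAt.comp z h1.1 (hh z h4)).const_sub _).const_mul _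
  · simp only [h0, hZ0, hc₀]
    ring
  · intro s hs z hz hsz
    obtain ⟨⟨⟨h1, h2⟩, h3⟩, h4⟩ := hgood z (hcb z hz)
    set w₀ := Z (h z) with hw₀
    set μ : ℂ := w₀ + (s:ℂ) * ((ε₁:ℂ) * (c₀ - w₀)) with hμ
    have hw₀ρ : ‖w₀ - ζ₀‖ < ρ := by
      have := h2.trans_le (min_le_right _ _)
      linarith
    have hμρ : ‖μ - ζ₀‖ < ρ := by
      have h5 : μ - ζ₀ = (w₀ - ζ₀) + (s:ℂ) * ((ε₁:ℂ) * (c₀ - w₀)) := by rw [hμ]; ring
      have h6 : ‖c₀ - w₀‖ ≤ ‖c₀ - ζ₀‖ + 1 := by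
        have h7 : c₀ - w₀ = (c₀ - ζ₀) - (w₀ - ζ₀) := by ring
        rw [h7]
        exact (norm_sub_le _ _).trans (by
          have := h2.le.trans (min_le_left _ _)
          linarith)
      have h7 : ‖(s:ℂ) * ((ε₁:ℂ) * (c₀ - w₀))‖ < ρ / 2 := by
        rw [norm_mul, norm_mul, norm_real, norm_real, Real.norm_eq_abs, Real.norm_eq_abs,
          abs_of_nonneg hs.1, abs_of_pos hε₁0]
        calc s * (ε₁ * ‖c₀ - w₀‖) ≤ 1 * (ε₁ * (‖c₀ - ζ₀‖ + 1)) := by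
              gcongr
              exact hs.2
          _ < ρ / 2 := by rw [one_mul]; exact hε₁ρ
      rw [h5]
      have h8 := h2.trans_le (min_le_right _ _)
      exact (norm_add_le _ _).trans_lt (by linarith)
    -- the time `μ` is reached by the orbit of `a z`
    have hQμ : uQ X Q (a z) < ((Q μ : ℝ) : EReal) := by
      refine lt_of_le_of_lt (hle z h4) (EReal.coe_lt_coe_iff.2 ?_)
      have hQw₀ : Q w₀ = T + (h z).re := by rw [h1.2.2, hQT]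
      have hz0 : 0 ≤ c * ‖z‖ ^ 2 := by positivity
      rcases hs.1.eq_or_lt with h5 | h5
      · have hzne : z ≠ 0 := by
          rintro rfl
          exact hsz (by rw [← h5])
        have h6 : 0 < c * ‖z‖ ^ 2 := by positivity
        have h7 : μ = w₀ := by rw [hμ, ← h5]; simp
        rw [h7, hQw₀]
        linarith
      · have h6 : 0 < s * ε₁ := by positivity
        have h7 : s * ε₁ ≤ 1 := by nlinarith [hs.2]
        have h8 := (hseg' c₀ w₀ (by simpa using hρ) hw₀ρ (1 - s * ε₁)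
          ⟨by linarith, by linarith⟩).2.2 (by linarith)
        have h9 : c₀ + ((1 - s * ε₁ : ℝ) : ℂ) * (w₀ - c₀) = μ := by
          rw [hμ]; push_cast; ring
        rw [h9] at h8
        linarith
    refine ⟨{w | (w + c₀, a z) ∈ DS X}, fun w => FS X (w + c₀) (a z), ?_, ?_, ?_, ?_⟩
    · exact (isOpen_fibre hX (a z)).preimage (by fun_prop)
    · simp only [zero_add]
    · exact orb_shift (orb_FS hX (a z)) c₀
    · intro β hβ t ht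
      obtain ⟨h5, h6, -⟩ := hseg' (c₀ - β) μ (by simpa using hβ) hμρ t ht
      have h7 : -β + (t:ℂ) * (w₀ - c₀ + (s:ℂ) * ((ε₁:ℂ) * (c₀ - w₀)) - -β) + c₀ =
          c₀ - β + (t:ℂ) * (μ - (c₀ - β)) := by
        rw [hμ]; ring
      simp only [mem_ofPred_eq]
      rw [h7]
      exact mem_of_uQ_lt (hQμ.trans_le (EReal.coe_le_coe_iff.2 h6))

end Vale.Agent.P253.R2.H445
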