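import Vale.Agent.P253.R2.H445.VF.Met

/-!
P253: holomorphic vector fields of growth `r ^ (1 + o(1))` have slowly shrinking flow radius.
-/

open scoped Manifold ContDiff Topology Bundle ENNReal
open Set Metric Complex Filter Bundle IsManifold MeasureTheory Vale.Agent.P253.Mfd

set_option maxSynthPendingDepth 3
set_option linter.unusedSectionVars false

noncomputable section

namespace Vale.Agent.P253.R2.H445

variable {E : Type*} [NormedAddCommGroup E] [NormedSpace ℂ E] [FiniteDimensional ℂ E]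
  {M : Type*} [MetricSpace M] [ChartedSpace E M]
  [IsManifold 𝓘(ℂ, E) 1 M] [IsManifold 𝓘(ℝ, E) ∞ M]
  [RiemannianBundle (fun x : M => TangentSpace 𝓘(ℝ, E) x)]
  [IsContMDiffRiemannianBundle 𝓘(ℝ, E) ∞ E (fun x : M => TangentSpace 𝓘(ℝ, E) x)]
  [IsRiemannianManifold 𝓘(ℝ, E) M]
  {X : M → E}

theorem radius_of_growth (hKa : IsKahler E M) [CompleteSpace M] (hX : IsHolVectorField E X) (p : M)
    (hg : ∀ ε : ℝ, 0 < ε → ∃ C : ℝ, ∀ x : M, gnorm x (X x) ≤ C * (1 + dist x p) ^ (1 + ε)) :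
    ∀ ε > 0, ∀ R₀ : ℝ, ∃ R > R₀, ∀ x : M, dist x p = R → ∀ ζ : ℂ,
      ‖ζ‖ < Real.exp (-(ε * Real.log R)) → (ζ, x) ∈ DS X := by
  intro ε hε R₀
  obtain ⟨C₀, hC₀⟩ := hg (ε / 2) (by positivity)
  set C : ℝ := |C₀| + 1 with hC
  have hCpos : 0 < C := by positivity
  set B : ℝ := C * 3 ^ (1 + ε / 2) with hB
  have hBpos : 0 < B := by positivity
  set R : ℝ := max (max R₀ 1) (B ^ (2 / ε)) + 1 with hR
  have hR1 : R₀ < R := by
    have : R₀ ≤ max (max R₀ 1) (B ^ (2 / ε)) := (le_max_left _ _).trans (le_max_left _ _)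
    linarith
  have hR2 : 1 < R := by
    have : (1:ℝ) ≤ max (max R₀ 1) (B ^ (2 / ε)) := (le_max_right _ _).trans (le_max_left _ _)
    linarith
  have hR3 : B ^ (2 / ε) < R := by
    have : B ^ (2 / ε) ≤ max (max R₀ 1) (B ^ (2 / ε)) := le_max_right _ _
    linarith
  have hRpos : 0 < R := by linarith
  refine ⟨R, hR1, fun x hx ζ hζ => ?_⟩
  have hK : 0 < C * (3 * R) ^ (1 + ε / 2) := by positivity
  refine mem_DS_of_metric hKa hX hRpos hK (fun y hy => ?_) (hζ.trans_le ?_)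
  · have h1 : dist y p ≤ 2 * R := by
      calc dist y p ≤ dist y x + dist x p := dist_triangle _ _ _
        _ ≤ R + R := by rw [dist_comm y x, hx]; gcongr
        _ = 2 * R := by ring
    have h2 : (1 + dist y p) ^ (1 + ε / 2) ≤ (3 * R) ^ (1 + ε / 2) := by
      apply Real.rpow_le_rpow (by positivity) (by linarith) (by positivity)
    calc gnorm y (X y) ≤ C₀ * (1 + dist y p) ^ (1 + ε / 2) := hC₀ y
      _ ≤ C * (1 + dist y p) ^ (1 + ε / 2) := by
        gcongr
        have := le_abs_self C₀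
        linarith
      _ ≤ C * (3 * R) ^ (1 + ε / 2) := by gcongr
  · rw [le_div_iff₀ hK]
    have h1 : Real.exp (-(ε * Real.log R)) = R ^ (-ε) := by
      rw [Real.rpow_def_of_pos hRpos]; congr 1; ring
    have h2 : (3 * R) ^ (1 + ε / 2) = 3 ^ (1 + ε / 2) * R ^ (1 + ε / 2) :=
      Real.mul_rpow (by norm_num) hRpos.le
    have h3 : R ^ (-ε) * R ^ (1 + ε / 2) = R ^ (-(ε / 2)) * R := by
      rw [← Real.rpow_add hRpos]
      nth_rewrite 3 [← Real.rpow_one R]
      rw [← Real.rpow_add hRpos]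
      congr 1; ring
    have h4 : B ≤ R ^ (ε / 2) := by
      have h5 : B = (B ^ (2 / ε)) ^ (ε / 2) := by
        rw [← Real.rpow_mul hBpos.le]
        have : 2 / ε * (ε / 2) = 1 := by field_simp
        rw [this, Real.rpow_one]
      rw [h5]
      exact Real.rpow_le_rpow (by positivity) hR3.le (by positivity)
    have h5 : R ^ (-(ε / 2)) * B ≤ 1 := by
      rw [Real.rpow_neg hRpos.le, inv_mul_le_iff₀ (by positivity), mul_one]
      exact h4
    calc Real.exp (-(ε * Real.log R)) * (C * (3 * R) ^ (1 + ε / 2))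
        = (R ^ (-ε) * R ^ (1 + ε / 2)) * B := by rw [h1, h2, hB]; ring
      _ = (R ^ (-(ε / 2)) * B) * R := by rw [h3]; ring
      _ ≤ 1 * R := by gcongr
      _ = R := one_mul R

end Vale.Agent.P253.R2.H445
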