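import Vale.Agent.P253.R2.H445.VF.Unif
import Vale.Agent.P253.R2.H445.VF.Defs2
import Vale.Agent.P253.R2.H451.KPProp
import Vale.Agent.P253.R2.H618.Liou2

/-!
P253: tame holomorphic vector fields are complete.
-/

open scoped Manifold ContDiff Topology Bundle
open Set Metric Complex Filter Bundle IsManifold Manifold Vale.Agent.P253.Mfd

set_option maxSynthPendingDepth 3
set_option linter.unusedSectionVars false

noncomputable section

namespace Vale.Agent.P253.R2.H445

variable {E : Type*} [NormedAddCommGroup E] [NormedSpace ℂ E] [FiniteDimensional ℂ E]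
  {M : Type*} [MetricSpace M] [ChartedSpace E M]
  [IsManifold 𝓘(ℂ, E) 1 M] [IsManifold 𝓘(ℝ, E) ∞ M]
  [RiemannianBundle (fun x : M => TangentSpace 𝓘(ℝ, E) x)]
  [IsContMDiffRiemannianBundle 𝓘(ℝ, E) ∞ E (fun x : M => TangentSpace 𝓘(ℝ, E) x)]
  [IsRiemannianManifold 𝓘(ℝ, E) M]
  {X : (x : M) → TangentSpace 𝓘(ℂ, E) x} {p : M}

/-- forward completeness along one real direction implies completeness -/
theorem DS_of_forward (hK : IsKahler E M) [CompleteSpace M] [ConnectedSpace M]
    (hnn : ∀ x : M, NonnegBisectionalAt E x) (hX : IsHolVectorField E X) {c : ℂ} (hc : c ≠ 0)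
    (h : IsForwardComplete E X c) : DS (X : M → E) = univ := by
  refine DS_of_smX (X := (X : M → E)) hX hc ?_
  refine complete_of_forward (H451.kp_prop hK hnn)
    (fun u hu hle hnt => H618.liouville_noTouch hK hnn u hu hle hnt) (holVF_smX hX c)
    (fun x t ht => ?_)
  obtain ⟨γ, h0, hγ⟩ := h x
  exact (mem_DS_of_curve (holVF_smX hX c) h0 hγ ht).1

/-- slowly shrinking flow radius implies completeness -/
theorem DS_of_radius (hK : IsKahler E M) [CompleteSpace M] [ConnectedSpace M]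
    (hnn : ∀ x : M, NonnegBisectionalAt E x) (hX : IsHolVectorField E X) (p : M)
    (hR : ∀ ε > 0, ∀ R₀ : ℝ, ∃ R > R₀, ∀ x : M, dist x p = R → ∀ ζ : ℂ,
      ‖ζ‖ < Real.exp (-(ε * Real.log R)) → (ζ, x) ∈ DS (X : M → E)) :
    DS (X : M → E) = univ :=
  complete_of_radius (ρ := fun x => dist x p) (H451.kp_prop hK hnn)
    (fun _ hu htop hnt hgr => H618.liouville_growth hK hnn hu htop
      (H618.circMaj_of_noTouch hu htop hnt) p hgr) hX hR

/-- tame holomorphic vector fields are complete -/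
theorem DS_of_tame (hK : IsKahler E M) [CompleteSpace M] [ConnectedSpace M]
    (hnn : ∀ x : M, NonnegBisectionalAt E x) (hX : IsHolVectorField E X) (h : IsTame E X) :
    DS (X : M → E) = univ := by
  rcases h with ⟨c, hc, h⟩ | ⟨p, h⟩ | ⟨p, h⟩
  · exact DS_of_forward hK hnn hX hc h
  · refine DS_of_radius hK hnn hX p fun ε hε R₀ => ?_
    obtain ⟨R, hR, hx⟩ := h ε hε (max R₀ 1)
    have hR1 : R₀ < R := (le_max_left _ _).trans_lt hR
    have hR2 : 0 < R := by linarith [(le_max_right R₀ 1).trans_lt hR]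
    refine ⟨R, hR1, fun x hxR ζ hζ => ?_⟩
    obtain ⟨γ, h0, hγ⟩ := hx x hxR
    have h1 : Real.exp (-(ε * Real.log R)) = R ^ (-ε) := by
      rw [Real.rpow_def_of_pos hR2]; congr 1; ring
    rw [h1] at hζ
    exact (DS_conv hX isOpen_ball (convex_ball _ _) (mem_ball_self (by positivity)) hγ h0
      (mem_ball_zero_iff.2 hζ)).1
  · exact DS_of_radius hK hnn hX p (radius_of_growth hK hX p h)

/-- Theorem: a tame holomorphic vector field on a complete Kähler manifold with nonnegative
bisectional curvature generates a unique holomorphic action of `ℂ`. -/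
theorem existsUnique_of_univ (hX : IsHolVectorField E X) (h : DS (X : M → E) = univ) :
    ∃! ψ : ℂ → M → M, IsHolCFlow E ψ ∧ ∀ x, IsOrbitOn E X (fun ζ => ψ ζ x) univ := by
  obtain ⟨h1, h2⟩ := exists_cflow_of_univ hX h
  refine ⟨FS (X : M → E), ⟨h1, h2⟩, fun ψ hψ => ?_⟩
  exact cflow_unique_of_orbit hX hψ.1.zero h1.zero hψ.2 h2

/-- a vector field which generates an action of `ℂ` is complete -/
theorem DS_of_cflow (hX : IsHolVectorField E X) {ψ : ℂ → M → M} (h0 : ∀ x, ψ 0 x = x)
    (h : ∀ x, IsOrbitOn E X (fun ζ => ψ ζ x) univ) :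
    DS (X : M → E) = univ ∧ FS (X : M → E) = ψ := by
  have h1 : ∀ ζ x, (ζ, x) ∈ DS (X : M → E) ∧ FS (X : M → E) ζ x = ψ ζ x := fun ζ x =>
    DS_conv hX isOpen_univ convex_univ (mem_univ _) (h x) (h0 x) (mem_univ ζ)
  exact ⟨eq_univ_of_forall fun q => (h1 q.1 q.2).1, funext fun ζ => funext fun x => (h1 ζ x).2⟩

end Vale.Agent.P253.R2.H445
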