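import Vale.Agent.P253.R2.H445.VF.Attr
import Vale.Agent.P253.R2.H445.VF.Tame

/-!
P253: data of a periodic source.
-/

open scoped Manifold ContDiff Topology Bundle
open Set Metric Complex Filter Bundle IsManifold Manifold Vale.Agent.P253.Mfd Vale.Agent.P253.CStar

set_option maxSynthPendingDepth 3
set_option linter.unusedSectionVars false

noncomputable section

namespace Vale.Agent.P253.R2.H445

variable {E : Type*} [NormedAddCommGroup E] [NormedSpace ℂ E] [FiniteDimensional ℂ E]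
  {M : Type*} [MetricSpace M] [ChartedSpace E M] [IsManifold 𝓘(ℂ, E) 1 M]
  {X : M → E} {p : M}

theorem FS_fix (hX : IsHolVectorField E X) (h0 : X p = 0) (ζ : ℂ) : FS X ζ p = p := by
  have h1 : IsOrbitOn E X (fun _ : ℂ => p) univ := by
    intro ζ _
    have h2 : HasMFDerivAt 𝓘(ℂ, ℂ) 𝓘(ℂ, E) (fun _ : ℂ => p) ζ (0 : ℂ →L[ℂ] E) :=
      hasMFDerivAt_const p ζ
    refine h2.congr_mfderiv ?_
    ext
    change (0 : E) = ((1 : ℂ →L[ℂ] ℂ) 1) • (X p : E)
    rw [h0]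
    exact (smul_zero _).symm
  exact (DS_conv hX isOpen_univ convex_univ (mem_univ _) h1 rfl (mem_univ ζ)).2

variable (E) in
/-- output of the Poincaré linearization -/
def PLOut (X : M → E) (p : M) : Prop :=
  ∀ (c : ℂ) (_ : c ≠ 0), ∀ e ∈ maximalAtlas 𝓘(ℂ, E) 1 M, p ∈ e.source → X p = 0 →
    HasFDerivAt (vfChart E X e) (c • ContinuousLinearMap.id ℂ E) (e p) →
    (∀ᶠ x in 𝓝 p, FS X (2 * Real.pi * I / c) x = x) ∧
    ∀ (ζ : ℂ) (v : E),
      (mfderiv 𝓘(ℂ, E) 𝓘(ℂ, E) (FS X ζ) p : E → E) v = exp (c * ζ) • v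

variable [ConnectedSpace M] [IsManifold 𝓘(ℝ, E) ∞ M]

theorem source_data (hX : IsHolVectorField E X) (hDS : DS X = univ) {c : ℂ}
    {L : E →L[ℂ] E} (hs : IsPeriodicSource E X p c L) (hPL : PLOut E X p) :
    HolC E (FS (smX c⁻¹ X)) ∧ (∀ ζ, FS (smX c⁻¹ X) ζ p = p) ∧
    ∃ (φ : E ≃L[ℂ] (Fin (Module.finrank ℂ E) → ℂ)) (m : Fin (Module.finrank ℂ E) → ℝ),
      (∀ j, 0 < m j) ∧ (∃ D : E ≃L[ℂ] E, ∀ (ζ : ℂ) (v : E),
        (mfderiv 𝓘(ℂ, E) 𝓘(ℂ, E) (FS (smX c⁻¹ X) ζ) p : E → E) v =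
          LE (D.trans φ) m ζ v) ∧
      ∀ z : E, AE φ m z = c⁻¹ • L z := by
  obtain ⟨hc, e, he, hps, h | h⟩ := hs
  · obtain ⟨hep, hv, b, m, hm, hL⟩ := h
    set φ : E ≃L[ℂ] (Fin (Module.finrank ℂ E) → ℂ) := b.equivFun.toContinuousLinearEquiv with hφ
    have hAE : ∀ z : E, AE φ (fun j => (m j : ℝ)) z = c⁻¹ • L z := by
      intro z
      have h1 : z = ∑ j, b.repr z j • b j := (b.sum_repr z).symm
      have h2 : L z = ∑ j, (b.repr z j * (c * m j)) • b j := by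
        conv_lhs => rw [h1]
        rw [map_sum]
        refine Finset.sum_congr rfl fun j _ => ?_
        rw [map_smul, hL, smul_smul]
      have h3 : AE φ (fun j => (m j : ℝ)) z = ∑ j, (((m j : ℝ) : ℂ) * b.repr z j) • b j := by
        unfold AE
        exact b.equivFun_symm_apply _
      rw [h2, h3, Finset.smul_sum]
      refine Finset.sum_congr rfl fun j _ => ?_
      rw [smul_smul]
      congr 1
      push_cast
      field_simp
    obtain ⟨h1, h2, h3⟩ := holC_of_source (holVF_smX hX c⁻¹) (DS_smX hX c⁻¹ hDS).1 he hps hep hm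
      (φ := φ) (fun z hz => by rw [vfChart_smX, hv z hz, hAE])
    exact ⟨h1, h2, φ, fun j => (m j : ℝ), fun j => Nat.cast_pos.2 (hm j), h3, hAE⟩
  · obtain ⟨hL, h0, hder⟩ := h
    rw [hL] at hder
    obtain ⟨hper, hw⟩ := hPL c hc e he hps h0 hder
    have hX' := holVF_smX hX c⁻¹
    obtain ⟨hDS', hFS'⟩ := DS_smX hX c⁻¹ hDS
    obtain ⟨hflow, -⟩ := exists_cflow_of_univ hX' hDS'
    have hfix : ∀ ζ, FS (smX c⁻¹ X) ζ p = p := fun ζ => by
      rw [hFS', FS_fix hX h0]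
    have hmd : ∀ ζ : ℂ, MDifferentiable 𝓘(ℂ, E) 𝓘(ℂ, E) (FS (smX c⁻¹ X) ζ) := fun ζ x =>
      mdiff_FS_slice hX' (hDS' ▸ mem_univ (ζ, x))
    refine ⟨⟨hflow.zero, hflow.add, fun x => ?_, hflow.holo⟩, hfix, ?_⟩
    · refine Vale.Agent.P253.H577.eq_id_of_eventually (hmd _) (p := p) ?_ x
      filter_upwards [hper] with y hy
      rw [hFS']
      have : c⁻¹ * (2 * Real.pi * I) = 2 * Real.pi * I / c := by field_simp
      rw [this, hy]
    · set φ : E ≃L[ℂ] (Fin (Module.finrank ℂ E) → ℂ) :=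
        (Module.finBasis ℂ E).equivFun.toContinuousLinearEquiv with hφ
      refine ⟨φ, fun _ => 1, fun _ => one_pos, ⟨ContinuousLinearEquiv.refl ℂ E, fun ζ v => ?_⟩,
        fun z => ?_⟩
      · have h1 : FS (smX c⁻¹ X) ζ = FS X (c⁻¹ * ζ) := funext fun x => hFS' ζ x
        rw [h1, hw, LE_trans_apply]
        apply ext_coord (φ := φ)
        intro j
        have h2 : c * (c⁻¹ * ζ) = ζ := by field_simp
        rw [h2]
        change φ (exp ζ • v) j = φ (LE φ (fun _ => (1:ℝ)) ζ v) j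
        rw [LE_coord, map_smul]
        simp
      · apply ext_coord (φ := φ)
        intro j
        rw [hL]
        simp [AE, inv_mul_cancel₀ hc, smul_smul]

end Vale.Agent.P253.R2.H445
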