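import Vale.Agent.P253.R2.H445.VF.Semi
import Vale.Agent.P253.R2.H618.PL
import Vale.Agent.P253.R2.H156.VFDom

/-!
P253: uniformization by a tame holomorphic vector field with a periodic source, and by a one-parameter
semigroup of holomorphic self-maps.
-/

open scoped Manifold ContDiff Topology Bundle
open Set Metric Complex Filter Bundle IsManifold Manifold Vale.Agent.P253.Mfd Vale.Agent.P253.CStar

set_option maxSynthPendingDepth 3
set_option linter.unusedSectionVars false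

noncomputable section

namespace Vale.Agent.P253.R2.H445

section lin

variable {E : Type*} [NormedAddCommGroup E] [NormedSpace ℂ E] [FiniteDimensional ℂ E]
  {M : Type*} [MetricSpace M] [ChartedSpace E M] [IsManifold 𝓘(ℂ, E) 1 M]
  {X : M → E} {p : M} [ConnectedSpace M] [IsManifold 𝓘(ℝ, E) ∞ M]

theorem plOut (hX : IsHolVectorField E X) (hDS : DS X = univ) : PLOut E X p := by
  intro c hc e he hps h0 hder
  obtain ⟨h1, h2⟩ := exists_cflow_of_univ hX hDS
  exact ⟨Eventually.of_forall fun x => H618.period_of_euler hX h1 h2 he hps h0 hc hder x,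
    fun ζ v => H618.mfderiv_euler hX h1 h2 he hps h0 hder ζ v⟩

theorem cancel_smul (DF : E →L[ℂ] E) {c : ℂ} (hc : c ≠ 0) {v w : E}
    (h : DF (c⁻¹ • v) = c⁻¹ • w) : DF v = w := by
  rw [map_smul] at h
  exact smul_right_injective E (inv_ne_zero hc) h

/-- global linearization of a complete vector field when its periodic source is in the closure of
all complex orbits -/
theorem unif_closure (hX : IsHolVectorField E X) (hDS : DS X = univ) {c : ℂ}
    {L : E →L[ℂ] E} (hs : IsPeriodicSource E X p c L)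
    (hcl : ∀ x, p ∈ closure (range fun ζ => FS X ζ x)) :
    ∃ F : M ≃ₘ^1⟮𝓘(ℂ, E), 𝓘(ℂ, E)⟯ E, F p = 0 ∧
      ∀ x : M, (mfderiv 𝓘(ℂ, E) 𝓘(ℂ, E) F x : E → E) (X x) = L (F x) := by
  obtain ⟨h1, h2, φ, m, hm, ⟨D, hD⟩, hAE⟩ := source_data hX hDS hs (plOut hX hDS)
  have hc : c ≠ 0 := hs.1
  obtain ⟨h3, h4⟩ := DS_smX hX c⁻¹ hDS
  obtain ⟨F, h5, h6⟩ := linearize_of_closure (holVF_smX hX c⁻¹) h3 h1 h2 hm D hD (fun x => by
    have h7 : (range fun ζ => FS (smX c⁻¹ X) ζ x) = range fun ζ => FS X ζ x := by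
      apply Subset.antisymm
      · rintro _ ⟨ζ, rfl⟩
        exact ⟨c⁻¹ * ζ, (h4 ζ x).symm⟩
      · rintro _ ⟨ζ, rfl⟩
        refine ⟨c * ζ, ?_⟩
        change FS (smX c⁻¹ X) (c * ζ) x = FS X ζ x
        rw [h4, inv_mul_cancel_left₀ hc]
    rw [h7]
    exact hcl x)
  refine ⟨F, h5, fun x => ?_⟩
  let DF : E →L[ℂ] E := mfderiv 𝓘(ℂ, E) 𝓘(ℂ, E) F x
  exact cancel_smul DF hc (v := X x) (w := L (F x)) ((h6 x).trans (hAE (F x)))

end lin

variable {E : Type*} [NormedAddCommGroup E] [NormedSpace ℂ E] [FiniteDimensional ℂ E]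
  {M : Type*} [MetricSpace M] [ChartedSpace E M]
  [IsManifold 𝓘(ℂ, E) 1 M] [IsManifold 𝓘(ℝ, E) ∞ M]
  [RiemannianBundle (fun x : M => TangentSpace 𝓘(ℝ, E) x)]
  [IsContMDiffRiemannianBundle 𝓘(ℝ, E) ∞ E (fun x : M => TangentSpace 𝓘(ℝ, E) x)]
  [IsRiemannianManifold 𝓘(ℝ, E) M]
  {X : M → E} {p : M} {φ : ℝ → M → M}

/-- global linearization of a complete vector field with a periodic source -/
theorem unif_main (hK : IsKahler E M) [CompleteSpace M] [NoncompactSpace M] [ConnectedSpace M]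
    (hnn : ∀ x : M, NonnegBisectionalAt E x) (hX : IsHolVectorField E X) (hDS : DS X = univ)
    {c : ℂ} {L : E →L[ℂ] E} (hs : IsPeriodicSource E X p c L)
    (hcase : PosBisectionalAt E p ∨ ∀ x, p ∈ closure (range fun ζ => FS X ζ x)) :
    ∃ F : M ≃ₘ^1⟮𝓘(ℂ, E), 𝓘(ℂ, E)⟯ E, F p = 0 ∧
      ∀ x : M, (mfderiv 𝓘(ℂ, E) 𝓘(ℂ, E) F x : E → E) (X x) = L (F x) := by
  rcases hcase with hpos | hcl
  · obtain ⟨h1, h2, φ, m, hm, ⟨D, hD⟩, hAE⟩ := source_data hX hDS hs (plOut hX hDS)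
    have hc : c ≠ 0 := hs.1
    obtain ⟨h3, h4⟩ := DS_smX hX c⁻¹ hDS
    obtain ⟨F, h5, h6⟩ := linearize hK hnn hpos (holVF_smX hX c⁻¹) h3 h1 h2 hm D hD
    refine ⟨F, h5, fun x => ?_⟩
    let DF : E →L[ℂ] E := mfderiv 𝓘(ℂ, E) 𝓘(ℂ, E) F x
    exact cancel_smul DF hc (v := X x) (w := L (F x)) ((h6 x).trans (hAE (F x)))
  · exact unif_closure hX hDS hs hcl

/-- semigroups of holomorphic self-maps extend to actions of `ℂ` -/
theorem semigroup_data (hK : IsKahler E M) [CompleteSpace M] [ConnectedSpace M]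
    (hnn : ∀ x : M, NonnegBisectionalAt E x) (h : IsHolSemigroup E φ) :
    IsHolVectorField E (genX E φ) ∧ DS (genX E φ) = univ ∧
      ∀ t : ℝ, 0 ≤ t → ∀ x, FS (genX E φ) t x = φ t x := by
  obtain ⟨h1, h2⟩ := exists_generator h
  have key : ∀ (x : M) (t : ℝ), 0 ≤ t →
      ((t:ℂ), x) ∈ DS (genX E φ) ∧ FS (genX E φ) t x = φ t x := fun x t ht =>
    mem_DS_of_curve h1 (γ := fun t => φ t x) (h.zero x) (h2 x) ht
  refine ⟨h1, ?_, fun t ht x => (key x t ht).2⟩
  exact complete_of_forward (H451.kp_prop hK hnn)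
    (fun u hu hle hnt => H618.liouville_noTouch hK hnn u hu hle hnt) h1
    fun x t ht => (key x t ht).1

end Vale.Agent.P253.R2.H445
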