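import Vale.Agent.P253.R2.H445.VF.Fwd
import Vale.Agent.P253.Bdl.B2

/-!
P253: the flow radius of a holomorphic vector field and its length for a Kähler metric.
-/

open scoped Manifold ContDiff Topology Bundle ENNReal
open Set Metric Complex Filter Bundle IsManifold MeasureTheory Vale.Agent.P253.Mfd

set_option maxSynthPendingDepth 3
set_option linter.unusedSectionVars false

noncomputable section

namespace Vale.Agent.P253.R2.H445

section holo

variable {E : Type*} [NormedAddCommGroup E] [NormedSpace ℂ E] [FiniteDimensional ℂ E]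
  {M : Type*} [MetricSpace M] [ChartedSpace E M] [IsManifold 𝓘(ℂ, E) 1 M]

/-- holomorphic curves are smooth for the underlying real structures -/
theorem contMDiffAt_curve {f : ℂ → M} {U : Set ℂ} (hU : IsOpen U)
    (hf : ∀ ζ ∈ U, MDifferentiableAt 𝓘(ℂ, ℂ) 𝓘(ℂ, E) f ζ) {ζ : ℂ} (hζ : ζ ∈ U) :
    ContMDiffAt 𝓘(ℝ, ℂ) 𝓘(ℝ, E) ∞ f ζ := by
  have hCE : CompleteSpace E := FiniteDimensional.complete ℂ E
  have he : chartAt E (f ζ) ∈ maximalAtlas 𝓘(ℂ, E) 1 M := chart_mem_maximalAtlas (f ζ)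
  rw [contMDiffAt_iff_target]
  refine ⟨(hf ζ hζ).continuousAt, ?_⟩
  set e := chartAt E (f ζ) with hedef
  have hfc : ContinuousOn f U := fun w hw => (hf w hw).continuousAt.continuousWithinAt
  have hV : IsOpen (U ∩ f ⁻¹' e.source) := hfc.isOpen_inter_preimage hU e.open_source
  have hd : DifferentiableOn ℂ (e ∘ f) (U ∩ f ⁻¹' e.source) := fun w hw =>
    ((mdiff_chart he hw.2).comp w (hf w hw.1)).differentiableAt.differentiableWithinAt
  have h4 : ContDiffAt ℝ ∞ (e ∘ f) ζ :=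
    ((hd.contDiffOn hV (n := ∞)).restrict_scalars ℝ).contDiffAt
      (hV.mem_nhds ⟨hζ, mem_chart_source E (f ζ)⟩)
  have h5 := h4.contMDiffAt
  simp only [extChartAt, mfld_simps]
  exact h5

end holo

variable {E : Type*} [NormedAddCommGroup E] [NormedSpace ℂ E] [FiniteDimensional ℂ E]
  {M : Type*} [MetricSpace M] [ChartedSpace E M]
  [IsManifold 𝓘(ℂ, E) 1 M] [IsManifold 𝓘(ℝ, E) ∞ M]
  [RiemannianBundle (fun x : M => TangentSpace 𝓘(ℝ, E) x)]
  [IsContMDiffRiemannianBundle 𝓘(ℝ, E) ∞ E (fun x : M => TangentSpace 𝓘(ℝ, E) x)]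
  {X : M → E}

/-- the length of a tangent vector -/
def gnorm (x : M) (v : E) : ℝ := ‖(show TangentSpace 𝓘(ℝ, E) x from v)‖

theorem gnorm_nonneg (x : M) (v : E) : 0 ≤ gnorm x v := norm_nonneg _

theorem gnorm_sq (x : M) (v : E) : gnorm x v ^ 2 = innerAt x v v :=
  (real_inner_self_eq_norm_sq (show TangentSpace 𝓘(ℝ, E) x from v)).symm

theorem innerAt_I (hK : IsKahler E M) (x : M) (v w : E) :
    innerAt x (I • v) (I • w) = innerAt x v w := by
  have he : chartAt E x ∈ maximalAtlas 𝓘(ℂ, E) 1 M := chart_mem_maximalAtlas x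
  set e := chartAt E x with hedef
  have hx : x ∈ e.source := mem_chart_source E x
  have hz : e x ∈ e.target := e.map_source hx
  let D : E →L[ℂ] E := mfderiv 𝓘(ℂ, E) 𝓘(ℂ, E) e.symm (e x)
  let D' : E →L[ℂ] E := mfderiv 𝓘(ℂ, E) 𝓘(ℂ, E) e x
  have h1 : HasMFDerivAt 𝓘(ℂ, E) 𝓘(ℂ, E) e.symm (e x) D := (mdiff_chart_symm he hz).hasMFDerivAt
  have h2 : HasMFDerivAt 𝓘(ℂ, E) 𝓘(ℂ, E) e x D' := (mdiff_chart he hx).hasMFDerivAt
  have h3 : HasMFDerivAt 𝓘(ℂ, E) 𝓘(ℂ, E) (e.symm ∘ e) x (D.comp D') := h1.comp x h2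
  have h4 : (e.symm ∘ e) =ᶠ[𝓝 x] id := by
    filter_upwards [e.open_source.mem_nhds hx] with y hy
    exact e.left_inv hy
  have h5 : HasMFDerivAt 𝓘(ℂ, E) 𝓘(ℂ, E) (e.symm ∘ e) x (ContinuousLinearMap.id ℂ E) :=
    (hasMFDerivAt_id _).congr_of_eventuallyEq h4
  have h6 : D.comp D' = ContinuousLinearMap.id ℂ E := hasMFDerivAt_unique h3 h5
  have h7 : ∀ v : E, D (D' v) = v := fun v => congrArg (fun A : E →L[ℂ] E => A v) h6
  have h8 : HasMFDerivAt 𝓘(ℝ, E) 𝓘(ℝ, E) e.symm (e x) (D.restrictScalars ℝ : E →L[ℝ] E) :=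
    ⟨h1.1, h1.2.restrictScalars ℝ⟩
  have h9 : dsymm e (e x) = (D.restrictScalars ℝ : E →L[ℝ] E) := h8.mfderiv
  have h10 : ∀ v : E, dsymm e (e x) (D' v) = v := fun v => by
    rw [h9]; exact h7 v
  have h11 : ∀ v : E, dsymm e (e x) (I • D' v) = I • v := fun v => by
    have : dsymm e (e x) (I • D' v) = D (I • D' v) := by rw [h9]; rfl
    rw [this, map_smul, h7]
  have hsx : e.symm (e x) = x := e.left_inv hx
  have h12 := (localKahler_chartG hK he).herm (e x) hz (D' v) (D' w)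
  rw [chartG_eq_innerAt, chartG_eq_innerAt, h11, h11, h10, h10, hsx] at h12
  exact h12

theorem innerAt_add_left (x : M) (u v w : E) :
    innerAt x (u + v) w = innerAt x u w + innerAt x v w :=
  inner_add_left (𝕜 := ℝ) (show TangentSpace 𝓘(ℝ, E) x from u)
    (show TangentSpace 𝓘(ℝ, E) x from v) (show TangentSpace 𝓘(ℝ, E) x from w)

theorem innerAt_comm (x : M) (u v : E) : innerAt x u v = innerAt x v u :=
  real_inner_comm _ _

theorem innerAt_smul_left (x : M) (a : ℝ) (u v : E) :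
    innerAt x (a • u) v = a * innerAt x u v :=
  real_inner_smul_left (show TangentSpace 𝓘(ℝ, E) x from u)
    (show TangentSpace 𝓘(ℝ, E) x from v) a

theorem gnorm_smul (hK : IsKahler E M) (x : M) (c : ℂ) (v : E) :
    gnorm x (c • v) = ‖c‖ * gnorm x v := by
  have hIv : innerAt x v (I • v) = 0 := by
    have h1 := innerAt_I hK x v (I • v)
    have h2 : I • I • v = (-1:ℝ) • v := by
      rw [smul_smul, I_mul_I, neg_one_smul, neg_one_smul]
    rw [h2, innerAt_comm, innerAt_smul_left] at h1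
    linarith
  have hc : c • v = c.re • v + c.im • (I • v) := by
    conv_lhs => rw [← re_add_im c]
    rw [add_smul, mul_smul]
    rfl
  have h4 : innerAt x (c • v) (c • v) = ‖c‖ ^ 2 * innerAt x v v := by
    rw [hc, innerAt_add_left, innerAt_smul_left, innerAt_smul_left,
      innerAt_comm x v, innerAt_comm x (I • v), innerAt_add_left, innerAt_add_left,
      innerAt_smul_left, innerAt_smul_left, innerAt_smul_left, innerAt_smul_left,
      innerAt_I hK, hIv, innerAt_comm x (I • v) v, hIv]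
    have h5 : ‖c‖ ^ 2 = c.re ^ 2 + c.im ^ 2 := by
      rw [← normSq_eq_norm_sq, normSq_apply]; ring
    rw [h5]
    ring
  have h6 : gnorm x (c • v) ^ 2 = (‖c‖ * gnorm x v) ^ 2 := by
    rw [gnorm_sq, h4, mul_pow, gnorm_sq]
  exact (pow_left_inj₀ (gnorm_nonneg _ _) (by have := gnorm_nonneg x v; positivity)
    two_ne_zero).1 h6

variable [IsRiemannianManifold 𝓘(ℝ, E) M]

/-- If `|X|_g ≤ K` on the ball `B(x, R)`, the complex-time orbit of `x` exists on the disc of radius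
`R / K`. -/
theorem mem_DS_of_metric (hKa : IsKahler E M) [CompleteSpace M] (hX : IsHolVectorField E X)
    {x : M} {R K : ℝ} (hR : 0 < R) (hK : 0 < K)
    (hm : ∀ y : M, dist x y ≤ R → gnorm y (X y) ≤ K) {ζ : ℂ} (hζ : ‖ζ‖ < R / K) :
    (ζ, x) ∈ DS X := by
  have hprop : ProperSpace M := properSpace_riemannian E M
  by_contra hout
  -- the first bad time on the ray
  set C : Set ℝ := {t ∈ Icc (0:ℝ) 1 | ((t:ℂ) * ζ, x) ∉ DS X} with hC
  have hCc : IsClosed C := by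
    have h1 : IsClosed {t : ℝ | ((t:ℂ) * ζ, x) ∉ DS X} := by
      have : IsOpen {t : ℝ | ((t:ℂ) * ζ, x) ∈ DS X} :=
        (isOpen_fibre hX x).preimage (f := fun t : ℝ => (t:ℂ) * ζ) (by fun_prop)
      exact this.isClosed_compl
    exact isClosed_Icc.inter h1
  have hCne : C.Nonempty := ⟨1, ⟨zero_le_one, le_rfl⟩, by simpa using hout⟩
  have hCb : BddBelow C := ⟨0, fun t ht => ht.1.1⟩
  have hmem := hCc.csInf_mem hCne hCb
  set t₀ := sInf C with ht₀
  set ζ₀ : ℂ := (t₀:ℂ) * ζ with hζ₀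
  have hlow : ∀ t ∈ Ico (0:ℝ) t₀, ((t:ℂ) * ζ, x) ∈ DS X := by
    intro t ht
    by_contra h
    have : t₀ ≤ t := csInf_le hCb ⟨⟨ht.1, ht.2.le.trans hmem.1.2⟩, h⟩
    linarith [ht.2]
  have ht₀pos : 0 < t₀ := by
    rcases hmem.1.1.eq_or_lt with h | h
    · exfalso
      have h1 := hmem.2
      rw [← h, ofReal_zero, zero_mul] at h1
      exact h1 (zero_mem_DS hX x)
    · exact h
  have hin : ∀ s ∈ Ico (0:ℝ) 1, ((s:ℂ) * ζ₀, x) ∈ DS X := by
    intro s hs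
    have h1 := hlow (s * t₀) ⟨mul_nonneg hs.1 ht₀pos.le, by nlinarith [hs.2]⟩
    have h2 : (s:ℂ) * ζ₀ = ((s * t₀ : ℝ) : ℂ) * ζ := by rw [hζ₀]; push_cast; ring
    rw [h2]
    exact h1
  have hesc := esc_tendsto hX hmem.2 hin
  set L : ℝ := K * ‖ζ₀‖ with hL
  have hζ₀n : ‖ζ₀‖ ≤ ‖ζ‖ := by
    rw [hζ₀, norm_mul, norm_real, Real.norm_eq_abs, abs_of_pos ht₀pos]
    nlinarith [hmem.1.2, norm_nonneg ζ]
  have hLR : L < R := by
    rw [lt_div_iff₀ hK] at hζ
    rw [hL]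
    nlinarith
  have hL0 : 0 ≤ L := by positivity
  set γ : ℝ → M := fun t => FS X ((t:ℂ) * ζ₀) x with hγ
  set J : Set ℝ := {t : ℝ | ((t:ℂ) * ζ₀, x) ∈ DS X} with hJ
  have hJo : IsOpen J := (isOpen_fibre hX x).preimage (f := fun t : ℝ => (t:ℂ) * ζ₀) (by fun_prop)
  have hJsub : Ico (0:ℝ) 1 ⊆ J := fun s hs => hin s hs
  have hγ0 : γ 0 = x := by simp only [hγ, ofReal_zero, zero_mul, FS_zero hX]
  have hγs : ∀ t ∈ J, ContMDiffAt 𝓘(ℝ, ℝ) 𝓘(ℝ, E) ∞ γ t := by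
    intro t ht
    have h1 : ContMDiffAt 𝓘(ℝ, ℂ) 𝓘(ℝ, E) ∞ (fun w => FS X w x) ((t:ℂ) * ζ₀) :=
      contMDiffAt_curve (isOpen_fibre hX x) (fun w hw => orb_mdiff (orb_FS hX x) hw) ht
    have h2 : ContMDiffAt 𝓘(ℝ, ℝ) 𝓘(ℝ, ℂ) ∞ (fun t : ℝ => (t:ℂ) * ζ₀) t := by
      have : ContDiff ℝ ∞ (fun t : ℝ => (t:ℂ) * ζ₀) := by
        have h3 : ContDiff ℝ ∞ (fun t : ℝ => (t:ℂ)) := ofRealCLM.contDiff
        exact h3.mul contDiff_const
      exact this.contMDiff.contMDiffAt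
    exact ContMDiffAt.comp t h1 h2
  have hγc : ContinuousOn γ J := fun t ht => (hγs t ht).continuousAt.continuousWithinAt
  -- the speed
  have hspeed : ∀ t ∈ J, dist x (γ t) ≤ R →
      ‖(mfderiv 𝓘(ℝ, ℝ) 𝓘(ℝ, E) γ t 1 : TangentSpace 𝓘(ℝ, E) (γ t))‖ ≤ L := by
    intro t ht hd
    have h1 : HasMFDerivAt 𝓘(ℂ, ℂ) 𝓘(ℂ, E) (fun w => FS X w x) ((t:ℂ) * ζ₀)
        (dir (X (γ t)) : ℂ →L[ℂ] E) := orb_FS hX x _ ht
    have h2 : HasMFDerivAt 𝓘(ℝ, ℂ) 𝓘(ℝ, E) (fun w => FS X w x) ((t:ℂ) * ζ₀)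
        ((dir (X (γ t))).restrictScalars ℝ : ℂ →L[ℝ] E) := ⟨h1.1, h1.2.restrictScalars ℝ⟩
    have h3 : HasFDerivAt (fun t : ℝ => (t:ℂ) * ζ₀)
        ((ContinuousLinearMap.id ℝ ℝ).smulRight ζ₀) t := by
      have h4 : HasDerivAt (fun t : ℝ => (t:ℂ) * ζ₀) (1 * ζ₀) t :=
        ((hasDerivAt_id t).ofReal_comp).mul_const ζ₀
      rw [one_mul] at h4
      have h5 := h4.hasFDerivAt
      have h6 : (ContinuousLinearMap.toSpanSingleton ℝ ζ₀) =
          (ContinuousLinearMap.id ℝ ℝ).smulRight ζ₀ := by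
        ext; simp
      rwa [h6] at h5
    have h4 := h2.comp t h3.hasMFDerivAt
    let DD : ℝ →L[ℝ] E := mfderiv 𝓘(ℝ, ℝ) 𝓘(ℝ, E) γ t
    have h5 : DD 1 = ζ₀ • X (γ t) := by
      have h6 : DD = (((dir (X (γ t))).restrictScalars ℝ).comp
          ((ContinuousLinearMap.id ℝ ℝ).smulRight ζ₀) : ℝ →L[ℝ] E) := h4.mfderiv
      rw [h6]
      change (dir (X (γ t))) ((1:ℝ) • ζ₀) = ζ₀ • X (γ t)
      simp [dir]
    change gnorm (γ t) (DD 1) ≤ L
    rw [h5, gnorm_smul hKa, hL, mul_comm]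
    gcongr
    exact hm (γ t) hd
  -- distances
  have hdist : ∀ b : ℝ, 0 ≤ b → b < 1 → (∀ t ∈ Icc 0 b, dist x (γ t) ≤ R) →
      dist x (γ b) ≤ L * b := by
    intro b hb0 hb1 hbd
    have hsub : Icc 0 b ⊆ J := fun t ht => hJsub ⟨ht.1, ht.2.trans_lt hb1⟩
    have h1 : edist (γ 0) (γ b) ≤
        ∫⁻ t in Ioo 0 b, ‖(mfderiv 𝓘(ℝ, ℝ) 𝓘(ℝ, E) γ t 1 : TangentSpace 𝓘(ℝ, E) (γ t))‖ₑ := by
      rw [IsRiemannianManifold.out (I := 𝓘(ℝ, E)) (γ 0) (γ b)]
      refine (Manifold.riemannianEDist_le_pathELength (γ := γ) (a := 0) (b := b)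
        (fun t ht => ((hγs t (hsub ht)).of_le (by simp)).contMDiffWithinAt) rfl rfl hb0).trans_eq ?_
      rw [Manifold.pathELength_eq_lintegral_mfderiv_Ioo]
    have h2 : ∫⁻ t in Ioo 0 b, ‖(mfderiv 𝓘(ℝ, ℝ) 𝓘(ℝ, E) γ t 1 : TangentSpace 𝓘(ℝ, E) (γ t))‖ₑ ≤
        ∫⁻ t in Ioo 0 b, ENNReal.ofReal L := by
      apply setLIntegral_mono measurable_const
      intro t ht
      rw [← ofReal_norm]
      apply ENNReal.ofReal_le_ofReal
      exact hspeed t (hsub (Ioo_subset_Icc_self ht)) (hbd t (Ioo_subset_Icc_self ht))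
    rw [setLIntegral_const, Real.volume_Ioo, ← ENNReal.ofReal_mul hL0] at h2
    have h3 := h1.trans h2
    rw [edist_dist, ENNReal.ofReal_le_ofReal_iff (mul_nonneg hL0 (by linarith)), hγ0,
      sub_zero] at h3
    exact h3
  -- the curve stays in the ball
  have hball : ∀ t ∈ Ico (0:ℝ) 1, dist x (γ t) < R := by
    intro t₁ ht₁
    by_contra hcon
    push Not at hcon
    set S : Set ℝ := {t ∈ Icc (0:ℝ) t₁ | R ≤ dist x (γ t)} with hS
    have hsub : Icc (0:ℝ) t₁ ⊆ J := fun t ht => hJsub ⟨ht.1, ht.2.trans_lt ht₁.2⟩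
    have hcont : ContinuousOn (fun t => dist x (γ t)) (Icc 0 t₁) :=
      continuous_dist.comp_continuousOn (continuousOn_const.prodMk (hγc.mono hsub))
    have hSc : IsClosed S := by
      have := hcont.preimage_isClosed_of_isClosed isClosed_Icc (isClosed_Ici (a := R))
      exact this
    have hSne : S.Nonempty := ⟨t₁, ⟨ht₁.1, le_rfl⟩, hcon⟩
    have hSb : BddBelow S := ⟨0, fun t ht => ht.1.1⟩
    have hs₀ := hSc.csInf_mem hSne hSb
    set s₀ := sInf S with hs₀d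
    have hlow' : ∀ t ∈ Ico (0:ℝ) s₀, dist x (γ t) < R := by
      intro t ht
      by_contra h
      push Not at h
      have : s₀ ≤ t := csInf_le hSb ⟨⟨ht.1, ht.2.le.trans hs₀.1.2⟩, h⟩
      linarith [ht.2]
    have hs₀pos : 0 < s₀ := by
      rcases hs₀.1.1.eq_or_lt with h | h
      · exfalso
        have h1 := hs₀.2
        rw [← h, hγ0, dist_self] at h1
        linarith
      · exact h
    have hle : dist x (γ s₀) ≤ R := by
      have h1 : Tendsto (fun t => dist x (γ t)) (𝓝[<] s₀) (𝓝 (dist x (γ s₀))) := by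
        have h2 : ContinuousAt (fun t => dist x (γ t)) s₀ :=
          continuousAt_const.dist (hγs s₀ (hsub hs₀.1)).continuousAt
        exact h2.tendsto.mono_left nhdsWithin_le_nhds
      refine le_of_tendsto h1 ?_
      filter_upwards [Ioo_mem_nhdsLT hs₀pos] with t ht
      exact (hlow' t ⟨ht.1.le, ht.2⟩).le
    have h1 := hdist s₀ hs₀pos.le (hs₀.1.2.trans_lt ht₁.2) (fun t ht => by
      rcases ht.2.lt_or_eq with h | h
      · exact (hlow' t ⟨ht.1, h⟩).le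
      · rw [h]; exact hle)
    have h2 : L * s₀ ≤ L * 1 := by
      gcongr
      linarith [hs₀.1.2, ht₁.2]
    linarith [hs₀.2]
  -- contradiction with the divergence
  have hlim : Tendsto γ (𝓝[<] 1) (cocompact M) := by
    refine Tendsto.comp (g := fun q : ℂ × M => FS X q.1 q.2)
      (f := fun t : ℝ => ((t:ℂ) * ζ₀, x)) hesc ?_
    refine tendsto_nhdsWithin_of_tendsto_nhds_of_eventually_within _ ?_ ?_
    · have h1 : Continuous (fun t : ℝ => ((t:ℂ) * ζ₀, x)) := by fun_prop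
      have h2 := h1.tendsto 1
      simp only [ofReal_one, one_mul] at h2
      exact h2.mono_left nhdsWithin_le_nhds
    · filter_upwards [Ioo_mem_nhdsLT (show (0:ℝ) < 1 by norm_num)] with t ht
      exact hin t ⟨ht.1.le, ht.2⟩
  have h1 : ∀ᶠ t in 𝓝[<] (1:ℝ), γ t ∈ (closedBall x R)ᶜ :=
    hlim (isCompact_closedBall x R).compl_mem_cocompact
  have h2 : ∀ᶠ t in 𝓝[<] (1:ℝ), t ∈ Ioo (0:ℝ) 1 := Ioo_mem_nhdsLT (by norm_num)
  obtain ⟨t, h3, h4⟩ := (h1.and h2).exists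
  exact h3 (by rw [mem_closedBall']; exact (hball t ⟨h4.1.le, h4.2⟩).le)

end Vale.Agent.P253.R2.H445
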