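import Vale.Agent.P253.Bdl.B2

/-!
P253: local complex-time flow of a holomorphic vector field on an open set of a complex vector
space, jointly holomorphic, and uniqueness of complex-time orbits.
-/

open scoped ContDiff Topology
open Set Metric Complex Filter Vale.Agent.P253.Mfd

set_option maxSynthPendingDepth 3
set_option linter.unusedSectionVars false

noncomputable section

namespace Vale.Agent.P253.R2.H445

variable {E : Type*} [NormedAddCommGroup E] [NormedSpace ℂ E] [FiniteDimensional ℂ E]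

/-- uniqueness of real-time orbits of `w` -/
theorem ode_eqOn {U : Set E} (hU : IsOpen U) {w : E → E} (hw : DifferentiableOn ℂ w U) {J : Set ℝ}
    (hJ : IsOpen J) (hJc : IsPreconnected J) {f g : ℝ → E}
    (hf : ∀ t ∈ J, f t ∈ U ∧ HasDerivAt f (w (f t)) t)
    (hg : ∀ t ∈ J, g t ∈ U ∧ HasDerivAt g (w (g t)) t) {t₀ : ℝ} (ht₀ : t₀ ∈ J)
    (h : f t₀ = g t₀) : EqOn f g J := by
  have hCE : CompleteSpace E := FiniteDimensional.complete ℂ E
  have hloc : ∀ t ∈ J, f t = g t → f =ᶠ[𝓝 t] g := by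
    intro t ht htt
    have h1 : ContDiffAt ℝ 1 w (f t) :=
      (((contDiffOn_of_differentiableOn_complex hU hw).restrict_scalars ℝ).contDiffAt
        (hU.mem_nhds (hf t ht).1)).of_le (by simp)
    obtain ⟨K, s, hs, hK⟩ := h1.exists_lipschitzOnWith
    refine ODE_solution_unique_of_eventually (v := fun _ => w) (s := fun _ => s) (K := K)
      (Eventually.of_forall fun _ => hK) ?_ ?_ htt
    · have h2 : ∀ᶠ t' in 𝓝 t, f t' ∈ s := (hf t ht).2.continuousAt.eventually hs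
      filter_upwards [h2, hJ.mem_nhds ht] with t' h3 h4
      exact ⟨(hf t' h4).2, h3⟩
    · have h2 : ∀ᶠ t' in 𝓝 t, g t' ∈ s :=
        (hg t ht).2.continuousAt.eventually (by rw [← htt]; exact hs)
      filter_upwards [h2, hJ.mem_nhds ht] with t' h3 h4
      exact ⟨(hg t' h4).2, h3⟩
  set Z : Set ℝ := {t | f =ᶠ[𝓝 t] g} with hZ
  have hZo : IsOpen Z := isOpen_setOfPred_eventually_nhds
  have hsub : J ⊆ Z := by
    refine hJc.subset_of_closure_inter_subset hZo ⟨t₀, ht₀, hloc t₀ ht₀ h⟩ ?_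
    rintro t ⟨ht, htJ⟩
    refine hloc t htJ ?_
    have h1 : ∃ᶠ t' in 𝓝 t, f t' = g t' := by
      rw [mem_closure_iff_frequently] at ht
      exact ht.mono fun t' ht' => (show f =ᶠ[𝓝 t'] g from ht').self_of_nhds
    by_contra hne
    have h2 : Tendsto (fun t => (f t, g t)) (𝓝 t) (𝓝 (f t, g t)) :=
      (hf t htJ).2.continuousAt.prodMk_nhds (hg t htJ).2.continuousAt
    have h3 : ∀ᶠ t' in 𝓝 t, f t' ≠ g t' :=
      h2.eventually ((isClosed_diagonal (X := E)).isOpen_compl.mem_nhds hne)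
    exact h1 h3
  exact fun t ht => (hsub ht).self_of_nhds

/-- uniqueness of complex-time orbits on a ball -/
theorem code_eqOn {U : Set E} (hU : IsOpen U) {v : E → E} (hv : DifferentiableOn ℂ v U)
    {c : ℂ} {r : ℝ} {f g : ℂ → E}
    (hf : ∀ ζ ∈ ball c r, f ζ ∈ U ∧ HasDerivAt f (v (f ζ)) ζ)
    (hg : ∀ ζ ∈ ball c r, g ζ ∈ U ∧ HasDerivAt g (v (g ζ)) ζ)
    (h : f c = g c) : EqOn f g (ball c r) := by
  intro ζ hζ
  set J : Set ℝ := (fun t : ℝ => c + t * (ζ - c)) ⁻¹' ball c r with hJ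
  have hc : Continuous (fun t : ℝ => c + t * (ζ - c)) := by fun_prop
  have hJo : IsOpen J := isOpen_ball.preimage hc
  have hJc : Convex ℝ J := by
    intro s hs t ht a b ha hb hab
    have h1 := convex_ball c r hs ht ha hb hab
    have h2 : a • (c + (s : ℂ) * (ζ - c)) + b • (c + (t : ℂ) * (ζ - c)) =
        c + ((a • s + b • t : ℝ) : ℂ) * (ζ - c) := by
      have hab' : (a : ℂ) + b = 1 := by exact_mod_cast hab
      simp only [real_smul, smul_eq_mul, ofReal_add, ofReal_mul]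
      linear_combination c * hab'
    change c + ((a • s + b • t : ℝ) : ℂ) * (ζ - c) ∈ ball c r
    rw [← h2]
    exact h1
  have hw : DifferentiableOn ℂ (fun y => (ζ - c) • v y) U := hv.const_smul (ζ - c)
  have key : ∀ {k : ℂ → E}, (∀ ζ ∈ ball c r, k ζ ∈ U ∧ HasDerivAt k (v (k ζ)) ζ) →
      ∀ t ∈ J, k (c + t * (ζ - c)) ∈ U ∧
        HasDerivAt (fun t : ℝ => k (c + t * (ζ - c))) ((ζ - c) • v (k (c + t * (ζ - c)))) t := by
    intro k hk t ht
    obtain ⟨h1, h2⟩ := hk _ ht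
    refine ⟨h1, ?_⟩
    have h3 : HasDerivAt (fun t : ℝ => c + t * (ζ - c)) (ζ - c) t := by
      have h4 := ((hasDerivAt_id t).ofReal_comp.mul_const (ζ - c)).const_add c
      simpa using h4
    exact h2.scomp t h3
  have h1 : EqOn (fun t : ℝ => f (c + t * (ζ - c))) (fun t : ℝ => g (c + t * (ζ - c))) J := by
    refine ode_eqOn hU hw hJo hJc.isPreconnected (key hf) (key hg) (t₀ := 0) ?_ ?_
    · change c + ((0 : ℝ) : ℂ) * (ζ - c) ∈ ball c r
      simp only [ofReal_zero, zero_mul, add_zero]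
      exact mem_ball_self (pos_of_mem_ball hζ)
    · simp only [ofReal_zero, zero_mul, add_zero, h]
  have h2 : (1 : ℝ) ∈ J := by
    change c + ((1 : ℝ) : ℂ) * (ζ - c) ∈ ball c r
    simp only [ofReal_one, one_mul, add_sub_cancel]
    exact hζ
  have h3 := h1 h2
  simpa using h3

/-- local complex-time flow, jointly holomorphic -/
theorem exists_cflow {U : Set E} (hU : IsOpen U) {v : E → E} (hv : DifferentiableOn ℂ v U)
    {x₀ : E} (hx₀ : x₀ ∈ U) :
    ∃ δ > (0 : ℝ), ∃ r > (0 : ℝ), ∃ H : ℂ → E → E, ball x₀ r ⊆ U ∧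
      (∀ x ∈ ball x₀ r, H 0 x = x) ∧
      (∀ x ∈ ball x₀ r, ∀ ζ ∈ ball (0:ℂ) δ, H ζ x ∈ U ∧
        HasDerivAt (fun ζ => H ζ x) (v (H ζ x)) ζ) ∧
      DifferentiableOn ℂ (fun q : ℂ × E => H q.1 q.2) (ball 0 δ ×ˢ ball x₀ r) := by
  have hCE : CompleteSpace E := FiniteDimensional.complete ℂ E
  have hU' : IsOpen ((univ : Set ℂ) ×ˢ U) := isOpen_univ.prod hU
  set V : ℂ × E → ℂ × E := fun p => (0, p.1 • v p.2) with hV
  have hVd : DifferentiableOn ℂ V ((univ : Set ℂ) ×ˢ U) := by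
    refine DifferentiableOn.prodMk (differentiableOn_const _) ?_
    exact differentiableOn_fst.smul (hv.comp differentiableOn_snd fun p hp => hp.2)
  obtain ⟨ε, hε, r, hr, Y, hball, hY, hYd, -⟩ := exists_holoFlow hU' hVd
    (show ((0:ℂ), x₀) ∈ (univ : Set ℂ) ×ˢ U from ⟨mem_univ _, hx₀⟩)
  have hbm : ∀ {ζ : ℂ} {x : E}, ζ ∈ ball (0:ℂ) r → x ∈ ball x₀ r →
      (ζ, x) ∈ ball ((0:ℂ), x₀) r := by
    intro ζ x h1 h2
    rw [← ball_prod_same]
    exact ⟨h1, h2⟩
  have hIo : IsOpen (Ioo (-ε) ε) := isOpen_Ioo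
  have h0I : (0:ℝ) ∈ Ioo (-ε) ε := ⟨by linarith, hε⟩
  -- the first component is constant
  have hfst : ∀ {ζ : ℂ} {x : E}, ζ ∈ ball (0:ℂ) r → x ∈ ball x₀ r → ∀ t ∈ Ioo (-ε) ε,
      (Y t (ζ, x)).1 = ζ := by
    intro ζ x h1 h2 t ht
    obtain ⟨h3, h4⟩ := hY _ (hbm h1 h2)
    have h5 : ∀ s ∈ Ioo (-ε) ε, HasDerivAt (fun s => (Y s (ζ, x)).1) 0 s := fun s hs =>
      (h4 s hs).2.fst
    have h6 := (convex_Ioo (-ε) ε).is_const_of_fderivWithin_eq_zero (𝕜 := ℝ)
      (f := fun s => (Y s (ζ, x)).1) (fun s hs => (h5 s hs).differentiableAt.differentiableWithinAt)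
      (fun s hs => by
        rw [fderivWithin_of_isOpen isOpen_Ioo hs]
        have := (h5 s hs).hasFDerivAt.fderiv
        rw [this]
        simp) ht h0I
    simp only [h3] at h6
    exact h6
  have hsnd : ∀ {ζ : ℂ} {x : E}, ζ ∈ ball (0:ℂ) r → x ∈ ball x₀ r → ∀ t ∈ Ioo (-ε) ε,
      (Y t (ζ, x)).2 ∈ U ∧
        HasDerivAt (fun s => (Y s (ζ, x)).2) (ζ • v (Y t (ζ, x)).2) t := by
    intro ζ x h1 h2 t ht
    obtain ⟨h3, h4⟩ := hY _ (hbm h1 h2)
    refine ⟨(h4 t ht).1.2, ?_⟩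
    have h5 := (h4 t ht).2.snd
    simp only [hV] at h5
    rwa [hfst h1 h2 t ht] at h5
  set t₀ : ℝ := ε / 2 with ht₀
  have ht₀p : 0 < t₀ := by positivity
  have ht₀I : t₀ ∈ Ioo (-ε) ε := ⟨by linarith, by linarith⟩
  have ht₀c : (t₀ : ℂ) ≠ 0 := by exact_mod_cast ht₀p.ne'
  -- real scaling
  have hscale : ∀ {ζ : ℂ} {x : E}, x ∈ ball x₀ r → ζ ∈ ball (0:ℂ) r → ∀ s ∈ Ioo (1/2 : ℝ) (3/2),
      ((s : ℂ) * ζ) ∈ ball (0:ℂ) r → (Y t₀ ((s : ℂ) * ζ, x)).2 = (Y (s * t₀) (ζ, x)).2 := by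
    intro ζ x hx hζ s hs hsζ
    have hJ : ∀ t ∈ Ioo (-(3/5 * ε)) (3/5 * ε), s * t ∈ Ioo (-ε) ε := by
      intro t ht
      constructor <;> nlinarith [hs.1, hs.2, ht.1, ht.2]
    have hJ' : ∀ t ∈ Ioo (-(3/5 * ε)) (3/5 * ε), t ∈ Ioo (-ε) ε := by
      intro t ht
      constructor <;> linarith [ht.1, ht.2]
    have hw : DifferentiableOn ℂ (fun y => ((s : ℂ) * ζ) • v y) U := hv.const_smul _
    have h1 := ode_eqOn hU hw (isOpen_Ioo (a := -(3/5 * ε)) (b := 3/5 * ε))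
      isPreconnected_Ioo (f := fun t => (Y t ((s : ℂ) * ζ, x)).2)
      (g := fun t => (Y (s * t) (ζ, x)).2)
      (fun t ht => hsnd hsζ hx t (hJ' t ht)) (fun t ht => by
        obtain ⟨h2, h3⟩ := hsnd hζ hx (s * t) (hJ t ht)
        refine ⟨h2, ?_⟩
        have h4 : HasDerivAt (fun t : ℝ => s * t) s t := by
          simpa using (hasDerivAt_id t).const_mul s
        have h5 := HasDerivAt.scomp (h := fun t : ℝ => s * t) t h3 h4
        have h6 : ((s : ℂ) * ζ) • v (Y (s * t) (ζ, x)).2 = s • ζ • v (Y (s * t) (ζ, x)).2 := by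
          rw [mul_smul]; rfl
        rw [h6]
        exact h5) (t₀ := 0) ⟨by linarith, by linarith⟩ (by
          simp only [mul_zero]
          rw [(hY _ (hbm hsζ hx)).1, (hY _ (hbm hζ hx)).1])
    exact h1 (show t₀ ∈ Ioo (-(3/5 * ε)) (3/5 * ε) from ⟨by linarith, by linarith⟩)
  set δ : ℝ := r * t₀ with hδ
  have hδp : 0 < δ := by positivity
  have hdiv : ∀ ζ ∈ ball (0:ℂ) δ, ζ / t₀ ∈ ball (0:ℂ) r := by
    intro ζ hζ
    rw [mem_ball_zero_iff] at hζ ⊢
    rw [norm_div, Complex.norm_real, Real.norm_eq_abs, abs_of_pos ht₀p, div_lt_iff₀ ht₀p]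
    exact hζ
  set H : ℂ → E → E := fun ζ x => (Y t₀ (ζ / t₀, x)).2 with hH
  have hHd : DifferentiableOn ℂ (fun q : ℂ × E => H q.1 q.2) (ball 0 δ ×ˢ ball x₀ r) := by
    have h1 : DifferentiableOn ℂ (fun q : ℂ × E => (q.1 / t₀, q.2)) (ball (0:ℂ) δ ×ˢ ball x₀ r) :=
      DifferentiableOn.prodMk (by
        simp only [div_eq_mul_inv]
        exact differentiableOn_fst.mul (differentiableOn_const _)) differentiableOn_snd
    have h2 := (hYd t₀ ht₀I).comp h1 (fun q hq => hbm (hdiv _ hq.1) hq.2)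
    exact h2.snd
  have hH0 : ∀ x ∈ ball x₀ r, H 0 x = x := by
    intro x hx
    have h0r : (0:ℂ) ∈ ball (0:ℂ) r := mem_ball_self hr
    have h1 : ∀ s ∈ Ioo (-ε) ε, HasDerivAt (fun s => (Y s ((0:ℂ), x)).2) 0 s := by
      intro s hs
      have := (hsnd h0r hx s hs).2
      rwa [zero_smul] at this
    have h6 := (convex_Ioo (-ε) ε).is_const_of_fderivWithin_eq_zero (𝕜 := ℝ)
      (f := fun s => (Y s ((0:ℂ), x)).2)
      (fun s hs => (h1 s hs).differentiableAt.differentiableWithinAt)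
      (fun s hs => by
        rw [fderivWithin_of_isOpen isOpen_Ioo hs]
        have := (h1 s hs).hasFDerivAt.fderiv
        rw [this]
        simp) ht₀I h0I
    simp only [hH, zero_div]
    rw [h6, (hY _ (hbm h0r hx)).1]
  refine ⟨δ, hδp, r, hr, H, fun x hx => ?_, hH0, fun x hx => ?_, hHd⟩
  · have h1 := hball (hbm (mem_ball_self hr) hx)
    exact h1.2
  · -- the differential equation
    have hsl : DifferentiableOn ℂ (fun ζ => H ζ x) (ball 0 δ) := by
      have h1 : DifferentiableOn ℂ (fun ζ : ℂ => (ζ, x)) (ball (0:ℂ) δ) :=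
        differentiableOn_id.prodMk (differentiableOn_const _)
      exact DifferentiableOn.comp (g := fun q : ℂ × E => H q.1 q.2) hHd h1
        (fun ζ hζ => ⟨hζ, hx⟩)
    have hmem : ∀ ζ ∈ ball (0:ℂ) δ, H ζ x ∈ U := fun ζ hζ =>
      (hsnd (hdiv ζ hζ) hx t₀ ht₀I).1
    have hne : ∀ ζ ∈ ball (0:ℂ) δ, ζ ≠ 0 → deriv (fun ζ => H ζ x) ζ = v (H ζ x) := by
      intro ζ hζ hζ0
      have h1 : HasDerivAt (fun ζ => H ζ x) (deriv (fun ζ => H ζ x) ζ) ζ :=
        ((hsl ζ hζ).differentiableAt (isOpen_ball.mem_nhds hζ)).hasDerivAt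
      have h2 : HasDerivAt (fun s : ℝ => H ((s : ℂ) * ζ) x)
          (ζ • deriv (fun ζ => H ζ x) ζ) 1 := by
        have h3 : HasDerivAt (fun s : ℝ => (s : ℂ) * ζ) ζ 1 := by
          have := (hasDerivAt_id (1:ℝ)).ofReal_comp.mul_const ζ
          simpa using this
        have h4 : HasDerivAt (fun ζ => H ζ x) (deriv (fun ζ => H ζ x) ζ) (((1:ℝ) : ℂ) * ζ) := by
          rw [ofReal_one, one_mul]; exact h1
        exact h4.scomp (1:ℝ) h3
      have h3 : HasDerivAt (fun s : ℝ => (Y (s * t₀) (ζ / t₀, x)).2)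
          (ζ • v (H ζ x)) 1 := by
        obtain ⟨h4, h5⟩ := hsnd (hdiv ζ hζ) hx t₀ ht₀I
        have h6 : HasDerivAt (fun s : ℝ => s * t₀) t₀ 1 := by
          simpa using (hasDerivAt_id (1:ℝ)).mul_const t₀
        have h5' : HasDerivAt (fun s => (Y s (ζ / t₀, x)).2)
            ((ζ / t₀) • v (Y t₀ (ζ / t₀, x)).2) (1 * t₀) := by rwa [one_mul]
        have h7 := HasDerivAt.scomp (h := fun s : ℝ => s * t₀) (1:ℝ) h5' h6
        have h8 : t₀ • (ζ / t₀) • v (Y t₀ (ζ / t₀, x)).2 = ζ • v (H ζ x) := by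
          have h9 : t₀ • (ζ / t₀) • v (Y t₀ (ζ / t₀, x)).2 =
              ((t₀ : ℂ) * (ζ / t₀)) • v (Y t₀ (ζ / t₀, x)).2 := by
            rw [mul_smul]; rfl
          rw [h9, mul_div_cancel₀ _ ht₀c]
        rw [h8] at h7
        exact h7
      have h4 : (fun s : ℝ => H ((s : ℂ) * ζ) x) =ᶠ[𝓝 1]
          (fun s : ℝ => (Y (s * t₀) (ζ / t₀, x)).2) := by
        have h5 : ∀ᶠ s : ℝ in 𝓝 1, s ∈ Ioo (1/2 : ℝ) (3/2) :=
          isOpen_Ioo.mem_nhds ⟨by norm_num, by norm_num⟩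
        have h6 : ∀ᶠ s : ℝ in 𝓝 1, (s : ℂ) * (ζ / t₀) ∈ ball (0:ℂ) r := by
          have h7 : Continuous (fun s : ℝ => (s : ℂ) * (ζ / t₀)) := by fun_prop
          apply h7.continuousAt.eventually
          apply isOpen_ball.mem_nhds
          simp only [ofReal_one, one_mul]
          exact hdiv ζ hζ
        filter_upwards [h5, h6] with s h7 h8
        have h9 := hscale hx (hdiv ζ hζ) s h7 h8
        simp only [hH]
        rw [mul_div_assoc, h9]
      have h5 := (h2.congr_of_eventuallyEq h4.symm).unique h3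
      exact smul_right_injective E hζ0 h5
    intro ζ hζ
    refine ⟨hmem ζ hζ, ?_⟩
    have h1 : HasDerivAt (fun ζ => H ζ x) (deriv (fun ζ => H ζ x) ζ) ζ :=
      ((hsl ζ hζ).differentiableAt (isOpen_ball.mem_nhds hζ)).hasDerivAt
    by_cases hζ0 : ζ = 0
    · subst hζ0
      have h2 : ContinuousAt (deriv (fun ζ => H ζ x)) 0 := by
        have h3 := (hsl.deriv isOpen_ball).continuousOn
        exact h3.continuousAt (isOpen_ball.mem_nhds hζ)
      have h3 : ContinuousAt (fun ζ => v (H ζ x)) 0 := by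
        have h4 : ContinuousAt v (H 0 x) :=
          (hv.continuousOn).continuousAt (hU.mem_nhds (hmem 0 hζ))
        exact ContinuousAt.comp (g := v) (f := fun ζ => H ζ x) h4 h1.continuousAt
      have h4 : (deriv fun ζ => H ζ x) =ᶠ[𝓝[≠] 0] fun ζ => v (H ζ x) := by
        filter_upwards [self_mem_nhdsWithin, nhdsWithin_le_nhds (isOpen_ball.mem_nhds hζ)]
          with η h5 h6
        exact hne η h6 h5
      have h5 := tendsto_nhds_unique (h2.tendsto.mono_left nhdsWithin_le_nhds)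
        ((h3.tendsto.mono_left nhdsWithin_le_nhds).congr' h4.symm)
      rw [← h5]
      exact h1
    · rw [← hne ζ hζ hζ0]
      exact h1

end Vale.Agent.P253.R2.H445
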