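import Vale.Agent.P253.R2.H156.Orb
import Vale.Agent.P253.R2.H445.VF.Ode
import Vale.Agent.P253.R2.H445.VF.Defs

/-!
P253: complex-time orbits of a holomorphic vector field: charts, local flow, uniqueness, the
star-shaped domain of the complex-time flow.
-/

open scoped Manifold ContDiff Topology Bundle
open Set Metric Complex Filter IsManifold Vale.Agent.P253.Mfd

set_option maxSynthPendingDepth 3
set_option linter.unusedSectionVars false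

noncomputable section

namespace Vale.Agent.P253.R2.H445

variable {E : Type*} [NormedAddCommGroup E] [NormedSpace ℂ E] [FiniteDimensional ℂ E]
  {M : Type*} [MetricSpace M] [ChartedSpace E M] [IsManifold 𝓘(ℂ, E) 1 M]
  {X : M → E} {e : OpenPartialHomeomorph M E}

theorem mdiff_chart {e : OpenPartialHomeomorph M E} (he : e ∈ maximalAtlas 𝓘(ℂ, E) 1 M) {x : M}
    (hx : x ∈ e.source) : MDifferentiableAt 𝓘(ℂ, E) 𝓘(ℂ, E) e x :=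
  ((contMDiffOn_of_mem_maximalAtlas he).contMDiffAt
    (e.open_source.mem_nhds hx)).mdifferentiableAt (by simp)

theorem mdiff_chart_symm {e : OpenPartialHomeomorph M E} (he : e ∈ maximalAtlas 𝓘(ℂ, E) 1 M) {z : E}
    (hz : z ∈ e.target) : MDifferentiableAt 𝓘(ℂ, E) 𝓘(ℂ, E) e.symm z :=
  ((contMDiffOn_symm_of_mem_maximalAtlas he).contMDiffAt
    (e.open_target.mem_nhds hz)).mdifferentiableAt (by simp)

/-- the linear map `1 ↦ v` -/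
abbrev dir (v : E) : ℂ →L[ℂ] E := ContinuousLinearMap.smulRight (1 : ℂ →L[ℂ] ℂ) v

theorem comp_dir (D : E →L[ℂ] E) (v : E) : D.comp (dir v) = dir (D v) := by
  ext
  simp [dir]

/-- `f` is an orbit of `X` at the complex time `ζ` -/
def OrbAt (X : M → E) (f : ℂ → M) (ζ : ℂ) : Prop :=
  HasMFDerivAt 𝓘(ℂ, ℂ) 𝓘(ℂ, E) f ζ (dir (X (f ζ)) : ℂ →L[ℂ] E)

theorem isOrbitOn_iff {f : ℂ → M} {s : Set ℂ} : IsOrbitOn E X f s ↔ ∀ ζ ∈ s, OrbAt X f ζ :=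
  Iff.rfl

theorem vfChart_eq {y : M} (hy : y ∈ e.source) :
    vfChart E X e (e y) = (mfderiv 𝓘(ℂ, E) 𝓘(ℂ, E) e y : E →L[ℂ] E) (X y) := by
  unfold vfChart
  rw [e.left_inv hy]

/-- an orbit in a chart -/
theorem orbit_chart (he : e ∈ maximalAtlas 𝓘(ℂ, E) 1 M) {f : ℂ → M} {ζ : ℂ}
    (hf : OrbAt X f ζ) (hs : f ζ ∈ e.source) :
    HasDerivAt (fun w => e (f w)) (vfChart E X e (e (f ζ))) ζ := by
  let D : E →L[ℂ] E := mfderiv 𝓘(ℂ, E) 𝓘(ℂ, E) e (f ζ)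
  have h1 : HasMFDerivAt 𝓘(ℂ, E) 𝓘(ℂ, E) e (f ζ) D := (mdiff_chart he hs).hasMFDerivAt
  have h2 : HasMFDerivAt 𝓘(ℂ, ℂ) 𝓘(ℂ, E) (e ∘ f) ζ (dir (D (X (f ζ))) : ℂ →L[ℂ] E) :=
    (h1.comp ζ hf).congr_mfderiv (comp_dir D (X (f ζ)))
  have h3 : HasFDerivAt (e ∘ f) (dir (D (X (f ζ)))) ζ := h2.hasFDerivAt
  have h4 := h3.hasDerivAt
  have h6 : ∀ w : E, (dir w) 1 = w := fun w => by simp [dir]
  have h5 : (dir (D (X (f ζ)))) 1 = vfChart E X e (e (f ζ)) := by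
    rw [vfChart_eq hs, h6]
    rfl
  rw [h5] at h4
  exact h4

/-- an orbit from a chart -/
theorem orbit_of_chart (he : e ∈ maximalAtlas 𝓘(ℂ, E) 1 M) {k : ℂ → E} {ζ : ℂ}
    (hk : HasDerivAt k (vfChart E X e (k ζ)) ζ) (ht : k ζ ∈ e.target) :
    OrbAt X (fun w => e.symm (k w)) ζ := by
  let D : E →L[ℂ] E := mfderiv 𝓘(ℂ, E) 𝓘(ℂ, E) e.symm (k ζ)
  let D' : E →L[ℂ] E := mfderiv 𝓘(ℂ, E) 𝓘(ℂ, E) e (e.symm (k ζ))
  have h1 : HasMFDerivAt 𝓘(ℂ, E) 𝓘(ℂ, E) e.symm (k ζ) D := (mdiff_chart_symm he ht).hasMFDerivAt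
  have h2 : HasMFDerivAt 𝓘(ℂ, ℂ) 𝓘(ℂ, E) k ζ (dir (vfChart E X e (k ζ)) : ℂ →L[ℂ] E) :=
    hk.hasFDerivAt.hasMFDerivAt
  have h5 : HasMFDerivAt 𝓘(ℂ, E) 𝓘(ℂ, E) e (e.symm (k ζ)) D' :=
    (mdiff_chart he (e.map_target ht)).hasMFDerivAt
  have h6 : HasMFDerivAt 𝓘(ℂ, E) 𝓘(ℂ, E) e.symm (e (e.symm (k ζ))) D := by
    rw [e.right_inv ht]; exact h1
  have h7 : HasMFDerivAt 𝓘(ℂ, E) 𝓘(ℂ, E) (e.symm ∘ e) (e.symm (k ζ)) (D.comp D') :=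
    h6.comp (e.symm (k ζ)) h5
  have h8 : (e.symm ∘ e) =ᶠ[𝓝 (e.symm (k ζ))] id := by
    filter_upwards [e.open_source.mem_nhds (e.map_target ht)] with y hy
    exact e.left_inv hy
  have h9 : HasMFDerivAt 𝓘(ℂ, E) 𝓘(ℂ, E) (e.symm ∘ e) (e.symm (k ζ))
      (ContinuousLinearMap.id ℂ E) :=
    (hasMFDerivAt_id _).congr_of_eventuallyEq h8
  have h10 : D.comp D' = ContinuousLinearMap.id ℂ E := hasMFDerivAt_unique h7 h9
  have h11 : D (vfChart E X e (k ζ)) = X (e.symm (k ζ)) :=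
    congrArg (fun A : E →L[ℂ] E => A (X (e.symm (k ζ)))) h10
  exact (h1.comp ζ h2).congr_mfderiv ((comp_dir D _).trans (congrArg dir h11))

theorem orb_mono {f : ℂ → M} {s t : Set ℂ} (h : IsOrbitOn E X f s) (hts : t ⊆ s) :
    IsOrbitOn E X f t := fun ζ hζ => h ζ (hts hζ)

theorem orb_mdiff {f : ℂ → M} {s : Set ℂ} (h : IsOrbitOn E X f s) {ζ : ℂ} (hζ : ζ ∈ s) :
    MDifferentiableAt 𝓘(ℂ, ℂ) 𝓘(ℂ, E) f ζ := (h ζ hζ).mdifferentiableAt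

theorem orb_congr {f g : ℂ → M} {s : Set ℂ} (hs : IsOpen s) (h : IsOrbitOn E X f s)
    (hfg : EqOn g f s) : IsOrbitOn E X g s := by
  intro ζ hζ
  rw [hfg hζ]
  refine (h ζ hζ).congr_of_eventuallyEq ?_
  filter_upwards [hs.mem_nhds hζ] with w hw using hfg hw

theorem orb_shift {f : ℂ → M} {s : Set ℂ} (h : IsOrbitOn E X f s) (c : ℂ) :
    IsOrbitOn E X (fun ζ => f (ζ + c)) {ζ | ζ + c ∈ s} := by
  intro ζ hζ
  have h1 : HasMFDerivAt 𝓘(ℂ, ℂ) 𝓘(ℂ, ℂ) (fun ζ : ℂ => ζ + c) ζ (ContinuousLinearMap.id ℂ ℂ) :=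
    ((hasFDerivAt_id (𝕜 := ℂ) ζ).add_const c).hasMFDerivAt
  have h0 : HasMFDerivAt 𝓘(ℂ, ℂ) 𝓘(ℂ, E) f (ζ + c) (dir (X (f (ζ + c))) : ℂ →L[ℂ] E) :=
    h (ζ + c) hζ
  have h2 : HasMFDerivAt 𝓘(ℂ, ℂ) 𝓘(ℂ, E) (f ∘ fun ζ : ℂ => ζ + c) ζ
      ((dir (X (f (ζ + c)))).comp (ContinuousLinearMap.id ℂ ℂ) : ℂ →L[ℂ] E) := h0.comp ζ h1
  exact h2.congr_mfderiv (ContinuousLinearMap.comp_id _)

/-- local uniqueness of orbits -/
theorem orbit_eventuallyEq (hX : IsHolVectorField E X) {f g : ℂ → M} {c : ℂ}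
    (hf : ∀ᶠ ζ in 𝓝 c, OrbAt X f ζ) (hg : ∀ᶠ ζ in 𝓝 c, OrbAt X g ζ)
    (h : f c = g c) : f =ᶠ[𝓝 c] g := by
  have he : chartAt E (f c) ∈ maximalAtlas 𝓘(ℂ, E) 1 M := chart_mem_maximalAtlas (f c)
  set e := chartAt E (f c) with hedef
  have hsrc : f c ∈ e.source := mem_chart_source E (f c)
  have h1 : ∀ᶠ ζ in 𝓝 c, f ζ ∈ e.source :=
    hf.self_of_nhds.continuousAt.eventually (e.open_source.mem_nhds hsrc)
  have h2 : ∀ᶠ ζ in 𝓝 c, g ζ ∈ e.source :=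
    hg.self_of_nhds.continuousAt.eventually (e.open_source.mem_nhds (h ▸ hsrc))
  obtain ⟨r, hr, hball⟩ := Metric.eventually_nhds_iff_ball.1 ((hf.and hg).and (h1.and h2))
  have h3 := code_eqOn e.open_target (hX e he) (c := c) (r := r) (f := fun ζ => e (f ζ))
    (g := fun ζ => e (g ζ))
    (fun ζ hζ => ⟨e.map_source (hball ζ hζ).2.1,
      orbit_chart he (hball ζ hζ).1.1 (hball ζ hζ).2.1⟩)
    (fun ζ hζ => ⟨e.map_source (hball ζ hζ).2.2,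
      orbit_chart he (hball ζ hζ).1.2 (hball ζ hζ).2.2⟩) (by simp only [h])
  filter_upwards [ball_mem_nhds c hr] with ζ hζ
  exact e.injOn (hball ζ hζ).2.1 (hball ζ hζ).2.2 (h3 hζ)

/-- uniqueness of orbits -/
theorem orbit_eqOn (hX : IsHolVectorField E X) {U : Set ℂ} (hU : IsOpen U)
    (hUc : IsPreconnected U) {f g : ℂ → M} (hf : IsOrbitOn E X f U) (hg : IsOrbitOn E X g U)
    {c : ℂ} (hc : c ∈ U) (h : f c = g c) : EqOn f g U := by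
  refine H156.eqOn_of_frequently hU hUc (fun ζ hζ => orb_mdiff hf hζ) (fun ζ hζ => orb_mdiff hg hζ) hc ?_
  have h1 := orbit_eventuallyEq hX (c := c) (f := f) (g := g)
    (by filter_upwards [hU.mem_nhds hc] with ζ hζ using hf ζ hζ)
    (by filter_upwards [hU.mem_nhds hc] with ζ hζ using hg ζ hζ) h
  exact (h1.filter_mono nhdsWithin_le_nhds).frequently

/-- the local complex-time flow -/
theorem exists_local (hX : IsHolVectorField E X) (x₀ : M) :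
    ∃ δ > 0, ∃ U : Set M, IsOpen U ∧ x₀ ∈ U ∧ U ⊆ (chartAt E x₀).source ∧ ∃ H : ℂ → M → M,
      (∀ x ∈ U, H 0 x = x) ∧ (∀ x ∈ U, IsOrbitOn E X (fun ζ => H ζ x) (ball 0 δ)) ∧
      ∀ ζ ∈ ball (0:ℂ) δ, ∀ x ∈ U,
        MDifferentiableAt (𝓘(ℂ, ℂ).prod 𝓘(ℂ, E)) 𝓘(ℂ, E) (fun q : ℂ × M => H q.1 q.2) (ζ, x) := by
  have he : chartAt E x₀ ∈ maximalAtlas 𝓘(ℂ, E) 1 M := chart_mem_maximalAtlas x₀
  set e := chartAt E x₀ with hedef
  have hx₀ : x₀ ∈ e.source := mem_chart_source E x₀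
  obtain ⟨δ, hδ, r, hr, H, hball, hH0, hH, hHd⟩ := exists_cflow e.open_target (hX e he)
    (e.map_source hx₀)
  set V := e.source ∩ e ⁻¹' (ball (e x₀) r) with hV
  have hVo : IsOpen V := e.continuousOn.isOpen_inter_preimage e.open_source isOpen_ball
  refine ⟨δ, hδ, V, hVo, ⟨hx₀, mem_ball_self hr⟩, inter_subset_left,
    fun ζ x => e.symm (H ζ (e x)), ?_, ?_, ?_⟩
  · intro x hx
    simp only []
    rw [hH0 (e x) hx.2, e.left_inv hx.1]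
  · intro x hx ζ hζ
    obtain ⟨h1, h2⟩ := hH (e x) hx.2 ζ hζ
    exact orbit_of_chart he h2 h1
  · intro ζ hζ x hx
    obtain ⟨h1, h2⟩ := hH (e x) hx.2 ζ hζ
    have h3 : DifferentiableAt ℂ (fun q : ℂ × E => H q.1 q.2) (ζ, e x) :=
      hHd.differentiableAt ((isOpen_ball.prod isOpen_ball).mem_nhds ⟨hζ, hx.2⟩)
    have h4 : MDifferentiableAt (𝓘(ℂ, ℂ).prod 𝓘(ℂ, E)) 𝓘(ℂ, ℂ × E)
        (fun q : ℂ × M => (q.1, e q.2)) (ζ, x) :=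
      mdifferentiableAt_fst.prodMk_space
        (MDifferentiableAt.comp (ζ, x) (f := Prod.snd) (g := e) (mdiff_chart he hx.1)
          mdifferentiableAt_snd)
    have h5 : MDifferentiableAt 𝓘(ℂ, ℂ × E) 𝓘(ℂ, E) (fun q : ℂ × E => H q.1 q.2) (ζ, e x) :=
      h3.mdifferentiableAt
    exact (mdiff_chart_symm he h1).comp (ζ, x) (h5.comp (ζ, x) h4)

end Vale.Agent.P253.R2.H445
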