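import Vale.Agent.P253.R2.H445.VF.SgLoc
import Vale.Agent.P253.R2.H445.VF.DefsSg
import Vale.Agent.P253.R2.H445.VF.Euler

/-!
P253: the generator of a continuous one-parameter semigroup of holomorphic self-maps.
-/

open scoped Manifold ContDiff Topology Bundle
open Set Metric Complex Filter Bundle IsManifold Manifold Vale.Agent.P253.Mfd

set_option maxSynthPendingDepth 3
set_option linter.unusedSectionVars false

noncomputable section

namespace Vale.Agent.P253.R2.H445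

variable {E : Type*} [NormedAddCommGroup E] [NormedSpace ℂ E] [FiniteDimensional ℂ E]
  {M : Type*} [MetricSpace M] [ChartedSpace E M] [IsManifold 𝓘(ℂ, E) 1 M]
  {X : M → E} {φ : ℝ → M → M}

/-- a vector field is holomorphic if it is holomorphic in one chart at each point -/
theorem holVF_of_local (h : ∀ q : M, ∃ e₀ ∈ maximalAtlas 𝓘(ℂ, E) 1 M, q ∈ e₀.source ∧
    DifferentiableAt ℂ (vfChart E X e₀) (e₀ q)) : IsHolVectorField E X := by
  have hCE : CompleteSpace E := FiniteDimensional.complete ℂ E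
  intro e he z hz
  obtain ⟨e₀, he₀, hq, hd⟩ := h (e.symm z)
  apply DifferentiableAt.differentiableWithinAt
  set T : E → E := fun w => e (e₀.symm w) with hT
  set Ω : Set E := e₀.target ∩ e₀.symm ⁻¹' e.source with hΩ
  have hΩo : IsOpen Ω := e₀.continuousOn_symm.isOpen_inter_preimage e₀.open_target e.open_source
  have hTd : DifferentiableOn ℂ T Ω := by
    intro w hw
    have h1 := (mdiff_chart he hw.2).comp w (mdiff_chart_symm he₀ hw.1)
    exact h1.differentiableAt.differentiableWithinAt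
  have hTc : ContDiffOn ℂ ∞ T Ω := contDiffOn_of_differentiableOn_complex hΩo hTd
  have hTf : DifferentiableOn ℂ (fderiv ℂ T) Ω :=
    (hTc.fderiv_of_isOpen hΩo (m := ∞) (by simp)).differentiableOn (by simp)
  set g : E → E := fun z => e₀ (e.symm z) with hg
  have hgd : DifferentiableAt ℂ g z :=
    ((mdiff_chart he₀ hq).comp z (mdiff_chart_symm he hz)).differentiableAt
  have hgΩ : g z ∈ Ω := by
    refine ⟨e₀.map_source hq, ?_⟩
    change e₀.symm (e₀ (e.symm z)) ∈ e.source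
    rw [e₀.left_inv hq]
    exact e.map_target hz
  have hev : ∀ᶠ w in 𝓝 z, w ∈ e.target ∧ e.symm w ∈ e₀.source := by
    have h1 := e.open_target.mem_nhds hz
    have h2 := (e.continuousAt_symm hz).eventually (e₀.open_source.mem_nhds hq)
    filter_upwards [h1, h2] with w hw1 hw2 using ⟨hw1, hw2⟩
  have key : vfChart E X e =ᶠ[𝓝 z] fun w => fderiv ℂ T (g w) (vfChart E X e₀ (g w)) := by
    filter_upwards [hev] with w hw
    set y := e.symm w with hy
    have hys : y ∈ e.source := e.map_target hw.1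
    have hgw : g w = e₀ y := rfl
    have hyt : e₀ y ∈ e₀.target := e₀.map_source hw.2
    let A : E →L[ℂ] E := mfderiv 𝓘(ℂ, E) 𝓘(ℂ, E) e y
    let B : E →L[ℂ] E := mfderiv 𝓘(ℂ, E) 𝓘(ℂ, E) e₀.symm (e₀ y)
    have h1 : HasMFDerivAt 𝓘(ℂ, E) 𝓘(ℂ, E) e (e₀.symm (e₀ y)) A := by
      rw [e₀.left_inv hw.2]
      exact (mdiff_chart he hys).hasMFDerivAt
    have h2 : HasMFDerivAt 𝓘(ℂ, E) 𝓘(ℂ, E) e₀.symm (e₀ y) B :=
      (mdiff_chart_symm he₀ hyt).hasMFDerivAt
    have h3 : HasMFDerivAt 𝓘(ℂ, E) 𝓘(ℂ, E) T (e₀ y) (A.comp B) := h1.comp (e₀ y) h2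
    have h3' : HasFDerivAt T (A.comp B) (e₀ y) := h3.hasFDerivAt
    have h4 : fderiv ℂ T (e₀ y) = A.comp B := h3'.fderiv
    rw [hgw, h4, vfChart_eq hw.2]
    change A (X y) = A (B _)
    congr 1
    exact (symm_comp_chart he₀ hw.2 (X y)).symm
  refine DifferentiableAt.congr_of_eventuallyEq ?_ key
  have h2 : DifferentiableAt ℂ (fun w => fderiv ℂ T (g w)) z :=
    (hTf.differentiableAt (hΩo.mem_nhds hgΩ)).comp z hgd
  have h3 : DifferentiableAt ℂ (fun w => vfChart E X e₀ (g w)) z :=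
    DifferentiableAt.comp z (g := vfChart E X e₀) (f := g) hd hgd
  exact h2.clm_apply h3

variable (E) in
/-- the generator of a semigroup -/
def genX (φ : ℝ → M → M) : M → E := fun x =>
  (mfderivWithin 𝓘(ℝ, ℝ) 𝓘(ℝ, E) (fun t => φ t x) (Ici 0) 0 : ℝ →L[ℝ] E) 1

theorem hasMFDerivAt_real_symm {f : E → M} {x : E} {D : E →L[ℂ] E}
    (h : HasMFDerivAt 𝓘(ℂ, E) 𝓘(ℂ, E) f x D) :
    HasMFDerivAt 𝓘(ℝ, E) 𝓘(ℝ, E) f x (D.restrictScalars ℝ : E →L[ℝ] E) :=
  ⟨h.1, h.2.restrictScalars ℝ⟩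

theorem comp_dirR (D : E →L[ℝ] E) (v : E) :
    D.comp ((1 : ℝ →L[ℝ] ℝ).smulRight v) = (1 : ℝ →L[ℝ] ℝ).smulRight (D v) := by
  ext
  simp

theorem dirR_one (v : E) : ((1 : ℝ →L[ℝ] ℝ).smulRight v) 1 = v := by simp

/-- local structure of a semigroup -/
theorem exists_gen_local (h : IsHolSemigroup E φ) (q : M) :
    ∃ (a : ℝ) (N : Set M), 0 < a ∧ IsOpen N ∧ q ∈ N ∧
      (∀ y ∈ N, ∀ t ∈ Ico 0 a, φ t y ∈ N → HasMFDerivWithinAt 𝓘(ℝ, ℝ) 𝓘(ℝ, E)
        (fun t => φ t y) (Ici 0) t ((1 : ℝ →L[ℝ] ℝ).smulRight (genX E φ (φ t y)) : ℝ →L[ℝ] E)) ∧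
      DifferentiableAt ℂ (vfChart E (genX E φ) (chartAt E q)) (chartAt E q q) := by
  have hCE : CompleteSpace E := FiniteDimensional.complete ℂ E
  have hPE : ProperSpace E := FiniteDimensional.proper ℂ E
  have he : chartAt E q ∈ maximalAtlas 𝓘(ℂ, E) 1 M := chart_mem_maximalAtlas q
  have hqs : q ∈ (chartAt E q).source := mem_chart_source E q
  set e := chartAt E q with hedef
  set z₀ := e q with hz₀
  have hz₀t : z₀ ∈ e.target := e.map_source hqs
  -- the semigroup extended to all times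
  have hΦ : Continuous (fun p : ℝ × M => φ (max p.1 0) p.2) :=
    h.cont.comp_continuous (f := fun p : ℝ × M => (max p.1 0, p.2)) (by fun_prop)
      fun p => ⟨show (0:ℝ) ≤ max p.1 0 from le_max_right _ _, mem_univ _⟩
  obtain ⟨r, hr, hrt⟩ : ∃ r > 0, closedBall z₀ (2 * r) ⊆ e.target := by
    obtain ⟨ε, hε, h1⟩ := Metric.nhds_basis_closedBall.mem_iff.1 (e.open_target.mem_nhds hz₀t)
    exact ⟨ε / 2, by positivity, by rwa [mul_div_cancel₀ ε two_ne_zero]⟩
  have hev : ∀ᶠ t in 𝓝 (0:ℝ), ∀ z ∈ closedBall z₀ (2 * r), φ (max t 0) (e.symm z) ∈ e.source ∧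
      ‖e (φ (max t 0) (e.symm z)) - z‖ < r / 8 := by
    apply (isCompact_closedBall z₀ (2 * r)).eventually_forall_of_forall_eventually
    intro z hz
    have hzt := hrt hz
    have h1 : ContinuousAt (fun p : ℝ × E => (p.1, e.symm p.2)) (0, z) :=
      continuousAt_fst.prodMk ((e.continuousAt_symm hzt).comp (x := ((0:ℝ), z)) continuousAt_snd)
    have h2 : ContinuousAt (fun p : ℝ × E => φ (max p.1 0) (e.symm p.2)) (0, z) :=
      hΦ.continuousAt.comp (x := ((0:ℝ), z)) h1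
    have h0 : φ (max (0:ℝ) 0) (e.symm z) = e.symm z := by rw [max_self, h.zero]
    have hs : φ (max (0:ℝ) 0) (e.symm z) ∈ e.source := by rw [h0]; exact e.map_target hzt
    have h3 : ∀ᶠ p : ℝ × E in 𝓝 (0, z), φ (max p.1 0) (e.symm p.2) ∈ e.source :=
      h2.eventually (e.open_source.mem_nhds hs)
    have h4 : ContinuousAt (fun p : ℝ × E => e (φ (max p.1 0) (e.symm p.2))) (0, z) :=
      ContinuousAt.comp (g := e) (f := fun p : ℝ × E => φ (max p.1 0) (e.symm p.2))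
        (x := ((0:ℝ), z)) (e.continuousAt hs) h2
    have h5 : ContinuousAt (fun p : ℝ × E => ‖e (φ (max p.1 0) (e.symm p.2)) - p.2‖) (0, z) :=
      (h4.sub continuousAt_snd).norm
    have h6 : ‖e (φ (max (0:ℝ) 0) (e.symm z)) - z‖ < r / 8 := by
      rw [h0, e.right_inv hzt, sub_self, norm_zero]; positivity
    exact h3.and (h5.eventually (Iio_mem_nhds h6))
  obtain ⟨δ, hδ, hball⟩ := Metric.eventually_nhds_iff_ball.1 hev
  set a : ℝ := δ / 3 with ha_def
  have ha : 0 < a := by positivity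
  set cl : ℝ → ℝ := fun t => max 0 (min t (2 * a)) with hcl
  have hcl0 : ∀ t, 0 ≤ cl t := fun t => le_max_left _ _
  have hcl2 : ∀ t, cl t ≤ 2 * a := fun t => max_le (by positivity) (min_le_right _ _)
  have hcleq : ∀ t, 0 ≤ t → t ≤ 2 * a → cl t = t := fun t h1 h2 => by
    simp only [hcl, min_eq_left h2, max_eq_right h1]
  have hclc : Continuous cl := by fun_prop
  have hcl3 : ∀ t, max (cl t) 0 = cl t := fun t => max_eq_left (hcl0 t)
  have hin : ∀ t, ∀ z ∈ closedBall z₀ (2 * r), φ (cl t) (e.symm z) ∈ e.source ∧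
      ‖e (φ (cl t) (e.symm z)) - z‖ < r / 8 := by
    intro t z hz
    have h1 := hball (cl t) (by
      rw [mem_ball_zero_iff, Real.norm_of_nonneg (hcl0 t)]
      linarith [hcl2 t]) z hz
    rwa [hcl3] at h1
  set f : ℝ → E → E := fun t z => e (φ (cl t) (e.symm z)) with hf
  have hUc : ball z₀ (2 * r) ⊆ closedBall z₀ (2 * r) := ball_subset_closedBall
  have hrr : ball z₀ r ⊆ ball z₀ (2 * r) := ball_subset_ball (by linarith)
  have hc : ContinuousOn (fun p : ℝ × E => f p.1 p.2) (univ ×ˢ ball z₀ (2 * r)) := by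
    have h1 : ContinuousOn (fun p : ℝ × E => (cl p.1, e.symm p.2)) (univ ×ˢ ball z₀ (2 * r)) :=
      (hclc.comp continuous_fst).continuousOn.prodMk
        (e.continuousOn_symm.comp continuousOn_snd fun p hp => hrt (hUc hp.2))
    have h2 : ContinuousOn (fun p : ℝ × E => φ (cl p.1) (e.symm p.2))
        (univ ×ˢ ball z₀ (2 * r)) :=
      h.cont.comp h1 fun p _ => ⟨hcl0 _, mem_univ _⟩
    exact e.continuousOn.comp h2 fun p hp => (hin p.1 p.2 (hUc hp.2)).1
  have hd : ∀ t, DifferentiableOn ℂ (f t) (ball z₀ (2 * r)) := by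
    intro t z hz
    have h1 := (mdiff_chart he (hin t z (hUc hz)).1).comp z
      ((h.holo (cl t) (hcl0 t) (e.symm z)).comp z (mdiff_chart_symm he (hrt (hUc hz))))
    exact h1.differentiableAt.differentiableWithinAt
  have hadd : ∀ s t, 0 ≤ s → 0 ≤ t → s + t ≤ 2 * a → ∀ z ∈ ball z₀ r,
      f (s + t) z = f s (f t z) := by
    intro s t hs ht hst z hz
    have h1 := (hin t z (hUc (hrr hz))).1
    simp only [hf]
    rw [e.left_inv h1, hcleq _ (by linarith) hst, hcleq s hs (by linarith),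
      hcleq t ht (by linarith), h.add s t hs ht]
  obtain ⟨X₀, V, hVo, hz₀V, hVr, hX₀, hV⟩ := local_gen hr ha hc hd
    (fun t z hz => (hin t z (hUc hz)).2.le) hadd
  have hVt : V ⊆ e.target := hVr.trans (hrr.trans (hUc.trans hrt))
  set N : Set M := e.source ∩ e ⁻¹' V with hN
  have hNo : IsOpen N := e.continuousOn.isOpen_inter_preimage e.open_source hVo
  -- the derivative in terms of the chart
  have key : ∀ y ∈ N, ∀ t ∈ Ico 0 a, φ t y ∈ N → HasMFDerivWithinAt 𝓘(ℝ, ℝ) 𝓘(ℝ, E)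
      (fun t => φ t y) (Ici 0) t ((1 : ℝ →L[ℝ] ℝ).smulRight
        ((mfderiv 𝓘(ℂ, E) 𝓘(ℂ, E) e.symm (e (φ t y)) : E →L[ℂ] E) (X₀ (e (φ t y)))) :
          ℝ →L[ℝ] E) := by
    intro y hy t ht hty
    have hft : ∀ t' ∈ Ico 0 a, f t' (e y) = e (φ t' y) := by
      intro t' ht'
      simp only [hf]
      rw [e.left_inv hy.1, hcleq t' ht'.1 (by linarith [ht'.2])]
    have hder := hV (e y) hy.2 t ht (by rw [hft t ht]; exact hty.2)
    rw [hft t ht] at hder
    let D : E →L[ℂ] E := mfderiv 𝓘(ℂ, E) 𝓘(ℂ, E) e.symm (e (φ t y))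
    have h1 : HasMFDerivAt 𝓘(ℝ, E) 𝓘(ℝ, E) e.symm (f t (e y)) (D.restrictScalars ℝ : E →L[ℝ] E) := by
      rw [hft t ht]
      exact hasMFDerivAt_real_symm (mdiff_chart_symm he (hVt hty.2)).hasMFDerivAt
    have h2 : HasMFDerivWithinAt 𝓘(ℝ, ℝ) 𝓘(ℝ, E) (fun t => f t (e y)) (Ici 0) t
        ((1 : ℝ →L[ℝ] ℝ).smulRight (X₀ (e (φ t y))) : ℝ →L[ℝ] E) :=
      hasMFDerivWithinAt_iff_hasFDerivWithinAt.2 hder.hasFDerivWithinAt
    have h3 : HasMFDerivWithinAt 𝓘(ℝ, ℝ) 𝓘(ℝ, E) (e.symm ∘ fun t => f t (e y)) (Ici 0) t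
        ((D.restrictScalars ℝ).comp ((1 : ℝ →L[ℝ] ℝ).smulRight (X₀ (e (φ t y)))) : ℝ →L[ℝ] E) :=
      h1.comp_hasMFDerivWithinAt t h2
    have hyc : Continuous fun t => φ (max t 0) y :=
      hΦ.comp (Continuous.prodMk continuous_id continuous_const)
    have hev : ∀ᶠ t' in 𝓝[Ici 0] t, φ t' y = (e.symm ∘ fun t => f t (e y)) t' := by
      have h4 : ∀ᶠ t' in 𝓝 t, φ (max t' 0) y ∈ e.source := by
        refine hyc.continuousAt.eventually (e.open_source.mem_nhds ?_)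
        change φ (max t 0) y ∈ e.source
        rw [max_eq_left ht.1]
        exact hty.1
      filter_upwards [nhdsWithin_le_nhds h4, nhdsWithin_le_nhds (Iio_mem_nhds ht.2),
        self_mem_nhdsWithin] with t' h5 h6 h7
      rw [max_eq_left h7] at h5
      rw [Function.comp_apply, hft t' ⟨h7, h6⟩, e.left_inv h5]
    have h5 := h3.congr_of_eventuallyEq hev (by
      rw [Function.comp_apply, hft t ht, e.left_inv hty.1])
    exact h5.congr_mfderiv (comp_dirR (D.restrictScalars ℝ) (X₀ (e (φ t y))))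
  have hgen : ∀ y ∈ N, genX E φ y =
      (mfderiv 𝓘(ℂ, E) 𝓘(ℂ, E) e.symm (e y) : E →L[ℂ] E) (X₀ (e y)) := by
    intro y hy
    have h1 := key y hy 0 ⟨le_rfl, ha⟩ (by rw [h.zero]; exact hy)
    rw [h.zero] at h1
    have h2 := h1.mfderivWithin (uniqueDiffWithinAt_Ici (0:ℝ)).uniqueMDiffWithinAt
    unfold genX
    rw [h2]
    exact dirR_one _
  refine ⟨a, N, ha, hNo, ⟨hqs, hz₀V⟩, fun y hy t ht hty => ?_, ?_⟩
  · rw [hgen _ hty]
    exact key y hy t ht hty
  · refine (hX₀.differentiableAt (hVo.mem_nhds hz₀V)).congr_of_eventuallyEq ?_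
    filter_upwards [hVo.mem_nhds hz₀V] with w hw
    have hwN : e.symm w ∈ N := ⟨e.map_target (hVt hw), by
      rw [mem_preimage, e.right_inv (hVt hw)]; exact hw⟩
    unfold vfChart
    have h1 := hgen _ hwN
    rw [e.right_inv (hVt hw)] at h1
    rw [h1]
    exact chart_comp_symm he (hVt hw) (X₀ w)

/-- the generator of a continuous one-parameter semigroup of holomorphic self-maps -/
theorem exists_generator (h : IsHolSemigroup E φ) :
    IsHolVectorField E (genX E φ) ∧ ∀ x, ∀ t ∈ Ici (0:ℝ), HasMFDerivWithinAt 𝓘(ℝ, ℝ) 𝓘(ℝ, E)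
      (fun t => φ t x) (Ici 0) t ((1 : ℝ →L[ℝ] ℝ).smulRight (genX E φ (φ t x)) : ℝ →L[ℝ] E) := by
  refine ⟨holVF_of_local fun q => ?_, fun x t₁ ht₁ => ?_⟩
  · obtain ⟨a, N, -, -, -, -, h2⟩ := exists_gen_local h q
    exact ⟨chartAt E q, chart_mem_maximalAtlas q, mem_chart_source E q, h2⟩
  · obtain ⟨a, N, ha, hNo, hqN, h1, -⟩ := exists_gen_local h (φ t₁ x)
    have ht₁' : 0 ≤ t₁ := ht₁
    rcases ht₁'.eq_or_lt with h0 | hpos
    · rw [← h0, h.zero] at hqN
      have h2 := h1 x hqN 0 ⟨le_rfl, ha⟩ (by rw [h.zero]; exact hqN)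
      rw [← h0]
      exact h2
    · have hΦ : Continuous (fun t : ℝ => φ (max t 0) x) :=
        h.cont.comp_continuous (f := fun t : ℝ => (max t 0, x)) (by fun_prop)
          fun p => ⟨show (0:ℝ) ≤ max p 0 from le_max_right _ _, mem_univ _⟩
      have hev : ∀ᶠ s in 𝓝[>] (0:ℝ), φ (max (t₁ - s) 0) x ∈ N ∧ s < min a t₁ := by
        have h3 : ContinuousAt (fun s : ℝ => φ (max (t₁ - s) 0) x) 0 :=
          (hΦ.comp (continuous_const.sub continuous_id)).continuousAt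
        have h4 : ∀ᶠ s in 𝓝 (0:ℝ), φ (max (t₁ - s) 0) x ∈ N := by
          refine h3.eventually (hNo.mem_nhds ?_)
          change φ (max (t₁ - 0) 0) x ∈ N
          rw [sub_zero, max_eq_left ht₁']
          exact hqN
        have h5 : ∀ᶠ s in 𝓝 (0:ℝ), s < min a t₁ := Iio_mem_nhds (lt_min ha hpos)
        exact (h4.and h5).filter_mono nhdsWithin_le_nhds
      obtain ⟨s, ⟨hsN, hs⟩, hs0⟩ := (hev.and self_mem_nhdsWithin).exists
      have hs0' : 0 < s := hs0
      have hsa : s < a := hs.trans_le (min_le_left _ _)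
      have hst : s < t₁ := hs.trans_le (min_le_right _ _)
      rw [max_eq_left (by linarith)] at hsN
      set y := φ (t₁ - s) x with hy
      have hsum : φ s y = φ t₁ x := by
        rw [hy, ← h.add s (t₁ - s) hs0'.le (by linarith), add_sub_cancel]
      have h5 := h1 y hsN s ⟨hs0'.le, hsa⟩ (by rw [hsum]; exact hqN)
      rw [hsum] at h5
      have h6 : HasMFDerivAt 𝓘(ℝ, ℝ) 𝓘(ℝ, E) (fun t => φ t y) s
          ((1 : ℝ →L[ℝ] ℝ).smulRight (genX E φ (φ t₁ x)) : ℝ →L[ℝ] E) :=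
        h5.hasMFDerivAt (Ici_mem_nhds hs0')
      have h7 : HasMFDerivAt 𝓘(ℝ, ℝ) 𝓘(ℝ, ℝ) (fun t : ℝ => t - (t₁ - s)) t₁
          (ContinuousLinearMap.id ℝ ℝ) :=
        ((hasFDerivAt_id (𝕜 := ℝ) t₁).sub_const (t₁ - s)).hasMFDerivAt
      have h6' : HasMFDerivAt 𝓘(ℝ, ℝ) 𝓘(ℝ, E) (fun t => φ t y) (t₁ - (t₁ - s))
          ((1 : ℝ →L[ℝ] ℝ).smulRight (genX E φ (φ t₁ x)) : ℝ →L[ℝ] E) := by
        rw [sub_sub_cancel]; exact h6
      have h8 : HasMFDerivAt 𝓘(ℝ, ℝ) 𝓘(ℝ, E) ((fun t => φ t y) ∘ fun t : ℝ => t - (t₁ - s)) t₁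
          (((1 : ℝ →L[ℝ] ℝ).smulRight (genX E φ (φ t₁ x))).comp (ContinuousLinearMap.id ℝ ℝ) :
            ℝ →L[ℝ] E) := h6'.comp t₁ h7
      rw [ContinuousLinearMap.comp_id] at h8
      have h9 : (fun t => φ t x) =ᶠ[𝓝 t₁] ((fun t => φ t y) ∘ fun t : ℝ => t - (t₁ - s)) := by
        filter_upwards [Ioi_mem_nhds (by linarith : t₁ - s < t₁)] with t ht
        have ht' : t₁ - s < t := ht
        rw [Function.comp_apply, hy, ← h.add (t - (t₁ - s)) (t₁ - s) (by linarith) (by linarith),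
          sub_add_cancel]
      exact (h8.congr_of_eventuallyEq h9).hasMFDerivWithinAt

end Vale.Agent.P253.R2.H445
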