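import Vale.Agent.P253.Bdl.B2

/-!
P253: the generator of a local semigroup of holomorphic maps of `ℂⁿ`.
-/

open scoped ContDiff Topology
open Set Metric Filter Vale.Agent.P253.Mfd MeasureTheory

set_option maxSynthPendingDepth 3
set_option linter.unusedSectionVars false

noncomputable section

namespace Vale.Agent.P253.R2.H445

variable {E : Type*} [NormedAddCommGroup E] [NormedSpace ℂ E] [FiniteDimensional ℂ E]

/-- an operator near the identity is invertible -/
theorem exists_equiv_of_near {A : E →L[ℂ] E} (hA : ‖A - ContinuousLinearMap.id ℂ E‖ ≤ 1 / 2) :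
    ∃ B : E ≃L[ℂ] E, (B : E →L[ℂ] E) = A := by
  have hCE : CompleteSpace E := FiniteDimensional.complete ℂ E
  have hinj : Function.Injective A := by
    refine (injective_iff_map_eq_zero A).2 fun v hv => ?_
    have h1 := (A - ContinuousLinearMap.id ℂ E).le_opNorm v
    rw [sub_apply, hv, ContinuousLinearMap.id_apply, zero_sub, norm_neg] at h1
    have h2 : ‖A - ContinuousLinearMap.id ℂ E‖ * ‖v‖ ≤ 1 / 2 * ‖v‖ := by gcongr
    have h3 : ‖v‖ ≤ 0 := by linarith
    exact norm_le_zero_iff.1 h3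
  refine ⟨(LinearEquiv.ofInjectiveEndo A.toLinearMap hinj).toContinuousLinearEquiv, ?_⟩
  ext v
  rfl

variable {z₀ : E} {r a : ℝ} {f : ℝ → E → E}

/-- derivative bounds -/
theorem fderiv_near (hr : 0 < r) (hd : ∀ t, DifferentiableOn ℂ (f t) (ball z₀ (2 * r)))
    (hcl : ∀ t, ∀ z ∈ ball z₀ (2 * r), ‖f t z - z‖ ≤ r / 8) (t : ℝ) {z : E}
    (hz : z ∈ ball z₀ (3 / 2 * r)) :
    ‖fderiv ℂ (f t) z - ContinuousLinearMap.id ℂ E‖ ≤ 1 / 2 := by
  have hCE : CompleteSpace E := FiniteDimensional.complete ℂ E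
  have hsub : closedBall z (r / 4) ⊆ ball z₀ (2 * r) := by
    refine closedBall_subset_ball' ?_
    rw [mem_ball] at hz
    linarith
  have hzU : z ∈ ball z₀ (2 * r) := hsub (mem_closedBall_self (by positivity))
  have hk : DifferentiableOn ℂ (fun w => f t w - w) (ball z₀ (2 * r)) :=
    (hd t).sub differentiableOn_id
  have h1 : fderiv ℂ (fun w => f t w - w) z = fderiv ℂ (f t) z - ContinuousLinearMap.id ℂ E :=
    ((((hd t).differentiableAt (isOpen_ball.mem_nhds hzU)).hasFDerivAt).sub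
      (hasFDerivAt_id z)).fderiv
  rw [← h1]
  refine ContinuousLinearMap.opNorm_le_bound _ (by norm_num) fun v => ?_
  have h2 := norm_fderiv_apply_le isOpen_ball hk (R := r / 4) (B := r / 8) (by positivity) hsub
    (fun y hy => hcl t y (hsub hy)) v
  refine h2.trans (le_of_eq ?_)
  field_simp
  ring

theorem continuous_slice (hc : ContinuousOn (fun q : ℝ × E => f q.1 q.2)
    (univ ×ˢ ball z₀ (2 * r))) {z : E} (hz : z ∈ ball z₀ (2 * r)) :
    Continuous fun t => f t z :=
  hc.comp_continuous (f := fun t : ℝ => (t, z)) (by fun_prop) fun t => ⟨mem_univ _, hz⟩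

/-- the derivative depends continuously on the time -/
theorem continuous_fderiv_slice (hr : 0 < r) (hc : ContinuousOn (fun q : ℝ × E => f q.1 q.2)
    (univ ×ˢ ball z₀ (2 * r))) (hd : ∀ t, DifferentiableOn ℂ (f t) (ball z₀ (2 * r)))
    {z : E} (hz : z ∈ ball z₀ (3 / 2 * r)) : Continuous fun t => fderiv ℂ (f t) z := by
  have hCE : CompleteSpace E := FiniteDimensional.complete ℂ E
  have hPE : ProperSpace E := FiniteDimensional.proper ℂ E
  have hsub : closedBall z (r / 4) ⊆ ball z₀ (2 * r) := by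
    refine closedBall_subset_ball' ?_
    rw [mem_ball] at hz
    linarith
  have hzU : z ∈ ball z₀ (2 * r) := hsub (mem_closedBall_self (by positivity))
  rw [continuous_iff_continuousAt]
  intro t₀
  rw [ContinuousAt, tendsto_iff_norm_sub_tendsto_zero, Metric.tendsto_nhds]
  intro ε hε
  have hev : ∀ᶠ t in 𝓝 t₀, ∀ y ∈ closedBall z (r / 4), ‖f t y - f t₀ y‖ ≤ ε / 2 * (r / 4) := by
    apply (isCompact_closedBall z (r / 4)).eventually_forall_of_forall_eventually
    intro y hy
    have h1 : ContinuousAt (fun q : ℝ × E => f q.1 q.2) (t₀, y) :=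
      hc.continuousAt ((isOpen_univ.prod isOpen_ball).mem_nhds ⟨mem_univ _, hsub hy⟩)
    have h2 : ContinuousAt (fun q : ℝ × E => f t₀ q.2) (t₀, y) := by
      have h3 : ContinuousAt (f t₀) y :=
        ((hd t₀).differentiableAt (isOpen_ball.mem_nhds (hsub hy))).continuousAt
      exact h3.comp (x := (t₀, y)) continuousAt_snd
    have h4 := (h1.sub h2).norm
    have h5 : ‖f (t₀, y).1 (t₀, y).2 - f t₀ (t₀, y).2‖ < ε / 2 * (r / 4) := by
      simp only [sub_self, norm_zero]
      positivity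
    filter_upwards [h4.eventually (Iio_mem_nhds h5)] with q hq
    exact le_of_lt hq
  filter_upwards [hev] with t ht
  have hk : DifferentiableOn ℂ (fun w => f t w - f t₀ w) (ball z₀ (2 * r)) := (hd t).sub (hd t₀)
  have h1 : fderiv ℂ (fun w => f t w - f t₀ w) z = fderiv ℂ (f t) z - fderiv ℂ (f t₀) z :=
    (((hd t).differentiableAt (isOpen_ball.mem_nhds hzU)).hasFDerivAt.sub
      ((hd t₀).differentiableAt (isOpen_ball.mem_nhds hzU)).hasFDerivAt).fderiv
  have h2 : ‖fderiv ℂ (f t) z - fderiv ℂ (f t₀) z‖ ≤ ε / 2 := by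
    rw [← h1]
    refine ContinuousLinearMap.opNorm_le_bound _ (by positivity) fun v => ?_
    have h2 := norm_fderiv_apply_le isOpen_ball hk (R := r / 4) (B := ε / 2 * (r / 4))
      (by positivity) hsub (fun y hy => ht y hy) v
    refine h2.trans (le_of_eq ?_)
    field_simp
  rw [dist_zero_right, norm_norm]
  linarith

/-- the generator of a local semigroup -/
theorem local_gen (hr : 0 < r) (ha : 0 < a) (hc : ContinuousOn (fun q : ℝ × E => f q.1 q.2)
    (univ ×ˢ ball z₀ (2 * r))) (hd : ∀ t, DifferentiableOn ℂ (f t) (ball z₀ (2 * r)))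
    (hcl : ∀ t, ∀ z ∈ ball z₀ (2 * r), ‖f t z - z‖ ≤ r / 8)
    (hadd : ∀ s t, 0 ≤ s → 0 ≤ t → s + t ≤ 2 * a → ∀ z ∈ ball z₀ r, f (s + t) z = f s (f t z)) :
    ∃ (X₀ : E → E) (V : Set E), IsOpen V ∧ z₀ ∈ V ∧ V ⊆ ball z₀ r ∧ DifferentiableOn ℂ X₀ V ∧
      ∀ z ∈ V, ∀ t ∈ Ico 0 a, f t z ∈ V →
        HasDerivWithinAt (fun t => f t z) (X₀ (f t z)) (Ici 0) t := by
  have hCE : CompleteSpace E := FiniteDimensional.complete ℂ E
  set W : Set E := ball z₀ (3 / 2 * r) with hW
  have hWU : W ⊆ ball z₀ (2 * r) := ball_subset_ball (by linarith)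
  have hVW : ball z₀ r ⊆ W := ball_subset_ball (by linarith)
  -- the mean
  set g : E → E := fun z => ∫ s in (0:ℝ)..a, f s z with hg
  have hgd : ∀ z ∈ W, HasFDerivAt g (∫ s in (0:ℝ)..a, fderiv ℂ (f s) z) z := by
    intro z hz
    refine intervalIntegral.hasFDerivAt_integral_of_dominated_of_fderiv_le
      (F' := fun y s => fderiv ℂ (f s) y) (bound := fun _ => 3 / 2)
      (isOpen_ball.mem_nhds hz) ?_ ?_ ?_ ?_ ?_ ?_
    · filter_upwards [isOpen_ball.mem_nhds hz] with y hy
      exact (continuous_slice hc (hWU hy)).aestronglyMeasurable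
    · exact (continuous_slice hc (hWU hz)).intervalIntegrable _ _
    · exact (continuous_fderiv_slice hr hc hd hz).aestronglyMeasurable
    · refine Filter.Eventually.of_forall fun s _ y hy => ?_
      have h1 := fderiv_near hr hd hcl s (z := y) hy
      calc ‖fderiv ℂ (f s) y‖ = ‖(fderiv ℂ (f s) y - ContinuousLinearMap.id ℂ E) +
            ContinuousLinearMap.id ℂ E‖ := by rw [sub_add_cancel]
        _ ≤ 1 / 2 + 1 := (norm_add_le _ _).trans (add_le_add h1 ContinuousLinearMap.norm_id_le)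
        _ = 3 / 2 := by norm_num
    · exact _root_.intervalIntegrable_const
    · exact Filter.Eventually.of_forall fun s _ y hy =>
        ((hd s).differentiableAt (isOpen_ball.mem_nhds (hWU hy))).hasFDerivAt
  have hz₀W : z₀ ∈ W := mem_ball_self (by positivity)
  -- the derivative of the mean is invertible
  obtain ⟨A, hA⟩ : ∃ A : E ≃L[ℂ] E,
      (A : E →L[ℂ] E) = (a⁻¹ : ℝ) • ∫ s in (0:ℝ)..a, fderiv ℂ (f s) z₀ := by
    apply exists_equiv_of_near
    have h1 : (a⁻¹ : ℝ) • (∫ s in (0:ℝ)..a, fderiv ℂ (f s) z₀) - ContinuousLinearMap.id ℂ E =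
        (a⁻¹ : ℝ) • ∫ s in (0:ℝ)..a, (fderiv ℂ (f s) z₀ - ContinuousLinearMap.id ℂ E) := by
      rw [intervalIntegral.integral_sub
        ((continuous_fderiv_slice hr hc hd hz₀W).intervalIntegrable _ _)
        _root_.intervalIntegrable_const, intervalIntegral.integral_const, sub_zero, smul_sub,
        smul_smul, inv_mul_cancel₀ ha.ne', one_smul]
    have h2 := intervalIntegral.norm_integral_le_of_norm_le_const (a := 0) (b := a) (C := 1 / 2)
      (f := fun s => fderiv ℂ (f s) z₀ - ContinuousLinearMap.id ℂ E)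
      (fun s _ => fderiv_near hr hd hcl s hz₀W)
    rw [h1, norm_smul, norm_inv, Real.norm_of_nonneg ha.le]
    rw [sub_zero, abs_of_pos ha] at h2
    calc a⁻¹ * ‖∫ s in (0:ℝ)..a, (fderiv ℂ (f s) z₀ - ContinuousLinearMap.id ℂ E)‖
        ≤ a⁻¹ * (1 / 2 * a) := by gcongr
      _ = 1 / 2 := by field_simp
  set ψ : E → E := fun z => A.symm ((a⁻¹ : ℝ) • g z) with hψ
  have hψd : ∀ z ∈ W, DifferentiableAt ℂ ψ z := fun z hz =>
    A.symm.differentiableAt.comp z ((hgd z hz).differentiableAt.const_smul (a⁻¹ : ℝ))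
  have hψ' : HasFDerivAt ψ (ContinuousLinearMap.id ℂ E) z₀ := by
    have h1 := (hgd z₀ hz₀W).const_smul (a⁻¹ : ℝ)
    rw [← hA] at h1
    have h2 := (A.symm : E →L[ℂ] E).hasFDerivAt.comp z₀ h1
    refine h2.congr_fderiv ?_
    ext v
    simp
  obtain ⟨Ψ, hΨ1, hΨ2, hΨ3, hΨ4⟩ := exists_inverse_chart (U := ball z₀ r) isOpen_ball
    (fun z hz => (hψd z (hVW hz)).differentiableWithinAt) (mem_ball_self hr) hψ'
  have hsymm : DifferentiableOn ℂ Ψ.symm Ψ.target := fun w hw =>
    ((hΨ4 w hw).differentiableAt (by simp)).differentiableWithinAt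
  have hfs : DifferentiableOn ℂ (fderiv ℂ Ψ.symm) Ψ.target :=
    ((contDiffOn_of_differentiableOn_complex Ψ.open_target hsymm).fderiv_of_isOpen Ψ.open_target
      (m := ∞) (by simp)).differentiableOn (by simp)
  refine ⟨fun y => fderiv ℂ Ψ.symm (ψ y) (A.symm ((a⁻¹ : ℝ) • (f a y - y))), Ψ.source,
    Ψ.open_source, hΨ1, hΨ2, ?_, ?_⟩
  · have h1 : DifferentiableOn ℂ ψ Ψ.source := fun z hz =>
      (hψd z (hVW (hΨ2 hz))).differentiableWithinAt
    have h2 : DifferentiableOn ℂ (fun y => fderiv ℂ Ψ.symm (ψ y)) Ψ.source :=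
      hfs.comp h1 (fun y hy => by rw [← hΨ3]; exact Ψ.map_source hy)
    have h3 : DifferentiableOn ℂ (fun y => A.symm ((a⁻¹ : ℝ) • (f a y - y))) Ψ.source := by
      have h4 : DifferentiableOn ℂ (fun y => f a y - y) Ψ.source :=
        ((hd a).mono (hΨ2.trans (hVW.trans hWU))).sub differentiableOn_id
      exact A.symm.differentiable.comp_differentiableOn (h4.const_smul (a⁻¹ : ℝ))
    exact h2.clm_apply h3
  · intro z hz t ht hft
    have hzr : z ∈ ball z₀ r := hΨ2 hz
    have hcont := continuous_slice hc (hWU (hVW hzr))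
    set H : ℝ → E := fun t => A.symm ((a⁻¹ : ℝ) • ∫ s in t..(a + t), f s z) with hH
    -- the semigroup law for the mean
    have hlaw0 : ∀ t' ∈ Ico 0 a, ψ (f t' z) = H t' := by
      intro t' ht'
      have h2 : g (f t' z) = ∫ s in t'..(a + t'), f s z := by
        have h3 : g (f t' z) = ∫ s in (0:ℝ)..a, f (s + t') z := by
          refine intervalIntegral.integral_congr fun s hs' => ?_
          rw [uIcc_of_le ha.le] at hs'
          exact (hadd s t' hs'.1 ht'.1 (by linarith [hs'.2, ht'.2]) z hzr).symm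
        rw [h3, intervalIntegral.integral_comp_add_right (fun s => f s z), zero_add]
      change A.symm ((a⁻¹ : ℝ) • g (f t' z)) = _
      rw [h2]
    have hlaw : ∀ t' ∈ Ico 0 a, f t' z ∈ Ψ.source → f t' z = Ψ.symm (H t') := by
      intro t' ht' hs
      rw [← hlaw0 t' ht', ← hΨ3, Ψ.left_inv hs]
    have hH' : HasDerivAt H (A.symm ((a⁻¹ : ℝ) • (f a (f t z) - f t z))) t := by
      have h1 : HasDerivAt (fun t : ℝ => ∫ s in (0:ℝ)..t, f s z) (f t z) t :=
        intervalIntegral.integral_hasDerivAt_right (hcont.intervalIntegrable _ _)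
          (hcont.stronglyMeasurableAtFilter _ _) hcont.continuousAt
      have h2 : HasDerivAt (fun t : ℝ => ∫ s in (0:ℝ)..t, f s z) (f (a + t) z) (a + t) :=
        intervalIntegral.integral_hasDerivAt_right (hcont.intervalIntegrable _ _)
          (hcont.stronglyMeasurableAtFilter _ _) hcont.continuousAt
      have h3 : HasDerivAt (fun t : ℝ => ∫ s in (0:ℝ)..(a + t), f s z) (f (a + t) z) t := by
        have h4 : HasDerivAt (fun t : ℝ => a + t) 1 t := (hasDerivAt_id t).const_add a
        have h5 := HasDerivAt.scomp t h2 h4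
        rw [one_smul] at h5
        exact h5
      have h6 : (fun t : ℝ => ∫ s in t..(a + t), f s z) =
          fun t : ℝ => (∫ s in (0:ℝ)..(a + t), f s z) - ∫ s in (0:ℝ)..t, f s z := by
        funext u
        rw [eq_sub_iff_add_eq, add_comm]
        exact intervalIntegral.integral_add_adjacent_intervals (hcont.intervalIntegrable _ _)
          (hcont.intervalIntegrable _ _)
      have h7 : f (a + t) z = f a (f t z) := hadd a t ha.le ht.1 (by linarith [ht.2]) z hzr
      have h8 := (h3.sub h1).const_smul (a⁻¹ : ℝ)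
      rw [h7] at h8
      have h9 : HasDerivAt (fun t : ℝ => (a⁻¹ : ℝ) • ∫ s in t..(a + t), f s z)
          ((a⁻¹ : ℝ) • (f a (f t z) - f t z)) t := by
        refine h8.congr_of_eventuallyEq (Eventually.of_forall fun u => ?_)
        have := congrFun h6 u
        simp only [Pi.smul_apply, Pi.sub_apply] at this ⊢
        rw [this]
      have h10 : HasFDerivAt (A.symm : E → E) ((A.symm : E →L[ℂ] E).restrictScalars ℝ)
          ((a⁻¹ : ℝ) • ∫ s in t..(a + t), f s z) :=
        (A.symm : E →L[ℂ] E).hasFDerivAt.restrictScalars ℝ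
      exact h10.comp_hasDerivAt t h9
    have hD : HasFDerivAt Ψ.symm ((fderiv ℂ Ψ.symm (ψ (f t z))).restrictScalars ℝ) (H t) := by
      rw [← hlaw0 t ht]
      have h2 : ψ (f t z) ∈ Ψ.target := by
        rw [← hΨ3]; exact Ψ.map_source hft
      exact ((hΨ4 _ h2).differentiableAt (by simp)).hasFDerivAt.restrictScalars ℝ
    have hfin := (hD.comp_hasDerivAt t hH').hasDerivWithinAt (s := Ici 0)
    refine hfin.congr_of_eventuallyEq ?_ (hlaw t ht hft)
    have h1 : ∀ᶠ t' in 𝓝 t, f t' z ∈ Ψ.source :=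
      hcont.continuousAt.eventually (Ψ.open_source.mem_nhds hft)
    filter_upwards [nhdsWithin_le_nhds h1, nhdsWithin_le_nhds (Iio_mem_nhds ht.2),
      self_mem_nhdsWithin] with t' h2 h3 h4
    exact hlaw t' ⟨h4, h3⟩ h2

end Vale.Agent.P253.R2.H445
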