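import Vale.Agent.P253.R2.H445.VF.Main

/-!
P253: uniformization by a one-parameter semigroup of holomorphic self-maps with a scalar fixed
point.
-/

open scoped Manifold ContDiff Topology Bundle
open Set Metric Complex Filter Bundle IsManifold Manifold Vale.Agent.P253.Mfd Vale.Agent.P253.CStar

set_option maxSynthPendingDepth 3
set_option linter.unusedSectionVars false

noncomputable section

namespace Vale.Agent.P253.R2.H445

section lin

variable {E : Type*} [NormedAddCommGroup E] [NormedSpace ℂ E] [FiniteDimensional ℂ E]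
  {M : Type*} [MetricSpace M] [ChartedSpace E M] [IsManifold 𝓘(ℂ, E) 1 M]
  {X : M → E} {p : M} {φ : ℝ → M → M}

theorem comp_dir_one (D : E →L[ℂ] E) (v : E) : (D.comp (dir v)) 1 = D v := by
  simp [dir]

/-- a map which sends `X` to the vector field `c z` is equivariant -/
theorem equiv_of_push (hX : IsHolVectorField E X) (hDS : DS X = univ) {F : M → E}
    (hF : MDifferentiable 𝓘(ℂ, E) 𝓘(ℂ, E) F) {c : ℂ}
    (h : ∀ x, (mfderiv 𝓘(ℂ, E) 𝓘(ℂ, E) F x : E →L[ℂ] E) (X x) = c • F x) (ζ : ℂ) (x : M) :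
    F (FS X ζ x) = exp (c * ζ) • F x := by
  have hk : ∀ ζ, HasDerivAt (fun ζ => F (FS X ζ x)) (c • F (FS X ζ x)) ζ := by
    intro ζ
    have h0 : OrbAt X (fun ζ => FS X ζ x) ζ :=
      orb_FS hX x ζ (by rw [mem_ofPred_eq, hDS]; exact mem_univ _)
    let D : E →L[ℂ] E := mfderiv 𝓘(ℂ, E) 𝓘(ℂ, E) F (FS X ζ x)
    have hD : HasMFDerivAt 𝓘(ℂ, E) 𝓘(ℂ, E) F (FS X ζ x) D := (hF _).hasMFDerivAt
    have h3 : HasMFDerivAt 𝓘(ℂ, ℂ) 𝓘(ℂ, E) (F ∘ fun ζ => FS X ζ x) ζ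
        (D.comp (dir (X (FS X ζ x))) : ℂ →L[ℂ] E) := hD.comp ζ h0
    have h4 : HasFDerivAt (F ∘ fun ζ => FS X ζ x) (D.comp (dir (X (FS X ζ x)))) ζ :=
      h3.hasFDerivAt
    have h5 := h4.hasDerivAt
    have h6 : (D.comp (dir (X (FS X ζ x)))) 1 = c • F (FS X ζ x) :=
      (comp_dir_one D (X (FS X ζ x))).trans (h (FS X ζ x))
    rw [h6] at h5
    exact h5
  have h1 : ∀ ζ, HasDerivAt (fun ζ => exp (-(c * ζ)) • F (FS X ζ x)) 0 ζ := by
    intro ζ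
    have h3 : HasDerivAt (fun ζ : ℂ => exp (-(c * ζ))) (exp (-(c * ζ)) * -c) ζ := by
      have h4 : HasDerivAt (fun ζ : ℂ => -(c * ζ)) (-c) ζ := by
        have := ((hasDerivAt_id' ζ).const_mul c).fun_neg
        simpa using this
      exact h4.cexp
    have h4 := h3.smul (hk ζ)
    have h5 : exp (-(c * ζ)) • c • F (FS X ζ x) + (exp (-(c * ζ)) * -c) • F (FS X ζ x) = 0 := by
      rw [smul_smul, ← add_smul]
      have : exp (-(c * ζ)) * c + exp (-(c * ζ)) * -c = 0 := by ring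
      rw [this, zero_smul]
    rw [h5] at h4
    exact h4
  have h2 := is_const_of_deriv_eq_zero (fun ζ => (h1 ζ).differentiableAt) (fun ζ => (h1 ζ).deriv)
    ζ 0
  simp only [mul_zero, neg_zero, exp_zero, one_smul, FS_zero hX] at h2
  calc F (FS X ζ x) = (exp (c * ζ) * exp (-(c * ζ))) • F (FS X ζ x) := by
        rw [← exp_add, add_neg_cancel, exp_zero, one_smul]
    _ = exp (c * ζ) • (exp (-(c * ζ)) • F (FS X ζ x)) := by rw [mul_smul]
    _ = exp (c * ζ) • F x := by rw [h2]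

/-- the generator at a fixed point where the differentials are scalar -/
theorem source_of_scalar [IsManifold 𝓘(ℝ, E) ∞ M] (hX : IsHolVectorField E X)
    (hDS : DS X = univ) (hφ : ∀ t : ℝ, 0 ≤ t → ∀ x, FS X t x = φ t x) {c : ℂ} (hc : c ≠ 0)
    (hfix : ∀ t : ℝ, 0 ≤ t → φ t p = p)
    (hder : ∀ t : ℝ, 0 ≤ t → ∀ v : E,
      (mfderiv 𝓘(ℂ, E) 𝓘(ℂ, E) (φ t) p : E → E) v = exp (c * t) • v) :
    IsPeriodicSource E X p c (c • ContinuousLinearMap.id ℂ E) := by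
  obtain ⟨hflow, horb⟩ := exists_cflow_of_univ hX hDS
  have he : chartAt E p ∈ maximalAtlas 𝓘(ℂ, E) 1 M := chart_mem_maximalAtlas p
  have hps : p ∈ (chartAt E p).source := mem_chart_source E p
  set e := chartAt E p with hedef
  have hfixζ : ∀ ζ, FS X ζ p = p := by
    intro ζ
    have h1 : (fun ζ => FS X ζ p) = fun _ : ℂ => p :=
      H156.eq_of_eq_real (E := E) (fun ζ => orb_mdiff (horb p) (mem_univ ζ))
        (fun ζ => mdifferentiableAt_const) (fun t ht => by rw [hφ t ht, hfix t ht])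
    exact congrFun h1 ζ
  have hX0 : X p = 0 := by
    have h1 : HasMFDerivAt 𝓘(ℂ, ℂ) 𝓘(ℂ, E) (fun ζ => FS X ζ p) 0 (dir (X p) : ℂ →L[ℂ] E) := by
      have h2 : OrbAt X (fun ζ => FS X ζ p) 0 := horb p 0 (mem_univ 0)
      unfold OrbAt at h2
      simp only [FS_zero hX] at h2
      exact h2
    have h2 : (fun ζ => FS X ζ p) = fun _ : ℂ => p := funext hfixζ
    rw [h2] at h1
    have h3 : HasMFDerivAt 𝓘(ℂ, ℂ) 𝓘(ℂ, E) (fun _ : ℂ => p) 0 (0 : ℂ →L[ℂ] E) :=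
      hasMFDerivAt_const p 0
    have h4 : (dir (X p) : ℂ →L[ℂ] E) = 0 := hasMFDerivAt_unique h1 h3
    have h5 := congrArg (fun A : ℂ →L[ℂ] E => A 1) h4
    simpa [dir] using h5
  have hL : HasFDerivAt (vfChart E X e) (fderiv ℂ (vfChart E X e) (e p)) (e p) :=
    ((hX e he).differentiableAt (e.open_target.mem_nhds (e.map_source hps))).hasFDerivAt
  set L := fderiv ℂ (vfChart E X e) (e p) with hLdef
  let D : E →L[ℂ] E := mfderiv 𝓘(ℂ, E) 𝓘(ℂ, E) e p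
  let D' : E →L[ℂ] E := mfderiv 𝓘(ℂ, E) 𝓘(ℂ, E) e.symm (e p)
  have hDD' : ∀ w, D (D' w) = w := by
    intro w
    have h1 := chart_comp_symm he (e.map_source hps) w
    rw [e.left_inv hps] at h1
    exact h1
  have hJ : ∀ t : ℝ, 0 ≤ t → ∀ w, H618.J (FS X) e p t w = exp (c * t) • w := by
    intro t ht w
    have h1 : (mfderiv 𝓘(ℂ, E) 𝓘(ℂ, E) (FS X t) p : E → E) (D' w) =
        D' (H618.J (FS X) e p t (D (D' w))) := H618.mfderiv_flow hflow he hfixζ hps t (D' w)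
    have h2 : FS X t = φ t := funext (hφ t ht)
    rw [hDD', h2, hder t ht] at h1
    have h3 : D' (exp (c * t) • w) = D' (H618.J (FS X) e p t w) := by
      rw [map_smul]; exact h1
    have h4 := congrArg D h3
    rw [hDD', hDD'] at h4
    exact h4.symm
  have hLc : L = c • ContinuousLinearMap.id ℂ E := by
    ext w
    have h1 := H618.hasDerivAt_J_zero hflow horb he hfixζ hps hL w
    have h2 : HasDerivAt (fun t : ℝ => H618.J (FS X) e p (t:ℂ) w) (L w) 0 := by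
      have h3 : HasDerivAt (fun t : ℝ => (t:ℂ)) 1 0 := (hasDerivAt_id (0:ℝ)).ofReal_comp
      have h1' : HasDerivAt (fun ζ => H618.J (FS X) e p ζ w) (L w) ((0:ℝ):ℂ) := by
        rw [ofReal_zero]; exact h1
      have h4 := HasDerivAt.scomp (0:ℝ) h1' h3
      rw [one_smul] at h4
      exact h4
    have h5 : HasDerivAt (fun t : ℝ => exp (c * t) • w) (c • w) 0 := by
      have h6 : HasDerivAt (fun t : ℝ => exp (c * t)) c 0 := by
        have h7 : HasDerivAt (fun t : ℝ => c * (t:ℂ)) c 0 := by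
          have := ((hasDerivAt_id (0:ℝ)).ofReal_comp).const_mul c
          simpa using this
        simpa using h7.cexp
      exact h6.smul_const w
    have h8 : HasDerivWithinAt (fun t : ℝ => H618.J (FS X) e p (t:ℂ) w) (c • w) (Ici 0) 0 :=
      h5.hasDerivWithinAt.congr (fun t ht => hJ t ht w) (hJ 0 le_rfl w)
    exact (uniqueDiffWithinAt_Ici (0:ℝ)).eq_deriv _ h2.hasDerivWithinAt h8
  rw [hLc] at hL
  exact ⟨hc, e, he, hps, Or.inr ⟨rfl, hX0, hL⟩⟩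

end lin

variable {E : Type*} [NormedAddCommGroup E] [NormedSpace ℂ E] [FiniteDimensional ℂ E]
  {M : Type*} [MetricSpace M] [ChartedSpace E M]
  [IsManifold 𝓘(ℂ, E) 1 M] [IsManifold 𝓘(ℝ, E) ∞ M]
  [RiemannianBundle (fun x : M => TangentSpace 𝓘(ℝ, E) x)]
  [IsContMDiffRiemannianBundle 𝓘(ℝ, E) ∞ E (fun x : M => TangentSpace 𝓘(ℝ, E) x)]
  [IsRiemannianManifold 𝓘(ℝ, E) M]
  {X : M → E} {p : M} {φ : ℝ → M → M}

/-- unique extension of semigroups -/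
theorem existsUnique_semigroup (hK : IsKahler E M) [CompleteSpace M] [ConnectedSpace M]
    (hnn : ∀ x : M, NonnegBisectionalAt E x) (h : IsHolSemigroup E φ) :
    ∃! ψ : ℂ → M → M, IsHolCFlow E ψ ∧ ∀ t : ℝ, 0 ≤ t → ∀ x, ψ t x = φ t x := by
  obtain ⟨hX, hDS, hφ⟩ := semigroup_data hK hnn h
  obtain ⟨h1, h2⟩ := exists_cflow_of_univ hX hDS
  refine ⟨FS (genX E φ), ⟨h1, hφ⟩, fun ψ hψ => ?_⟩
  funext ζ x
  have h3 : (fun ζ => ψ ζ x) = fun ζ => FS (genX E φ) ζ x := by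
    refine H156.eq_of_eq_real (E := E) (fun ζ => ?_) (fun ζ => orb_mdiff (h2 x) (mem_univ ζ))
      (fun t ht => by rw [hψ.2 t ht, hφ t ht])
    have h4 : ContMDiff 𝓘(ℂ, ℂ) 𝓘(ℂ, E) 1 (fun ζ => ψ ζ x) :=
      hψ.1.holo.comp (contMDiff_id.prodMk contMDiff_const)
    exact (h4.mdifferentiable (by simp)) ζ
  exact congrFun h3 ζ

/-- uniformization by a semigroup -/
theorem semigroup_unif (hK : IsKahler E M) [CompleteSpace M] [NoncompactSpace M]
    [ConnectedSpace M] (hnn : ∀ x : M, NonnegBisectionalAt E x) (h : IsHolSemigroup E φ) {c : ℂ}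
    (hc : c ≠ 0) (hp : ∀ t : ℝ, 0 ≤ t → φ t p = p ∧ ∀ v : E,
      (mfderiv 𝓘(ℂ, E) 𝓘(ℂ, E) (φ t) p : E → E) v = exp (c * t) • v)
    (hcase : PosBisectionalAt E p ∨ ∀ x, p ∈ closure ((fun t => φ t x) '' Ici 0)) :
    ∃ F : M ≃ₘ^1⟮𝓘(ℂ, E), 𝓘(ℂ, E)⟯ E, F p = 0 ∧
      ∀ t : ℝ, 0 ≤ t → ∀ x : M, F (φ t x) = exp (c * t) • F x := by
  obtain ⟨hX, hDS, hφ⟩ := semigroup_data hK hnn h
  have hs := source_of_scalar hX hDS hφ hc (fun t ht => (hp t ht).1) (fun t ht => (hp t ht).2)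
  obtain ⟨F, h0, h1⟩ := unif_main hK hnn hX hDS hs (hcase.imp id fun hcl x => by
    refine closure_mono ?_ (hcl x)
    rintro _ ⟨t, ht, rfl⟩
    exact ⟨(t:ℂ), hφ t ht x⟩)
  refine ⟨F, h0, fun t ht x => ?_⟩
  rw [← hφ t ht]
  exact equiv_of_push hX hDS (F.contMDiff.mdifferentiable (by simp)) (fun x => h1 x) t x

/-- scalar contractions of a manifold biholomorphic to `ℂⁿ` -/
theorem semigroup_of_diffeo (F : M ≃ₘ^1⟮𝓘(ℂ, E), 𝓘(ℂ, E)⟯ E) :
    ∃ (φ : ℝ → M → M) (p : M), IsHolSemigroup E φ ∧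
      (∀ t : ℝ, 0 ≤ t → φ t p = p ∧ ∀ v : E,
        (mfderiv 𝓘(ℂ, E) 𝓘(ℂ, E) (φ t) p : E → E) v = exp (-(t:ℂ)) • v) ∧
      ∀ x, Tendsto (fun t => φ t x) atTop (𝓝 p) := by
  have hsymmc : Continuous F.symm := F.symm.contMDiff.continuous
  have hFc : Continuous F := F.contMDiff.continuous
  refine ⟨fun t x => F.symm (exp (-(t:ℂ)) • F x), F.symm 0, ⟨?_, ?_, ?_, ?_⟩, ?_, ?_⟩
  · intro x
    simp
  · intro s t _ _ x
    simp only [F.apply_symm_apply, smul_smul]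
    congr 2
    rw [← exp_add]
    congr 1
    push_cast
    ring
  · apply Continuous.continuousOn
    have h1 : Continuous fun q : ℝ × M => exp (-(q.1:ℂ)) • F q.2 := by fun_prop
    exact hsymmc.comp h1
  · intro t _
    have h1 : ContMDiff 𝓘(ℂ, E) 𝓘(ℂ, E) 1 (fun z : E => exp (-(t:ℂ)) • z) :=
      (contDiff_const_smul (exp (-(t:ℂ)))).contMDiff
    exact (F.symm.contMDiff.comp (h1.comp F.contMDiff)).mdifferentiable (by simp)
  · intro t _
    refine ⟨by simp, fun v => ?_⟩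
    let D : E →L[ℂ] E := mfderiv 𝓘(ℂ, E) 𝓘(ℂ, E) F (F.symm 0)
    let D' : E →L[ℂ] E := mfderiv 𝓘(ℂ, E) 𝓘(ℂ, E) F.symm 0
    have hD : HasMFDerivAt 𝓘(ℂ, E) 𝓘(ℂ, E) F (F.symm 0) D :=
      (F.contMDiff.mdifferentiable (by simp) _).hasMFDerivAt
    have hD' : HasMFDerivAt 𝓘(ℂ, E) 𝓘(ℂ, E) F.symm 0 D' :=
      (F.symm.contMDiff.mdifferentiable (by simp) _).hasMFDerivAt
    have hF0 : F (F.symm 0) = 0 := F.apply_symm_apply 0
    have hinv : D'.comp D = ContinuousLinearMap.id ℂ E := by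
      have h1 : HasMFDerivAt 𝓘(ℂ, E) 𝓘(ℂ, E) F.symm (F (F.symm 0)) D' := by rw [hF0]; exact hD'
      have h2 : HasMFDerivAt 𝓘(ℂ, E) 𝓘(ℂ, E) (F.symm ∘ F) (F.symm 0) (D'.comp D) := h1.comp _ hD
      have h3 : (F.symm ∘ F : M → M) = id := funext fun x => F.symm_apply_apply x
      rw [h3] at h2
      exact hasMFDerivAt_unique h2 (hasMFDerivAt_id _)
    let S : E →L[ℂ] E := exp (-(t:ℂ)) • ContinuousLinearMap.id ℂ E
    have hS : HasMFDerivAt 𝓘(ℂ, E) 𝓘(ℂ, E) (fun z : E => exp (-(t:ℂ)) • z) (F (F.symm 0)) S :=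
      ((hasFDerivAt_id (𝕜 := ℂ) (F (F.symm 0))).const_smul (exp (-(t:ℂ)))).hasMFDerivAt
    have h1 : HasMFDerivAt 𝓘(ℂ, E) 𝓘(ℂ, E) ((fun z : E => exp (-(t:ℂ)) • z) ∘ F) (F.symm 0)
        (S.comp D) := hS.comp _ hD
    have h2 : HasMFDerivAt 𝓘(ℂ, E) 𝓘(ℂ, E) F.symm
        (((fun z : E => exp (-(t:ℂ)) • z) ∘ F) (F.symm 0)) D' := by
      have h0' : ((fun z : E => exp (-(t:ℂ)) • z) ∘ F) (F.symm 0) = 0 := by
        change exp (-(t:ℂ)) • F (F.symm 0) = 0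
        rw [hF0, smul_zero]
      rw [h0']
      exact hD'
    have h3 : HasMFDerivAt 𝓘(ℂ, E) 𝓘(ℂ, E) (F.symm ∘ ((fun z : E => exp (-(t:ℂ)) • z) ∘ F))
        (F.symm 0) (D'.comp (S.comp D)) := h2.comp _ h1
    have h4 : (mfderiv 𝓘(ℂ, E) 𝓘(ℂ, E) (fun x => F.symm (exp (-(t:ℂ)) • F x)) (F.symm 0) :
        E →L[ℂ] E) = D'.comp (S.comp D) := h3.mfderiv
    have h5 : (mfderiv 𝓘(ℂ, E) 𝓘(ℂ, E) (fun x => F.symm (exp (-(t:ℂ)) • F x)) (F.symm 0) :
        E →L[ℂ] E) v = exp (-(t:ℂ)) • (D'.comp D) v := by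
      rw [h4]
      change D' (exp (-(t:ℂ)) • D v) = exp (-(t:ℂ)) • D' (D v)
      exact map_smul D' _ _
    rw [hinv] at h5
    exact h5
  · intro x
    have h2 : Tendsto (fun t : ℝ => exp (-(t:ℂ)) • F x) atTop (𝓝 0) := by
      have h3 : Tendsto (fun t : ℝ => exp (-(t:ℂ))) atTop (𝓝 0) := by
        have h4 : Tendsto (fun t : ℝ => Real.exp (-t)) atTop (𝓝 0) :=
          Real.tendsto_exp_neg_atTop_nhds_zero
        have h5 := (continuous_ofReal.tendsto 0).comp h4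
        simpa [Function.comp_def] using h5
      simpa using h3.smul_const (F x)
    exact (hsymmc.tendsto 0).comp h2

end Vale.Agent.P253.R2.H445
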