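import Vale.Agent.P253.R2.H445.VF.Inst
import Vale.Agent.P253.CStar.Global
import Vale.Agent.P253.H577.Rig

/-!
P253: complete holomorphic vector fields with a periodic source.
-/

open scoped Manifold ContDiff Topology Bundle
open Set Metric Complex Filter IsManifold Vale.Agent.P253.Mfd Vale.Agent.P253.CStar

set_option maxSynthPendingDepth 3
set_option linter.unusedSectionVars false

noncomputable section

namespace Vale.Agent.P253.R2.H445

variable {E : Type*} [NormedAddCommGroup E] [NormedSpace ℂ E] [FiniteDimensional ℂ E]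
  {M : Type*} [MetricSpace M] [ChartedSpace E M] [IsManifold 𝓘(ℂ, E) 1 M]
  {X : M → E} {e : OpenPartialHomeomorph M E} {p : M}

/-- the multiple of a vector field -/
def smX (c : ℂ) (X : M → E) : M → E := fun x => c • X x

theorem vfChart_smX (c : ℂ) (z : E) : vfChart E (smX c X) e z = c • vfChart E X e z := by
  unfold vfChart smX
  exact map_smul (mfderiv 𝓘(ℂ, E) 𝓘(ℂ, E) e (e.symm z) : E →L[ℂ] E) c (X (e.symm z))

theorem holVF_smX (hX : IsHolVectorField E X) (c : ℂ) : IsHolVectorField E (smX c X) := by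
  intro e he
  have h1 : vfChart E (smX c X) e = fun z => c • vfChart E X e z := funext fun z => vfChart_smX c z
  rw [h1]
  exact (hX e he).const_smul c

theorem smX_smX (c d : ℂ) : smX c (smX d X) = smX (c * d) X := by
  funext x
  simp only [smX, smul_smul]

theorem smX_one : smX 1 X = X := by
  funext x
  simp only [smX, one_smul]

theorem orb_scale (c : ℂ) {f : ℂ → M} {s : Set ℂ} (h : IsOrbitOn E X f s) :
    IsOrbitOn E (smX c X) (fun ζ => f (c * ζ)) {ζ | c * ζ ∈ s} := by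
  intro ζ hζ
  have h1 : HasMFDerivAt 𝓘(ℂ, ℂ) 𝓘(ℂ, ℂ) (fun ζ : ℂ => c * ζ) ζ
      (c • ContinuousLinearMap.id ℂ ℂ : ℂ →L[ℂ] ℂ) := by
    have := (hasFDerivAt_id (𝕜 := ℂ) ζ).const_smul c
    exact this.hasMFDerivAt
  have h0 : HasMFDerivAt 𝓘(ℂ, ℂ) 𝓘(ℂ, E) f (c * ζ) (dir (X (f (c * ζ))) : ℂ →L[ℂ] E) :=
    h (c * ζ) hζ
  have h2 : HasMFDerivAt 𝓘(ℂ, ℂ) 𝓘(ℂ, E) (f ∘ fun ζ : ℂ => c * ζ) ζ
      ((dir (X (f (c * ζ)))).comp (c • ContinuousLinearMap.id ℂ ℂ) : ℂ →L[ℂ] E) := h0.comp ζ h1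
  refine h2.congr_mfderiv ?_
  ext
  simp [dir, smX]
  exact (one_smul ℂ _).symm

theorem DS_smX (hX : IsHolVectorField E X) (c : ℂ) (h : DS X = univ) : DS (smX c X) = univ ∧
    ∀ ζ x, FS (smX c X) ζ x = FS X (c * ζ) x := by
  have key : ∀ ζ x, (ζ, x) ∈ DS (smX c X) ∧ FS (smX c X) ζ x = FS X (c * ζ) x := by
    intro ζ x
    have h1 := orb_scale c (orb_mono (orb_FS hX x) (t := univ) (fun ζ _ => by
      rw [mem_ofPred_eq, h]; exact mem_univ _))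
    refine DS_of_open (holVF_smX hX c) (W := {ζ : ℂ | c * ζ ∈ univ}) ?_
      (fun s _ => mem_univ _) h1 ?_
    · simp
    · simp only [mul_zero, FS_zero hX]
  exact ⟨eq_univ_of_forall fun q => (key q.1 q.2).1, fun ζ x => (key ζ x).2⟩

theorem DS_of_smX (hX : IsHolVectorField E X) {c : ℂ} (hc : c ≠ 0)
    (h : DS (smX c X) = univ) : DS X = univ := by
  have h1 := (DS_smX (holVF_smX hX c) c⁻¹ h).1
  rwa [smX_smX, inv_mul_cancel₀ hc, smX_one] at h1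

variable {ι : Type*} [Fintype ι] {φ : E ≃L[ℂ] (ι → ℂ)} {m : ι → ℝ}

theorem convex_halfSpace_re_lt' (N : ℝ) : Convex ℝ {ζ : ℂ | ζ.re < N} :=
  (convex_Iio N).is_linear_preimage (f := re) ⟨add_re, fun c z => by simp⟩

theorem norm_LE_lt (hm : ∀ j, 0 < m j) {N : ℝ} (hN : 0 ≤ N) {ζ : ℂ} (hζ : ζ.re < N) (z : E) :
    ‖φ (LE φ m ζ z)‖ ≤ Real.exp (N * ∑ j, m j) * ‖φ z‖ := by
  have hMm0 : 0 ≤ ∑ j, m j := Finset.sum_nonneg fun j _ => (hm j).le
  have h1 : ζ = ((ζ.im : ℝ) : ℂ) * I + ((ζ.re : ℝ) : ℂ) := by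
    rw [add_comm]; exact (re_add_im ζ).symm
  have h2 : LE φ m ζ z = LE φ m (((ζ.im : ℝ) : ℂ) * I) (LE φ m ((ζ.re : ℝ) : ℂ) z) := by
    conv_lhs => rw [h1]
    rw [LE_add]
  rw [h2, norm_LE_I]
  rcases le_total 0 ζ.re with h | h
  · refine (norm_LE_nonneg hm h z).trans ?_
    gcongr
  · refine (norm_LE_nonpos' hm h z).trans ?_
    have : 1 ≤ Real.exp (N * ∑ j, m j) := Real.one_le_exp (by positivity)
    nlinarith [norm_nonneg (φ z)]

/-- the flow near a linear source -/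
theorem FS_linear (hX : IsHolVectorField E X) (he : e ∈ maximalAtlas 𝓘(ℂ, E) 1 M)
    (hps : p ∈ e.source) (hep : e p = 0) (hm : ∀ j, 0 < m j)
    (hv : ∀ z ∈ e.target, vfChart E X e z = AE φ m z) {N : ℝ} (hN : 0 < N) :
    ∀ᶠ x in 𝓝 p, x ∈ e.source ∧ ∀ ζ : ℂ, ζ.re < N → (ζ, x) ∈ DS X ∧
      LE φ m ζ (e x) ∈ e.target ∧ FS X ζ x = e.symm (LE φ m ζ (e x)) := by
  have h0t : (0 : E) ∈ e.target := hep ▸ e.map_source hps
  obtain ⟨δ, hδ, hδt⟩ : ∃ δ > 0, ∀ z : E, ‖φ z‖ < δ → z ∈ e.target := by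
    have h1 : φ.symm ⁻¹' e.target ∈ 𝓝 (0 : ι → ℂ) := by
      apply φ.symm.continuous.continuousAt.preimage_mem_nhds
      rw [map_zero]
      exact e.open_target.mem_nhds h0t
    obtain ⟨δ, hδ, h2⟩ := Metric.nhds_basis_ball.mem_iff.1 h1
    refine ⟨δ, hδ, fun z hz => ?_⟩
    have h3 := h2 (show φ z ∈ ball 0 δ by simpa using hz)
    simpa using h3
  set B := Real.exp (N * ∑ j, m j) with hB
  have hBpos : 0 < B := Real.exp_pos _
  have hcont : ContinuousAt (fun x => ‖φ (e x)‖) p :=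
    (φ.continuous.norm.continuousAt).comp (e.continuousAt hps)
  have hsmall : ∀ᶠ x in 𝓝 p, ‖φ (e x)‖ < δ / B := by
    refine hcont.eventually (p := fun r : ℝ => r < δ / B) ?_
    simp only [hep, map_zero, norm_zero]
    exact Iio_mem_nhds (by positivity)
  filter_upwards [hsmall, e.open_source.mem_nhds hps] with x hx hxs
  have hin : ∀ ζ : ℂ, ζ.re < N → LE φ m ζ (e x) ∈ e.target := by
    intro ζ hζ
    apply hδt
    calc ‖φ (LE φ m ζ (e x))‖ ≤ B * ‖φ (e x)‖ := norm_LE_lt hm hN.le hζ _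
      _ < B * (δ / B) := by gcongr
      _ = δ := by field_simp
  have horb : IsOrbitOn E X (fun ζ => e.symm (LE φ m ζ (e x))) {ζ : ℂ | ζ.re < N} := by
    intro ζ hζ
    refine orbit_of_chart he (k := fun ζ => LE φ m ζ (e x)) ?_ (hin ζ hζ)
    rw [hv _ (hin ζ hζ)]
    exact hasDerivAt_LE ζ (e x)
  refine ⟨hxs, fun ζ hζ => ?_⟩
  have h1 := DS_conv hX (U := {ζ : ℂ | ζ.re < N}) (x := x)
    (isOpen_lt continuous_re continuous_const) (convex_halfSpace_re_lt' N)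
    (by simpa using hN) horb (by
      change e.symm (LE φ m 0 (e x)) = x
      rw [LE_zero, e.left_inv hxs]) hζ
  exact ⟨h1.1, hin ζ hζ, h1.2⟩

theorem LE_period {m : ι → ℕ} (z : E) :
    LE φ (fun j => (m j : ℝ)) (2 * Real.pi * I) z = z := by
  apply ext_coord (φ := φ)
  intro j
  rw [LE_coord]
  have h1 : 2 * (Real.pi : ℂ) * I * (((m j : ℕ) : ℝ) : ℂ) = ((m j : ℕ) : ℂ) * (2 * Real.pi * I) := by
    push_cast; ring
  rw [h1, exp_nat_mul_two_pi_mul_I, one_mul]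

theorem LE_trans_apply (D : E ≃L[ℂ] E) (ζ : ℂ) (v : E) :
    LE (D.trans φ) m ζ v = D.symm (LE φ m ζ (D v)) := by
  unfold Vale.Agent.P253.Mfd.LE
  rfl

/-- the flow of a complete vector field with a periodic source -/
theorem holC_of_source [ConnectedSpace M] [IsManifold 𝓘(ℝ, E) ∞ M] (hX : IsHolVectorField E X)
    (hDS : DS X = univ) (he : e ∈ maximalAtlas 𝓘(ℂ, E) 1 M)
    (hps : p ∈ e.source) (hep : e p = 0) {m : ι → ℕ} (hm : ∀ j, 0 < m j)
    (hv : ∀ z ∈ e.target, vfChart E X e z = AE φ (fun j => (m j : ℝ)) z) :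
    HolC E (FS X) ∧ (∀ ζ, FS X ζ p = p) ∧
      ∃ D : E ≃L[ℂ] E, ∀ (ζ : ℂ) (v : E),
        (mfderiv 𝓘(ℂ, E) 𝓘(ℂ, E) (FS X ζ) p : E → E) v = LE (D.trans φ) (fun j => (m j : ℝ)) ζ v := by
  obtain ⟨hflow, horb⟩ := exists_cflow_of_univ hX hDS
  have hm' : ∀ j, 0 < ((m j : ℕ) : ℝ) := fun j => by exact_mod_cast hm j
  have hloc := fun N (hN : (0:ℝ) < N) => FS_linear hX he hps hep hm' hv hN
  have hfix : ∀ ζ, FS X ζ p = p := by
    intro ζ
    have h1 := ((hloc (|ζ.re| + 1) (by positivity)).self_of_nhds.2 ζ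
      (by have := le_abs_self ζ.re; linarith)).2.2
    rw [h1, hep, LE_zero_right, ← hep, e.left_inv hps]
  have hmd : ∀ ζ : ℂ, MDifferentiable 𝓘(ℂ, E) 𝓘(ℂ, E) (FS X ζ) := fun ζ x =>
    mdiff_FS_slice hX (hDS ▸ mem_univ (ζ, x))
  refine ⟨⟨hflow.zero, hflow.add, fun x => ?_, hflow.holo⟩, hfix, ?_⟩
  · refine Vale.Agent.P253.H577.eq_id_of_eventually (hmd _) (p := p) ?_ x
    filter_upwards [hloc 1 one_pos] with y hy
    rw [(hy.2 (2 * Real.pi * I) (by simp)).2.2, LE_period, e.left_inv hy.1]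
  · let D : E →L[ℂ] E := mfderiv 𝓘(ℂ, E) 𝓘(ℂ, E) e p
    let D' : E →L[ℂ] E := mfderiv 𝓘(ℂ, E) 𝓘(ℂ, E) e.symm (e p)
    have h0t : e p ∈ e.target := e.map_source hps
    have hD : HasMFDerivAt 𝓘(ℂ, E) 𝓘(ℂ, E) e p D := (mdiff_chart he hps).hasMFDerivAt
    have hD' : HasMFDerivAt 𝓘(ℂ, E) 𝓘(ℂ, E) e.symm (e p) D' := (mdiff_chart_symm he h0t).hasMFDerivAt
    have hD0 : HasMFDerivAt 𝓘(ℂ, E) 𝓘(ℂ, E) e (e.symm (e p)) D := by
      rw [e.left_inv hps]; exact hD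
    have h8 : (e.symm ∘ e) =ᶠ[𝓝 p] id := by
      filter_upwards [e.open_source.mem_nhds hps] with y hy
      exact e.left_inv hy
    have h9 : D'.comp D = ContinuousLinearMap.id ℂ E :=
      hasMFDerivAt_unique (hD'.comp p hD : HasMFDerivAt 𝓘(ℂ, E) 𝓘(ℂ, E) (e.symm ∘ e) p (D'.comp D))
        ((hasMFDerivAt_id _).congr_of_eventuallyEq h8)
    have h8' : (e ∘ e.symm) =ᶠ[𝓝 (e p)] id := by
      filter_upwards [e.open_target.mem_nhds h0t] with y hy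
      exact e.right_inv hy
    have h9' : D.comp D' = ContinuousLinearMap.id ℂ E :=
      hasMFDerivAt_unique (hD0.comp (e p) hD' :
          HasMFDerivAt 𝓘(ℂ, E) 𝓘(ℂ, E) (e ∘ e.symm) (e p) (D.comp D'))
        ((hasMFDerivAt_id _).congr_of_eventuallyEq h8')
    have hl : Function.LeftInverse D' D := fun v => congrArg (fun A : E →L[ℂ] E => A v) h9
    have hr : Function.RightInverse D' D := fun v => congrArg (fun A : E →L[ℂ] E => A v) h9'
    refine ⟨ContinuousLinearEquiv.equivOfInverse D D' hl hr, fun ζ v => ?_⟩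
    rw [LE_trans_apply]
    let L : E →L[ℂ] E := LEL φ (fun j => (m j : ℝ)) ζ
    have hL : HasMFDerivAt 𝓘(ℂ, E) 𝓘(ℂ, E) (LE φ (fun j => (m j : ℝ)) ζ) (e p) L :=
      (LEL φ (fun j => (m j : ℝ)) ζ).hasFDerivAt.hasMFDerivAt
    have h1 : HasMFDerivAt 𝓘(ℂ, E) 𝓘(ℂ, E) (LE φ (fun j => (m j : ℝ)) ζ ∘ e) p (L.comp D) :=
      hL.comp p hD
    have h2 : HasMFDerivAt 𝓘(ℂ, E) 𝓘(ℂ, E) e.symm ((LE φ (fun j => (m j : ℝ)) ζ ∘ e) p) D' := by
      have : (LE φ (fun j => (m j : ℝ)) ζ ∘ e) p = e p := by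
        simp only [Function.comp_apply, hep, LE_zero_right]
      rw [this]; exact hD'
    have h3 : HasMFDerivAt 𝓘(ℂ, E) 𝓘(ℂ, E) (e.symm ∘ (LE φ (fun j => (m j : ℝ)) ζ ∘ e)) p
        (D'.comp (L.comp D)) := h2.comp p h1
    have h4 : (FS X ζ) =ᶠ[𝓝 p] (e.symm ∘ (LE φ (fun j => (m j : ℝ)) ζ ∘ e)) := by
      filter_upwards [hloc (|ζ.re| + 1) (by positivity)] with y hy
      exact (hy.2 ζ (by have := le_abs_self ζ.re; linarith)).2.2
    have h5 := (h3.congr_of_eventuallyEq h4).mfderiv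
    exact congrArg (fun A : E →L[ℂ] E => A v) h5

end Vale.Agent.P253.R2.H445
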