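import Vale.Agent.P253.R2.H445.VF.Src
import Vale.Agent.P253.R2.H445.VF.Grow

/-!
P253: uniformization by one complete holomorphic vector field with a periodic source.
-/

open scoped Manifold ContDiff Topology Bundle
open Set Metric Complex Filter Bundle IsManifold Manifold Vale.Agent.P253.Mfd Vale.Agent.P253.CStar

set_option maxSynthPendingDepth 3
set_option linter.unusedSectionVars false

noncomputable section

namespace Vale.Agent.P253.R2.H445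

variable {E : Type*} [NormedAddCommGroup E] [NormedSpace ℂ E] [FiniteDimensional ℂ E]
  {M : Type*} [MetricSpace M] [ChartedSpace E M]
  [IsManifold 𝓘(ℂ, E) 1 M] [IsManifold 𝓘(ℝ, E) ∞ M]
  {ι : Type*} [Fintype ι] {X : M → E} {p : M}

/-- the derivative of an equivariant map -/
theorem push_of_equivariant {φ : E ≃L[ℂ] (ι → ℂ)} {m : ι → ℝ} {G : M → E}
    (hG : MDifferentiable 𝓘(ℂ, E) 𝓘(ℂ, E) G)
    (hX : IsHolVectorField E X) (hDS : DS X = univ)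
    (h : ∀ (ζ : ℂ) (x : M), G (FS X ζ x) = LE φ m ζ (G x)) (x : M) :
    (mfderiv 𝓘(ℂ, E) 𝓘(ℂ, E) G x : E → E) (X x) = AE φ m (G x) := by
  let D : E →L[ℂ] E := mfderiv 𝓘(ℂ, E) 𝓘(ℂ, E) G x
  have h0 : OrbAt X (fun ζ => FS X ζ x) 0 := orb_FS hX x 0 (by rw [mem_ofPred_eq, hDS]; exact mem_univ _)
  have hF0 : FS X 0 x = x := FS_zero hX x
  have h1 : HasMFDerivAt 𝓘(ℂ, ℂ) 𝓘(ℂ, E) (fun ζ => FS X ζ x) 0 (dir (X x) : ℂ →L[ℂ] E) := by
    have h2 := h0
    unfold OrbAt at h2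
    simp only [hF0] at h2
    exact h2
  have hD : HasMFDerivAt 𝓘(ℂ, E) 𝓘(ℂ, E) G (FS X 0 x) D := by
    rw [hF0]; exact (hG x).hasMFDerivAt
  have h3 : HasMFDerivAt 𝓘(ℂ, ℂ) 𝓘(ℂ, E) (G ∘ fun ζ => FS X ζ x) 0 (D.comp (dir (X x)) : ℂ →L[ℂ] E) :=
    hD.comp (0:ℂ) h1
  have h4 : HasFDerivAt (G ∘ fun ζ => FS X ζ x) (D.comp (dir (X x))) 0 := h3.hasFDerivAt
  have h5 := h4.hasDerivAt
  have h6 : (G ∘ fun ζ => FS X ζ x) = fun ζ => LE φ m ζ (G x) := funext fun ζ => h ζ x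
  rw [h6] at h5
  have h7 := h5.unique (hasDerivAt_LE 0 (G x))
  rw [LE_zero] at h7
  rw [← h7]
  change D (X x) = (D.comp (dir (X x))) 1
  simp [dir]

variable [RiemannianBundle (fun x : M => TangentSpace 𝓘(ℝ, E) x)]
  [IsContMDiffRiemannianBundle 𝓘(ℝ, E) ∞ E (fun x : M => TangentSpace 𝓘(ℝ, E) x)]
  [IsRiemannianManifold 𝓘(ℝ, E) M]

/-- global linearization of a complete vector field with periodic flow -/
theorem linearize (hK : IsKahler E M) [CompleteSpace M] [NoncompactSpace M] [ConnectedSpace M]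
    (hnn : ∀ x : M, NonnegBisectionalAt E x) (hpos : PosBisectionalAt E p)
    (hX : IsHolVectorField E X) (hDS : DS X = univ)
    (h : HolC E (FS X)) (hp : ∀ ζ, FS X ζ p = p) {φ : E ≃L[ℂ] (ι → ℂ)} {m : ι → ℝ}
    (hm : ∀ j, 0 < m j) (D : E ≃L[ℂ] E)
    (hw : ∀ (ζ : ℂ) (v : E),
      (mfderiv 𝓘(ℂ, E) 𝓘(ℂ, E) (FS X ζ) p : E → E) v = LE (D.trans φ) m ζ v) :
    ∃ F : M ≃ₘ^1⟮𝓘(ℂ, E), 𝓘(ℂ, E)⟯ E, F p = 0 ∧
      ∀ x : M, (mfderiv 𝓘(ℂ, E) 𝓘(ℂ, E) F x : E → E) (X x) = AE φ m (F x) := by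
  obtain ⟨F, h0, h1, h2, -⟩ := main_psi hK hnn hpos h hp (D.trans φ) hm hw
  let DD : E ≃ₘ^1⟮𝓘(ℂ, E), 𝓘(ℂ, E)⟯ E :=
    { toFun := D
      invFun := D.symm
      left_inv := D.left_inv
      right_inv := D.right_inv
      contMDiff_toFun := D.contDiff.contMDiff
      contMDiff_invFun := D.symm.contDiff.contMDiff }
  let G : M ≃ₘ^1⟮𝓘(ℂ, E), 𝓘(ℂ, E)⟯ E := F.trans DD
  have hGa : ∀ x, G x = D (F x) := fun x => rfl
  refine ⟨G, by rw [hGa, h0, map_zero], fun x => ?_⟩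
  refine push_of_equivariant (G.contMDiff.mdifferentiable (by simp)) hX hDS (fun ζ x => ?_) x
  rw [hGa, hGa, h2, LE_trans_apply, ContinuousLinearEquiv.apply_symm_apply]

/-- Uniformization by a vector field which is linear in a chart centred at `p`, with positive
integer eigenvalues (up to one common factor). -/
theorem unif_of_linear_source (hK : IsKahler E M) [CompleteSpace M] [NoncompactSpace M]
    [ConnectedSpace M] (hnn : ∀ x : M, NonnegBisectionalAt E x) (hpos : PosBisectionalAt E p)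
    (hX : IsHolVectorField E X) (hDS : DS X = univ) {e : OpenPartialHomeomorph M E}
    (he : e ∈ maximalAtlas 𝓘(ℂ, E) 1 M) (hps : p ∈ e.source) (hep : e p = 0)
    {L : E →L[ℂ] E} (hv : ∀ z ∈ e.target, vfChart E X e z = L z) {c : ℂ} (hc : c ≠ 0)
    (b : Module.Basis (Fin (Module.finrank ℂ E)) ℂ E) {m : Fin (Module.finrank ℂ E) → ℕ}
    (hm : ∀ j, 0 < m j) (hL : ∀ j, L (b j) = (c * m j) • b j) :
    ∃ F : M ≃ₘ^1⟮𝓘(ℂ, E), 𝓘(ℂ, E)⟯ E, F p = 0 ∧
      ∀ x : M, (mfderiv 𝓘(ℂ, E) 𝓘(ℂ, E) F x : E → E) (X x) = L (F x) := by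
  set φ : E ≃L[ℂ] (Fin (Module.finrank ℂ E) → ℂ) := b.equivFun.toContinuousLinearEquiv with hφ
  have hAE : ∀ z : E, AE φ (fun j => (m j : ℝ)) z = c⁻¹ • L z := by
    intro z
    have h1 : z = ∑ j, b.repr z j • b j := (b.sum_repr z).symm
    have h2 : L z = ∑ j, (b.repr z j * (c * m j)) • b j := by
      conv_lhs => rw [h1]
      rw [map_sum]
      refine Finset.sum_congr rfl fun j _ => ?_
      rw [map_smul, hL, smul_smul]
    have h3 : AE φ (fun j => (m j : ℝ)) z = ∑ j, (((m j : ℝ) : ℂ) * b.repr z j) • b j := by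
      unfold AE
      exact b.equivFun_symm_apply _
    rw [h2, h3, Finset.smul_sum]
    refine Finset.sum_congr rfl fun j _ => ?_
    rw [smul_smul]
    congr 1
    push_cast
    field_simp
  have hX' := holVF_smX hX c⁻¹
  have hDS' := (DS_smX hX c⁻¹ hDS).1
  obtain ⟨h1, h2, D, h3⟩ := holC_of_source hX' hDS' he hps hep hm (φ := φ) (fun z hz => by
    rw [vfChart_smX, hv z hz, hAE])
  obtain ⟨F, h4, h5⟩ := linearize hK hnn hpos hX' hDS' h1 h2 (fun j => by exact_mod_cast hm j) D h3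
  refine ⟨F, h4, fun x => ?_⟩
  have h6 := h5 x
  rw [hAE] at h6
  let DF : E →L[ℂ] E := mfderiv 𝓘(ℂ, E) 𝓘(ℂ, E) F x
  have h7 : DF (c⁻¹ • X x) = c⁻¹ • DF (X x) := map_smul DF c⁻¹ (X x)
  have h8 : c⁻¹ • DF (X x) = c⁻¹ • L (F x) := h7.symm.trans h6
  exact smul_right_injective E (inv_ne_zero hc) h8

end Vale.Agent.P253.R2.H445
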